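/-
P162 (Thorp shuffle): basic objects.

Plan of the whole proof (paper proof; everything is elementary):
Let X be a finite set, n = |X|, pi an orthogonal representation of Perm X on V, and
  Delta = (1/2) sum_{x,y} (1 - pi(swap x y)),    heat c = exp(-(c/n) Delta).
Main inequality (Induction.lean): the Thorp network B_d on the cube satisfies
  ||B_d f||^2 <= <heat c f, f>  with an absolute constant c > 0,
so that d*r Thorp shuffles are dominated by random transposition for time r*c*n/..., and the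
L^2 analysis of random transpositions (Level.lean, Regular.lean) gives t_mix(2^d) = O(d^2).
-/
import Mathlib

open scoped InnerProductSpace BigOperators
open Finset

namespace Vale.Agent.P162

variable {X : Type*} [Fintype X] [DecidableEq X]
variable {V : Type*} [NormedAddCommGroup V] [InnerProductSpace ℝ V]

/-- Symmetric (self-adjoint) operator, in plain form. -/
def Symm (A : V →L[ℝ] V) : Prop := ∀ u v, ⟪A u, v⟫_ℝ = ⟪u, A v⟫_ℝ

/-- `π` is an orthogonal representation. -/
def IsOrth (π : Equiv.Perm X →* (V →L[ℝ] V)) : Prop :=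
  ∀ g u v, ⟪π g u, π g v⟫_ℝ = ⟪u, v⟫_ℝ

/-- The transposition Laplacian on the subset `S`:
`Δ^S = (1/2) ∑_{x,y ∈ S} (1 - π(swap x y))`. -/
noncomputable def lapOn (π : Equiv.Perm X →* (V →L[ℝ] V)) (S : Finset X) : V →L[ℝ] V :=
  (1 / 2 : ℝ) • ∑ x ∈ S, ∑ y ∈ S, (1 - π (Equiv.swap x y))

/-- The full transposition Laplacian. -/
noncomputable def lap (π : Equiv.Perm X →* (V →L[ℝ] V)) : V →L[ℝ] V := lapOn π univ

/-- The heat kernel `exp(-(c/|X|) Δ)`. -/
noncomputable def heat (π : Equiv.Perm X →* (V →L[ℝ] V)) (c : ℝ) : V →L[ℝ] V :=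
  NormedSpace.exp (-(c / Fintype.card X) • lap π)

section orth
variable {π : Equiv.Perm X →* (V →L[ℝ] V)} (hπ : IsOrth π)
include hπ

theorem IsOrth.inner_left (g : Equiv.Perm X) (u v : V) : ⟪π g u, v⟫_ℝ = ⟪u, π g⁻¹ v⟫_ℝ := by
  have h := hπ g u (π g⁻¹ v)
  have h2 : π g (π g⁻¹ v) = v := by
    have : π g * π g⁻¹ = 1 := by rw [← map_mul]; simp
    simpa using congrArg (fun A => A v) this
  rwa [h2] at h

theorem IsOrth.norm_map (g : Equiv.Perm X) (v : V) : ‖π g v‖ = ‖v‖ := by
  have h := hπ g v v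
  rw [real_inner_self_eq_norm_sq, real_inner_self_eq_norm_sq] at h
  have h1 := norm_nonneg (π g v)
  have h2 := norm_nonneg v
  nlinarith [sq_nonneg (‖π g v‖ - ‖v‖), sq_nonneg (‖π g v‖ + ‖v‖)]

theorem IsOrth.comp {Y : Type*} [Fintype Y] [DecidableEq Y]
    (ι : Equiv.Perm Y →* Equiv.Perm X) : IsOrth (π.comp ι) := fun g u v => hπ (ι g) u v

/-- `π (swap x y)` is symmetric. -/
theorem swap_symm (x y : X) (u v : V) :
    ⟪π (Equiv.swap x y) u, v⟫_ℝ = ⟪u, π (Equiv.swap x y) v⟫_ℝ := by
  rw [hπ.inner_left]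
  simp

theorem lapOn_symm (S : Finset X) : Symm (lapOn π S) := by
  intro u v
  simp only [lapOn, smul_apply, _root_.sum_apply,
    real_inner_smul_left, real_inner_smul_right, sum_inner, inner_sum,
    sub_apply, one_apply_eq_self, inner_sub_left, inner_sub_right,
    swap_symm hπ]

/-- Quadratic form of the Laplacian. -/
theorem inner_lapOn (S : Finset X) (v : V) :
    ⟪lapOn π S v, v⟫_ℝ = (1 / 2 : ℝ) * ∑ x ∈ S, ∑ y ∈ S, (‖v‖ ^ 2 - ⟪π (Equiv.swap x y) v, v⟫_ℝ) := by
  simp only [lapOn, smul_apply, _root_.sum_apply,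
    real_inner_smul_left, sum_inner,
    sub_apply, one_apply_eq_self, inner_sub_left,
    real_inner_self_eq_norm_sq]

/-- `⟪π(swap) v, v⟫ ≤ ‖v‖²`. -/
theorem inner_swap_le (x y : X) (v : V) : ⟪π (Equiv.swap x y) v, v⟫_ℝ ≤ ‖v‖ ^ 2 := by
  have h := real_inner_le_norm (π (Equiv.swap x y) v) v
  rw [hπ.norm_map] at h
  nlinarith

theorem lapOn_nonneg (S : Finset X) (v : V) : 0 ≤ ⟪lapOn π S v, v⟫_ℝ := by
  rw [inner_lapOn hπ]
  apply mul_nonneg (by norm_num)
  exact sum_nonneg fun x _ => sum_nonneg fun y _ => sub_nonneg.mpr (inner_swap_le hπ x y v)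

/-- `‖(π(swap) - 1) v‖² = 2(‖v‖² - ⟪π(swap) v, v⟫)`. -/
theorem norm_sub_sq_swap (x y : X) (v : V) :
    ‖π (Equiv.swap x y) v - v‖ ^ 2 = 2 * (‖v‖ ^ 2 - ⟪π (Equiv.swap x y) v, v⟫_ℝ) := by
  rw [@norm_sub_sq_real, hπ.norm_map]
  ring

end orth

/-- `π g` commutes with `Δ^S` if `g` preserves `S`. -/
theorem lapOn_commute (π : Equiv.Perm X →* (V →L[ℝ] V)) (S : Finset X) (g : Equiv.Perm X)
    (hg : ∀ x, g x ∈ S ↔ x ∈ S) : Commute (π g) (lapOn π S) := by
  have key : ∀ x y, π g * (1 - π (Equiv.swap x y)) =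
      (1 - π (Equiv.swap (g x) (g y))) * π g := by
    intro x y
    rw [mul_sub, sub_mul, mul_one, one_mul, ← map_mul, ← map_mul, Equiv.mul_swap_eq_swap_mul]
  have hsum : π g * (∑ x ∈ S, ∑ y ∈ S, (1 - π (Equiv.swap x y))) =
      (∑ x ∈ S, ∑ y ∈ S, (1 - π (Equiv.swap x y))) * π g := by
    rw [Finset.mul_sum, Finset.sum_mul]
    simp only [Finset.mul_sum, Finset.sum_mul, key]
    have hS : S.map g.toEmbedding = S := by
      ext z
      simp only [Finset.mem_map, Equiv.coe_toEmbedding]
      constructor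
      · rintro ⟨x, hx, rfl⟩
        exact (hg x).mpr hx
      · intro hz
        exact ⟨g⁻¹ z, (hg _).mp (by simpa using hz), by simp⟩
    conv_rhs => rw [← hS]
    simp only [Finset.sum_map, Equiv.coe_toEmbedding]
  show π g * lapOn π S = lapOn π S * π g
  unfold lapOn
  rw [mul_smul_comm, smul_mul_assoc, hsum]

/-- An operator commuting with all of `π` commutes with `lap π`. -/
theorem lap_commute_of (π : Equiv.Perm X →* (V →L[ℝ] V)) {A : V →L[ℝ] V}
    (h : ∀ g, Commute A (π g)) : Commute A (lap π) := by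
  unfold lap lapOn
  apply Commute.smul_right
  apply Commute.sum_right
  intro x _
  apply Commute.sum_right
  intro y _
  exact (Commute.one_right A).sub_right (h _)

theorem lap_commute (π : Equiv.Perm X →* (V →L[ℝ] V)) (g : Equiv.Perm X) :
    Commute (π g) (lap π) := lapOn_commute π univ g (by simp)

section heat
variable [CompleteSpace V]

/-- The exponential of a sum of commuting operators. -/
theorem exp_add_comm {A B : V →L[ℝ] V} (h : Commute A B) :
    NormedSpace.exp (A + B) = NormedSpace.exp A * NormedSpace.exp B := by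
  let _ : NormedAlgebra ℚ (V →L[ℝ] V) := NormedAlgebra.restrictScalars ℚ ℝ _
  exact NormedSpace.exp_add_of_commute h

variable (π : Equiv.Perm X →* (V →L[ℝ] V))

theorem heat_zero : heat π 0 = 1 := by
  simp [heat]

theorem heat_add (a b : ℝ) : heat π (a + b) = heat π a * heat π b := by
  unfold heat
  rw [← exp_add_comm]
  · congr 1
    rw [← add_smul]
    congr 1
    ring
  · exact ((Commute.refl (lap π)).smul_left _).smul_right _

/-- anything commuting with `lap π` commutes with `heat π c`. -/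
theorem heat_commute {A : V →L[ℝ] V} (h : Commute A (lap π)) (c : ℝ) : Commute A (heat π c) := by
  unfold heat
  exact Commute.exp_right (h.smul_right _)

theorem heat_commute_map (g : Equiv.Perm X) (c : ℝ) : Commute (π g) (heat π c) :=
  heat_commute π (lap_commute π g) c

end heat

end Vale.Agent.P162
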