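/-
P162: spectral helpers for symmetric operators on a finite-dimensional real inner product space.
-/
import Vale.Agent.P162.Basic

open scoped InnerProductSpace BigOperators
open Finset

namespace Vale.Agent.P162

variable {V : Type*} [NormedAddCommGroup V] [InnerProductSpace ℝ V]

section eigen
variable [FiniteDimensional ℝ V]

/-- Orthonormal eigenbasis of a symmetric operator. -/
theorem exists_eigen (A : V →L[ℝ] V) (hA : Symm A) :
    ∃ (b : OrthonormalBasis (Fin (Module.finrank ℝ V)) ℝ V) (a : Fin (Module.finrank ℝ V) → ℝ),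
      ∀ i, A (b i) = a i • b i := by
  have hS : (A : V →ₗ[ℝ] V).IsSymmetric := fun u v => hA u v
  refine ⟨hS.eigenvectorBasis rfl, hS.eigenvalues rfl, fun i => ?_⟩
  have := hS.apply_eigenvectorBasis rfl i
  simpa only [RCLike.ofReal_real_eq_id, id, ContinuousLinearMap.coe_coe] using this

end eigen

section sums

variable {ι : Type*} [Fintype ι] {A : V →L[ℝ] V} (b : OrthonormalBasis ι ℝ V) {a : ι → ℝ}
  (hb : ∀ i, A (b i) = a i • b i)

theorem norm_sq_eq_sum (v : V) : ‖v‖ ^ 2 = ∑ i, ⟪v, b i⟫_ℝ ^ 2 := by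
  rw [← b.sum_sq_norm_inner_right v]
  simp [real_inner_comm, sq_abs]

include hb

theorem inner_apply_eq_sum (u v : V) : ⟪A u, v⟫_ℝ = ∑ i, a i * (⟪u, b i⟫_ℝ * ⟪v, b i⟫_ℝ) := by
  have hu : A u = ∑ i, (⟪b i, u⟫_ℝ * a i) • b i := by
    conv_lhs => rw [← b.sum_repr' u]
    simp [map_sum, hb, smul_smul]
  rw [hu, sum_inner]
  refine Finset.sum_congr rfl fun i _ => ?_
  rw [real_inner_smul_left, real_inner_comm (b i) u, real_inner_comm v (b i)]
  ring

theorem norm_apply_sq_eq_sum (v : V) : ‖A v‖ ^ 2 = ∑ i, a i ^ 2 * ⟪v, b i⟫_ℝ ^ 2 := by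
  have hv : A v = ∑ i, (⟪b i, v⟫_ℝ * a i) • b i := by
    conv_lhs => rw [← b.sum_repr' v]
    simp [map_sum, hb, smul_smul]
  rw [norm_sq_eq_sum b (A v)]
  refine Finset.sum_congr rfl fun i _ => ?_
  have : ⟪A v, b i⟫_ℝ = a i * ⟪v, b i⟫_ℝ := by
    rw [hv, sum_inner, Finset.sum_eq_single i]
    · rw [real_inner_smul_left, real_inner_self_eq_norm_sq, b.norm_eq_one, real_inner_comm]
      ring
    · intro j _ hj
      rw [real_inner_smul_left, b.orthonormal.2 hj, mul_zero]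
    · simp
  rw [this]
  ring

end sums

section exp
variable [CompleteSpace V]

/-- exponential on an eigenvector -/
theorem exp_apply_of_eigen (A : V →L[ℝ] V) {a : ℝ} {u : V} (h : A u = a • u) :
    NormedSpace.exp A u = Real.exp a • u := by
  have h1 : HasSum (fun n : ℕ => ((n.factorial : ℝ)⁻¹) • A ^ n) (NormedSpace.exp A) :=
    NormedSpace.exp_series_hasSum_exp' (𝕂 := ℝ) A
  have h2 : HasSum (fun n : ℕ => ((n.factorial : ℝ)⁻¹) • (A ^ n) u) (NormedSpace.exp A u) := by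
    have := h1.mapL (ContinuousLinearMap.apply ℝ V u)
    simpa using this
  have h3 : HasSum (fun n : ℕ => ((n.factorial : ℝ)⁻¹) • a ^ n) (Real.exp a) := by
    rw [Real.exp_eq_exp_ℝ]
    exact NormedSpace.exp_series_hasSum_exp' (𝕂 := ℝ) a
  have h4 : ∀ n : ℕ, (A ^ n) u = a ^ n • u := by
    intro n
    induction n with
    | zero => simp
    | succ n ih =>
      rw [pow_succ', mul_apply_eq_comp, ih, map_smul, h, smul_smul, pow_succ]
  have h5 : HasSum (fun n : ℕ => ((n.factorial : ℝ)⁻¹) • (A ^ n) u) (Real.exp a • u) := by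
    have := h3.smul_const u
    convert this using 2 with n
    rw [h4, smul_smul, smul_eq_mul]
  exact h2.unique h5

/-- Exponential series, tested against a vector. -/
theorem hasSum_inner_exp (A : V →L[ℝ] V) (u v : V) :
    HasSum (fun r : ℕ => ((r.factorial : ℝ)⁻¹) * ⟪(A ^ r) u, v⟫_ℝ) ⟪NormedSpace.exp A u, v⟫_ℝ := by
  have h1 : HasSum (fun n : ℕ => ((n.factorial : ℝ)⁻¹) • A ^ n) (NormedSpace.exp A) :=
    NormedSpace.exp_series_hasSum_exp' (𝕂 := ℝ) A
  have h2 : HasSum (fun n : ℕ => ((n.factorial : ℝ)⁻¹) • (A ^ n) u) (NormedSpace.exp A u) := by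
    have := h1.mapL (ContinuousLinearMap.apply ℝ V u)
    simpa using this
  have h3 := h2.mapL ((innerSL ℝ v : V →L[ℝ] ℝ))
  simp only [innerSL_apply_apply, map_smul, smul_eq_mul] at h3
  simpa [real_inner_comm] using h3

variable {ι : Type*} [Fintype ι] {A : V →L[ℝ] V} (b : OrthonormalBasis ι ℝ V) {a : ι → ℝ}
  (hb : ∀ i, A (b i) = a i • b i)

include hb

theorem inner_exp_eq_sum (t : ℝ) (u v : V) :
    ⟪NormedSpace.exp (t • A) u, v⟫_ℝ = ∑ i, Real.exp (t * a i) * (⟪u, b i⟫_ℝ * ⟪v, b i⟫_ℝ) := by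
  have hb' : ∀ i, NormedSpace.exp (t • A) (b i) = Real.exp (t * a i) • b i := by
    intro i
    apply exp_apply_of_eigen
    simp [hb, smul_smul]
  have hu : NormedSpace.exp (t • A) u = ∑ i, (⟪b i, u⟫_ℝ * Real.exp (t * a i)) • b i := by
    conv_lhs => rw [← b.sum_repr' u]
    simp [map_sum, hb', smul_smul]
  rw [hu, sum_inner]
  refine Finset.sum_congr rfl fun i _ => ?_
  rw [real_inner_smul_left, real_inner_comm (b i) u, real_inner_comm v (b i)]
  ring

end exp

section exp2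
variable [FiniteDimensional ℝ V] [CompleteSpace V]

theorem exp_symm {A : V →L[ℝ] V} (hA : Symm A) (t : ℝ) : Symm (NormedSpace.exp (t • A)) := by
  intro u v
  obtain ⟨b, a, hb⟩ := exists_eigen A hA
  rw [real_inner_comm (NormedSpace.exp (t • A) v) u, inner_exp_eq_sum b hb, inner_exp_eq_sum b hb]
  refine Finset.sum_congr rfl fun i _ => ?_
  ring

/-- `exp(tA) ≥ 1 + tA` in quadratic form. -/
theorem exp_ge {A : V →L[ℝ] V} (hA : Symm A) (t : ℝ) (v : V) :
    ‖v‖ ^ 2 + t * ⟪A v, v⟫_ℝ ≤ ⟪NormedSpace.exp (t • A) v, v⟫_ℝ := by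
  obtain ⟨b, a, hb⟩ := exists_eigen A hA
  rw [inner_exp_eq_sum b hb, inner_apply_eq_sum b hb, norm_sq_eq_sum b, Finset.mul_sum,
    ← Finset.sum_add_distrib]
  refine Finset.sum_le_sum fun i _ => ?_
  have h1 := Real.add_one_le_exp (t * a i)
  have h2 : 0 ≤ ⟪v, b i⟫_ℝ * ⟪v, b i⟫_ℝ := mul_self_nonneg _
  nlinarith

/-- If every eigenvector of `A` in the invariant subspace `W` has eigenvalue `≥ κ`, then
`A ≥ κ` on `W`. -/
theorem le_inner_of_eigen {A : V →L[ℝ] V} (hA : Symm A) (W : Submodule ℝ V)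
    (hW : ∀ f ∈ W, A f ∈ W) (κ : ℝ)
    (h : ∀ f ∈ W, f ≠ 0 → ∀ δ : ℝ, A f = δ • f → κ ≤ δ) :
    ∀ f ∈ W, κ * ‖f‖ ^ 2 ≤ ⟪A f, f⟫_ℝ := by
  intro f hf
  -- restrict to `W`
  let A' : W →L[ℝ] W := ((A : V →ₗ[ℝ] V).restrict hW).toContinuousLinearMap
  have hA' : Symm A' := by
    intro u v
    exact hA (u : V) (v : V)
  obtain ⟨b, a, hb⟩ := exists_eigen A' hA'
  have hbA : ∀ i, A (b i : V) = a i • (b i : V) := by
    intro i
    exact congrArg (Subtype.val) (hb i)
  have ha : ∀ i, κ ≤ a i := by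
    intro i
    refine h (b i : V) (b i).2 ?_ (a i) (hbA i)
    intro h0
    have h1 := b.norm_eq_one i
    have h2 : (b i) = 0 := Subtype.ext h0
    rw [h2, norm_zero] at h1
    exact zero_ne_one h1
  have h1 := inner_apply_eq_sum (A := A') b hb ⟨f, hf⟩ ⟨f, hf⟩
  have h2 := norm_sq_eq_sum b (⟨f, hf⟩ : W)
  have h3 : ⟪A' ⟨f, hf⟩, ⟨f, hf⟩⟫_ℝ = ⟪A f, f⟫_ℝ := rfl
  have h4 : ‖(⟨f, hf⟩ : W)‖ = ‖f‖ := rfl
  rw [h3] at h1
  rw [h4] at h2
  rw [h1, h2, Finset.mul_sum]
  refine Finset.sum_le_sum fun i _ => ?_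
  have := ha i
  have h5 : 0 ≤ ⟪(⟨f, hf⟩ : W), b i⟫_ℝ ^ 2 := sq_nonneg _
  nlinarith

/-- Weyl counting: if `A ≥ κ` on `W`, the number of eigenvalues below `κ` is at most the
codimension of `W`. -/
theorem card_eigen_lt_add_finrank_le {ι : Type*} [Fintype ι] {A : V →L[ℝ] V}
    (b : OrthonormalBasis ι ℝ V) {a : ι → ℝ} (hb : ∀ i, A (b i) = a i • b i)
    (W : Submodule ℝ V) (κ : ℝ) (h : ∀ f ∈ W, κ * ‖f‖ ^ 2 ≤ ⟪A f, f⟫_ℝ) :
    (univ.filter (fun i => a i < κ)).card + Module.finrank ℝ W ≤ Module.finrank ℝ V := by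
  classical
  let e : {i // a i < κ} → V := fun i => b i
  have hli : LinearIndependent ℝ e :=
    (b.orthonormal.linearIndependent).comp (fun i : {i // a i < κ} => (i : ι)) Subtype.val_injective
  let E : Submodule ℝ V := Submodule.span ℝ (Set.range e)
  have hE : Module.finrank ℝ E = (univ.filter (fun i => a i < κ)).card := by
    rw [finrank_span_eq_card hli, Fintype.card_subtype]
  have hperp : ∀ f ∈ E, ∀ j, ¬ a j < κ → ⟪f, b j⟫_ℝ = 0 := by
    intro f hf j hj
    induction hf using Submodule.span_induction with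
    | mem x hx =>
      obtain ⟨i, rfl⟩ := hx
      refine b.orthonormal.2 ?_
      intro hij
      apply hj
      have hij' : (i : ι) = j := hij
      rw [← hij']
      exact i.2
    | zero => simp
    | add x y _ _ hx hy => rw [inner_add_left, hx, hy, add_zero]
    | smul c x _ hx => rw [real_inner_smul_left, hx, mul_zero]
  have hdisj : Disjoint E W := by
    rw [Submodule.disjoint_def]
    intro f hfE hfW
    have h1 := h f hfW
    rw [inner_apply_eq_sum b hb, norm_sq_eq_sum b, Finset.mul_sum] at h1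
    have hterm : ∀ j, (a j - κ) * ⟪f, b j⟫_ℝ ^ 2 ≤ 0 := by
      intro j
      by_cases hj : a j < κ
      · have : 0 ≤ ⟪f, b j⟫_ℝ ^ 2 := sq_nonneg _
        nlinarith
      · rw [hperp f hfE j hj]
        simp
    have hsum : 0 ≤ ∑ j, (a j - κ) * ⟪f, b j⟫_ℝ ^ 2 := by
      have : ∑ j, (a j - κ) * ⟪f, b j⟫_ℝ ^ 2 =
          ∑ j, a j * (⟪f, b j⟫_ℝ * ⟪f, b j⟫_ℝ) - ∑ j, κ * ⟪f, b j⟫_ℝ ^ 2 := by
        rw [← Finset.sum_sub_distrib]
        refine Finset.sum_congr rfl fun j _ => ?_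
        ring
      rw [this]
      linarith
    have hzero : ∀ j, (a j - κ) * ⟪f, b j⟫_ℝ ^ 2 = 0 := by
      intro j
      have := (Finset.sum_eq_zero_iff_of_nonpos (fun j _ => hterm j)).mp
        (le_antisymm (Finset.sum_nonpos fun j _ => hterm j) hsum) j (mem_univ j)
      exact this
    have hz : ∀ j, ⟪f, b j⟫_ℝ = 0 := by
      intro j
      by_cases hj : a j < κ
      · have := hzero j
        have h2 : a j - κ ≠ 0 := (sub_neg.mpr hj).ne
        simpa [h2] using this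
      · exact hperp f hfE j hj
    have : ‖f‖ ^ 2 = 0 := by
      rw [norm_sq_eq_sum b]
      simp [hz]
    simpa using this
  have := Submodule.finrank_add_finrank_le_of_disjoint hdisj
  rw [hE] at this
  exact this

end exp2

section heat
variable {X : Type*} [Fintype X] [DecidableEq X]
variable [FiniteDimensional ℝ V] [CompleteSpace V]
variable {π : Equiv.Perm X →* (V →L[ℝ] V)} (hπ : IsOrth π)
include hπ

theorem heat_symm (c : ℝ) : Symm (heat π c) := by
  unfold heat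
  exact exp_symm (lapOn_symm hπ univ) _

/-- Semigroup in quadratic form. -/
theorem inner_heat_half (c : ℝ) (u v : V) :
    ⟪heat π c u, v⟫_ℝ = ⟪heat π (c / 2) u, heat π (c / 2) v⟫_ℝ := by
  have h : heat π c = heat π (c / 2) * heat π (c / 2) := by
    rw [← heat_add]
    congr 1
    ring
  rw [h, mul_apply_eq_comp, heat_symm hπ]

theorem heat_antitone {a b : ℝ} (hab : a ≤ b) (v : V) :
    ⟪heat π b v, v⟫_ℝ ≤ ⟪heat π a v, v⟫_ℝ := by
  obtain ⟨e, l, he⟩ := exists_eigen (lap π) (lapOn_symm hπ univ)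
  have hl : ∀ i, 0 ≤ l i := by
    intro i
    have h1 := lapOn_nonneg hπ univ (e i)
    have h2 : lapOn π univ (e i) = l i • e i := he i
    rw [h2, real_inner_smul_left, real_inner_self_eq_norm_sq, e.norm_eq_one] at h1
    simpa using h1
  unfold heat
  rw [inner_exp_eq_sum e he, inner_exp_eq_sum e he]
  refine Finset.sum_le_sum fun i _ => ?_
  apply mul_le_mul_of_nonneg_right _ (mul_self_nonneg _)
  apply Real.exp_le_exp.mpr
  have h3 : a / (Fintype.card X : ℝ) ≤ b / (Fintype.card X : ℝ) :=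
    div_le_div_of_nonneg_right hab (Nat.cast_nonneg _)
  have := hl i
  simp only [neg_mul, neg_le_neg_iff]
  exact mul_le_mul_of_nonneg_right h3 this

end heat

end Vale.Agent.P162
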