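/-
P162: averaging a representation over a subgroup.
-/
import Vale.Agent.P162.Spectral

open scoped InnerProductSpace BigOperators
open Finset

namespace Vale.Agent.P162

variable {X : Type*} [Fintype X] [DecidableEq X]
variable {V : Type*} [NormedAddCommGroup V] [InnerProductSpace ℝ V]

open Classical in
/-- The elements of a subgroup of `Perm X`, as a finset. -/
noncomputable def mems (H : Subgroup (Equiv.Perm X)) : Finset (Equiv.Perm X) :=
  univ.filter (fun g => g ∈ H)

@[simp] theorem mem_mems (H : Subgroup (Equiv.Perm X)) (g : Equiv.Perm X) :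
    g ∈ mems H ↔ g ∈ H := by
  simp [mems]

/-- Average of `π` over the subgroup `H`. -/
noncomputable def avgOn (π : Equiv.Perm X →* (V →L[ℝ] V)) (H : Subgroup (Equiv.Perm X)) :
    V →L[ℝ] V :=
  ((mems H).card : ℝ)⁻¹ • ∑ g ∈ mems H, π g

variable (π : Equiv.Perm X →* (V →L[ℝ] V)) (H K : Subgroup (Equiv.Perm X))

/-- Translating the sum over a subgroup, on the left. -/
theorem sum_mems_mul_left {α : Type*} [AddCommMonoid α] (f : Equiv.Perm X → α) {g : Equiv.Perm X}
    (hg : g ∈ H) : ∑ h ∈ mems H, f (g * h) = ∑ h ∈ mems H, f h := by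
  refine Finset.sum_bij' (fun h _ => g * h) (fun h _ => g⁻¹ * h) ?_ ?_ ?_ ?_ ?_
  · intro h hh
    simp only [mem_mems] at hh ⊢
    exact H.mul_mem hg hh
  · intro h hh
    simp only [mem_mems] at hh ⊢
    exact H.mul_mem (H.inv_mem hg) hh
  · intro h _
    simp
  · intro h _
    simp
  · intro h _
    rfl

/-- Translating the sum over a subgroup, on the right. -/
theorem sum_mems_mul_right {α : Type*} [AddCommMonoid α] (f : Equiv.Perm X → α) {g : Equiv.Perm X}
    (hg : g ∈ H) : ∑ h ∈ mems H, f (h * g) = ∑ h ∈ mems H, f h := by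
  refine Finset.sum_bij' (fun h _ => h * g) (fun h _ => h * g⁻¹) ?_ ?_ ?_ ?_ ?_
  · intro h hh
    simp only [mem_mems] at hh ⊢
    exact H.mul_mem hh hg
  · intro h hh
    simp only [mem_mems] at hh ⊢
    exact H.mul_mem hh (H.inv_mem hg)
  · intro h _
    simp
  · intro h _
    simp
  · intro h _
    rfl

theorem mems_card_pos : (0 : ℝ) < ((mems H).card : ℝ) := by
  have : (1 : Equiv.Perm X) ∈ mems H := by simp [H.one_mem]
  exact_mod_cast Finset.card_pos.mpr ⟨1, this⟩

theorem avgOn_mul_left {g : Equiv.Perm X} (hg : g ∈ H) : π g * avgOn π H = avgOn π H := by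
  unfold avgOn
  rw [mul_smul_comm, Finset.mul_sum]
  congr 1
  simp only [← map_mul]
  exact sum_mems_mul_left H (fun h => π h) hg

theorem avgOn_mul_right {g : Equiv.Perm X} (hg : g ∈ H) : avgOn π H * π g = avgOn π H := by
  unfold avgOn
  rw [smul_mul_assoc, Finset.sum_mul]
  congr 1
  simp only [← map_mul]
  exact sum_mems_mul_right H (fun h => π h) hg

/-- Absorption of the average of a smaller group, on the right. -/
theorem avgOn_mul_of_le_aux {H K : Subgroup (Equiv.Perm X)} (h : H ≤ K) :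
    avgOn π K * avgOn π H = avgOn π K := by
  conv_lhs => rw [show avgOn π H = ((mems H).card : ℝ)⁻¹ • ∑ g ∈ mems H, π g from rfl]
  rw [mul_smul_comm, Finset.mul_sum]
  have h1 : ∀ g ∈ mems H, avgOn π K * π g = avgOn π K := by
    intro g hg
    exact avgOn_mul_right π K (h ((mem_mems H g).mp hg))
  rw [Finset.sum_congr rfl h1, Finset.sum_const, ← Nat.cast_smul_eq_nsmul ℝ, smul_smul,
    inv_mul_cancel₀ (mems_card_pos H).ne', one_smul]

/-- Absorption of the average of a smaller group, on the left. -/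
theorem avgOn_mul_of_le_aux' {H K : Subgroup (Equiv.Perm X)} (h : H ≤ K) :
    avgOn π H * avgOn π K = avgOn π K := by
  conv_lhs => rw [show avgOn π H = ((mems H).card : ℝ)⁻¹ • ∑ g ∈ mems H, π g from rfl]
  rw [smul_mul_assoc, Finset.sum_mul]
  have h1 : ∀ g ∈ mems H, π g * avgOn π K = avgOn π K := by
    intro g hg
    exact avgOn_mul_left π K (h ((mem_mems H g).mp hg))
  rw [Finset.sum_congr rfl h1, Finset.sum_const, ← Nat.cast_smul_eq_nsmul ℝ, smul_smul,
    inv_mul_cancel₀ (mems_card_pos H).ne', one_smul]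

theorem avgOn_idem : avgOn π H * avgOn π H = avgOn π H :=
  avgOn_mul_of_le_aux π le_rfl

/-- `P_K P_H = P_K = P_H P_K` for `H ≤ K`. -/
theorem avgOn_mul_of_le (h : H ≤ K) : avgOn π K * avgOn π H = avgOn π K :=
  avgOn_mul_of_le_aux π h

theorem avgOn_mul_of_le' (h : H ≤ K) : avgOn π H * avgOn π K = avgOn π K :=
  avgOn_mul_of_le_aux' π h

/-- fixed vectors are fixed by the average -/
theorem avgOn_apply_of_fixed {v : V} (hv : ∀ g ∈ H, π g v = v) : avgOn π H v = v := by
  unfold avgOn
  rw [smul_apply, _root_.sum_apply]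
  have h1 : ∀ g ∈ mems H, π g v = v := fun g hg => hv g ((mem_mems H g).mp hg)
  rw [Finset.sum_congr rfl h1, Finset.sum_const, ← Nat.cast_smul_eq_nsmul ℝ, smul_smul,
    inv_mul_cancel₀ (mems_card_pos H).ne', one_smul]

theorem avgOn_map_apply {g : Equiv.Perm X} (hg : g ∈ H) (v : V) : π g (avgOn π H v) = avgOn π H v := by
  have := congrArg (fun A : V →L[ℝ] V => A v) (avgOn_mul_left π H hg)
  simpa using this

theorem avgOn_commute {A : V →L[ℝ] V} (h : ∀ g ∈ H, Commute A (π g)) :
    Commute A (avgOn π H) := by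
  unfold avgOn
  apply Commute.smul_right
  apply Commute.sum_right
  intro g hg
  exact h g ((mem_mems H g).mp hg)

/-- Bijection invariance: `avgOn (π ∘ ι) H' = avgOn π (H'.map ι)` for injective `ι`. -/
theorem avgOn_comp_map {Y : Type*} [Fintype Y] [DecidableEq Y]
    (ι : Equiv.Perm Y →* Equiv.Perm X) (hι : Function.Injective ι)
    (H' : Subgroup (Equiv.Perm Y)) :
    avgOn (π.comp ι) H' = avgOn π (H'.map ι) := by
  classical
  have hm : mems (H'.map ι) = (mems H').map ⟨ι, hι⟩ := by
    ext g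
    simp [mems, Subgroup.mem_map]
  unfold avgOn
  rw [hm, Finset.card_map, Finset.sum_map]
  rfl

section orth
variable {π} (hπ : IsOrth π)
include hπ

theorem avgOn_symm : Symm (avgOn π H) := by
  intro u v
  unfold avgOn
  simp only [smul_apply, _root_.sum_apply, real_inner_smul_left, real_inner_smul_right, sum_inner,
    inner_sum]
  congr 1
  simp only [hπ.inner_left]
  refine Finset.sum_bij' (fun h _ => h⁻¹) (fun h _ => h⁻¹) ?_ ?_ ?_ ?_ ?_
  · intro h hh
    simp only [mem_mems] at hh ⊢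
    exact H.inv_mem hh
  · intro h hh
    simp only [mem_mems] at hh ⊢
    exact H.inv_mem hh
  · intro h _
    simp
  · intro h _
    simp
  · intro h _
    rfl

theorem avgOn_norm_le (v : V) : ‖avgOn π H v‖ ≤ ‖v‖ := by
  unfold avgOn
  rw [smul_apply, _root_.sum_apply, norm_smul]
  have h1 : ‖∑ g ∈ mems H, π g v‖ ≤ ∑ g ∈ mems H, ‖v‖ :=
    (norm_sum_le _ _).trans (Finset.sum_le_sum fun g _ => (hπ.norm_map g v).le)
  rw [Finset.sum_const, nsmul_eq_mul] at h1
  have h2 := mems_card_pos H
  rw [Real.norm_eq_abs, abs_of_pos (inv_pos.mpr h2)]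
  calc ((mems H).card : ℝ)⁻¹ * ‖∑ g ∈ mems H, π g v‖
      ≤ ((mems H).card : ℝ)⁻¹ * (((mems H).card : ℝ) * ‖v‖) :=
        mul_le_mul_of_nonneg_left h1 (inv_pos.mpr h2).le
    _ = ‖v‖ := by rw [← mul_assoc, inv_mul_cancel₀ h2.ne', one_mul]

end orth

end Vale.Agent.P162
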