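/-
P162: the level lemma and the lower bound for the transposition Laplacian.

P_F := average of π over the pointwise stabiliser G_F of F ⊆ X. For a fixed S ⊆ X the relevant
projections are P_{R ∪ Sᶜ}, R ⊆ S.

* coset formula: if x ∉ F' and w is fixed by G_{F' ∪ {x}} then
    ∑_{y ∉ F'} π(swap x y) w = |F'ᶜ| • P_{F'} w.
  Proof: A = ∑_{y ∉ F'} π(swap x y). For g ∈ G_{F'}, g swap(x,y) = swap(x,g y) k with k ∈ G_{F'∪{x}};
  so A w is fixed by G_{F'}, so A w = P_{F'} A w = ∑_y P_{F'} π(swap x y) w = |F'ᶜ| P_{F'} w.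

* level lemma: if Δ^S f = δ f, R ⊆ S has P_{R ∪ Sᶜ} f ≠ 0 and P_{R' ∪ Sᶜ} f = 0 for all R' ⊆ S with
  |R'| < |R| =: k, then δ ≥ k (|S| - k + 1). Proof: u = P_{R∪Sᶜ} f ≠ 0, Δ^S u = δ u since P commutes
  with Δ^S. Split the pairs: pairs in S∖R fix u; for x ∈ R: F' = (R∖x) ∪ Sᶜ, the coset formula and
  P_{F'} u = P_{F'} f = 0 give ∑_{y ∈ S∖R} π(swap x y) u = -u, so ∑_{y∈S∖R} (1 - π swap) u = (s-k+1) u.
  So Δ^S u = k(s-k+1) u + Δ^R u, and Δ^R ≥ 0.

* deep bound: f ∈ lowFix S (|S|/2), |S| even ⟹ ⟨Δ^S f, f⟩ ≥ (3/16)|S|²‖f‖². Strong induction on |S|.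
  By le_inner_of_eigen assume f an eigenvector, of level k ≥ s/2 (and k ≤ s-1).
  If k ≤ 3s/4: k(s-k+1) ≥ (3/16)s². If k > 3s/4, let w = 2(s-k) ≥ 2; for S' ⊆ S, |S'| = w,
  f ∈ lowFix S' (w/2) since R'∪S'ᶜ = (R' ∪ (S∖S')) ∪ Sᶜ with |R'∪(S∖S')| < k; sum over S' using
  ∑_{S'} Δ^{S'} = C(s-2,w-2) Δ^S.

* lap_lower: for |X| = n even, 1 ≤ j ≤ n/2, f ∈ lowFix univ j: ⟨Δ f, f⟩ ≥ (3n/8) j ‖f‖².
-/
import Vale.Agent.P162.Avg

open scoped InnerProductSpace BigOperators
open Finset

namespace Vale.Agent.P162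

variable {X : Type*} [Fintype X] [DecidableEq X]
variable {V : Type*} [NormedAddCommGroup V] [InnerProductSpace ℝ V]

/-- Pointwise stabiliser of `F`. -/
def fixG (F : Finset X) : Subgroup (Equiv.Perm X) where
  carrier := {g | ∀ x ∈ F, g x = x}
  mul_mem' := by
    intro a b ha hb x hx
    simp only [Set.mem_setOf_eq] at ha hb
    simp [hb x hx, ha x hx]
  one_mem' := by intro x _; rfl
  inv_mem' := by
    intro a ha x hx
    simp only [Set.mem_setOf_eq] at ha
    have := ha x hx
    rw [Equiv.Perm.inv_eq_iff_eq]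
    exact this.symm

@[simp] theorem mem_fixG (F : Finset X) (g : Equiv.Perm X) :
    g ∈ fixG F ↔ ∀ x ∈ F, g x = x := Iff.rfl

theorem fixG_anti {F F' : Finset X} (h : F' ⊆ F) : fixG F ≤ fixG F' := by
  intro g hg x hx
  exact hg x (h hx)

/-- `P_F` -/
noncomputable abbrev fixAvg (π : Equiv.Perm X →* (V →L[ℝ] V)) (F : Finset X) : V →L[ℝ] V :=
  avgOn π (fixG F)

variable (π : Equiv.Perm X →* (V →L[ℝ] V))

/-- Coset formula. -/
theorem coset_formula {x : X} {F' : Finset X} (hx : x ∉ F') {w : V}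
    (hw : ∀ g ∈ fixG (insert x F'), π g w = w) :
    ∑ y ∈ F'ᶜ, π (Equiv.swap x y) w = (F'ᶜ.card : ℝ) • fixAvg π F' w := by
  have hsw : ∀ y ∈ F'ᶜ, Equiv.swap x y ∈ fixG F' := by
    intro y hy z hz
    apply Equiv.swap_apply_of_ne_of_ne
    · rintro rfl
      exact hx hz
    · rintro rfl
      exact (Finset.mem_compl.mp hy) hz
  have hmemc : ∀ g ∈ fixG F', ∀ y, y ∈ F'ᶜ ↔ g y ∈ F'ᶜ := by
    intro g hg y
    simp only [Finset.mem_compl]
    constructor
    · intro hy hgy
      have h1 : g (g y) = g y := hg _ hgy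
      have h2 : g y = y := g.injective h1
      rw [h2] at hgy
      exact hy hgy
    · intro hgy hy
      have h1 : g y = y := hg y hy
      rw [h1] at hgy
      exact hgy hy
  have hfix : ∀ g ∈ fixG F', π g (∑ y ∈ F'ᶜ, π (Equiv.swap x y) w) = ∑ y ∈ F'ᶜ, π (Equiv.swap x y) w := by
    intro g hg
    rw [map_sum]
    refine Finset.sum_equiv g (hmemc g hg) ?_
    intro y hy
    have hgy : g y ∉ F' := Finset.mem_compl.mp ((hmemc g hg y).mp hy)
    have hy' : y ∉ F' := Finset.mem_compl.mp hy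
    have hk : Equiv.swap x (g y) * g * Equiv.swap x y ∈ fixG (insert x F') := by
      intro z hz
      rcases Finset.mem_insert.mp hz with rfl | hz'
      · simp
      · have hzx : z ≠ x := by
          rintro rfl
          exact hx hz'
        have hzy : z ≠ y := by
          rintro rfl
          exact hy' hz'
        have hgz : g z = z := hg z hz'
        have hzgy : z ≠ g y := by
          rintro rfl
          exact hgy hz'
        simp only [Equiv.Perm.coe_mul, Function.comp_apply]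
        rw [Equiv.swap_apply_of_ne_of_ne hzx hzy, hgz, Equiv.swap_apply_of_ne_of_ne hzx hzgy]
    have hmul : g * Equiv.swap x y = Equiv.swap x (g y) * (Equiv.swap x (g y) * g * Equiv.swap x y) := by
      simp [← mul_assoc]
    calc π g (π (Equiv.swap x y) w) = π (g * Equiv.swap x y) w := by
          rw [map_mul]
          rfl
      _ = π (Equiv.swap x (g y) * (Equiv.swap x (g y) * g * Equiv.swap x y)) w := by rw [← hmul]
      _ = π (Equiv.swap x (g y)) (π (Equiv.swap x (g y) * g * Equiv.swap x y) w) := by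
          rw [map_mul]
          rfl
      _ = π (Equiv.swap x (g y)) w := by rw [hw _ hk]
  have h1 := avgOn_apply_of_fixed π (fixG F') hfix
  rw [← h1, map_sum]
  have h2 : ∀ y ∈ F'ᶜ, fixAvg π F' (π (Equiv.swap x y) w) = fixAvg π F' w := by
    intro y hy
    have := avgOn_mul_right π (fixG F') (hsw y hy)
    exact congrArg (fun A : V →L[ℝ] V => A w) this
  rw [Finset.sum_congr rfl h2, Finset.sum_const, ← Nat.cast_smul_eq_nsmul ℝ]

theorem fixAvg_commute_lapOn (S R : Finset X) :
    Commute (fixAvg π (R ∪ Sᶜ)) (lapOn π S) := by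
  apply Commute.symm
  apply avgOn_commute
  intro g hg
  apply Commute.symm
  apply lapOn_commute
  intro x
  constructor
  · intro hgx
    by_contra hx
    have h1 : g x = x := hg x (Finset.mem_union_right _ (Finset.mem_compl.mpr hx))
    rw [h1] at hgx
    exact hx hgx
  · intro hx
    by_contra hgx
    have h1 : g (g x) = g x := hg (g x) (Finset.mem_union_right _ (Finset.mem_compl.mpr hgx))
    have h2 : g x = x := g.injective h1
    rw [h2] at hgx
    exact hgx hx

/-- all but one point fixed means only the identity -/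
theorem fixAvg_erase (x : X) : fixAvg π (univ.erase x) = 1 := by
  have h : mems (fixG (univ.erase x)) = {1} := by
    ext g
    simp only [mem_mems, Finset.mem_singleton]
    constructor
    · intro hg
      have hg' : ∀ z, z ≠ x → g z = z := fun z hz => hg z (Finset.mem_erase.mpr ⟨hz, mem_univ z⟩)
      have hgx : g x = x := by
        by_contra hne
        have h1 : g (g x) = g x := hg' _ hne
        exact hne (g.injective h1)
      ext z
      by_cases hz : z = x
      · rw [hz, hgx]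
        rfl
      · rw [hg' z hz]
        rfl
    · rintro rfl
      exact (fixG (univ.erase x)).one_mem
  show avgOn π (fixG (univ.erase x)) = 1
  unfold avgOn
  rw [h]
  simp

/-- Level lemma. -/
theorem level_lemma (hπ : IsOrth π) (S R : Finset X) (hRS : R ⊆ S) {f : V} {δ : ℝ}
    (hev : lapOn π S f = δ • f) (hne : fixAvg π (R ∪ Sᶜ) f ≠ 0)
    (hmin : ∀ R' ⊆ S, R'.card < R.card → fixAvg π (R' ∪ Sᶜ) f = 0) :
    (R.card : ℝ) * ((S.card : ℝ) - R.card + 1) ≤ δ := by
  set u : V := fixAvg π (R ∪ Sᶜ) f with hu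
  have hufix : ∀ g ∈ fixG (R ∪ Sᶜ), π g u = u := fun g hg => avgOn_map_apply π _ hg f
  have hev' : lapOn π S u = δ • u := by
    have h1 := (fixAvg_commute_lapOn π S R).eq
    have h2 := congrArg (fun A : V →L[ℝ] V => A f) h1
    simp only [ContinuousLinearMap.mul_apply] at h2
    rw [hu, ← h2, hev, map_smul]
  set T : Finset X := S \ R with hT
  have hTc : (T.card : ℝ) = (S.card : ℝ) - R.card := by
    rw [hT, Finset.cast_card_sdiff hRS]
  -- the key relation for `x ∈ R`
  have hkey : ∀ x ∈ R, ∑ y ∈ T, π (Equiv.swap x y) u = -u := by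
    intro x hxR
    have hxS : x ∈ S := hRS hxR
    set F' : Finset X := R.erase x ∪ Sᶜ with hF'
    have hxF' : x ∉ F' := by
      simp [hF', hxS]
    have hins : insert x F' = R ∪ Sᶜ := by
      ext z
      simp only [hF', Finset.mem_insert, Finset.mem_union, Finset.mem_erase, Finset.mem_compl]
      constructor
      · rintro (rfl | ⟨_, h⟩ | h)
        · exact Or.inl hxR
        · exact Or.inl h
        · exact Or.inr h
      · rintro (h | h)
        · by_cases hz : z = x
          · exact Or.inl hz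
          · exact Or.inr (Or.inl ⟨hz, h⟩)
        · exact Or.inr (Or.inr h)
    have hc := coset_formula π hxF' (w := u) (by rw [hins]; exact hufix)
    have hP0 : fixAvg π F' u = 0 := by
      have hle : fixG (R ∪ Sᶜ) ≤ fixG F' := fixG_anti (by
        rw [← hins]
        exact Finset.subset_insert _ _)
      have h1 := avgOn_mul_of_le π _ _ hle
      have h2 := congrArg (fun A : V →L[ℝ] V => A f) h1
      simp only [ContinuousLinearMap.mul_apply] at h2
      rw [hu]
      rw [h2]
      apply hmin (R.erase x) ((Finset.erase_subset _ _).trans hRS)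
      exact Finset.card_erase_lt_of_mem hxR
    rw [hP0, smul_zero] at hc
    have hcompl : F'ᶜ = insert x T := by
      ext z
      simp only [hF', hT, Finset.mem_compl, Finset.mem_union, Finset.mem_erase, Finset.mem_insert,
        Finset.mem_sdiff]
      constructor
      · intro h
        push Not at h
        by_cases hz : z = x
        · exact Or.inl hz
        · exact Or.inr ⟨h.2, fun hzR => h.1 hz hzR⟩
      · rintro (rfl | ⟨h1, h2⟩)
        · simp [hxS]
        · simp [h1, h2]
    have hxT : x ∉ T := by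
      simp [hT, hxR]
    rw [hcompl, Finset.sum_insert hxT, Equiv.swap_self] at hc
    have h1 : π (Equiv.refl X) u = u := by
      have : π (Equiv.refl X) = π 1 := rfl
      rw [this, map_one]
      rfl
    rw [h1] at hc
    exact (eq_neg_of_add_eq_zero_right hc)
  -- the pairs inside `T`
  have hTT : ∀ x ∈ T, ∀ y ∈ T, π (Equiv.swap x y) u = u := by
    intro x hx y hy
    apply hufix
    have hxS := (Finset.mem_sdiff.mp hx)
    have hyS := (Finset.mem_sdiff.mp hy)
    intro z hz
    apply Equiv.swap_apply_of_ne_of_ne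
    · rintro rfl
      rcases Finset.mem_union.mp hz with h | h
      · exact hxS.2 h
      · exact (Finset.mem_compl.mp h) hxS.1
    · rintro rfl
      rcases Finset.mem_union.mp hz with h | h
      · exact hyS.2 h
      · exact (Finset.mem_compl.mp h) hyS.1
  have hS : S = R ∪ T := by
    rw [hT, Finset.union_sdiff_of_subset hRS]
  have hdisj : Disjoint R T := by
    rw [hT]
    exact Finset.disjoint_sdiff
  -- splitting the Laplacian
  have hsplit : lapOn π S u = lapOn π R u + ((R.card : ℝ) * ((T.card : ℝ) + 1)) • u := by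
    have h0 : ∀ A : Finset X, lapOn π A u = (1 / 2 : ℝ) • ∑ x ∈ A, ∑ y ∈ A, (u - π (Equiv.swap x y) u) := by
      intro A
      simp [lapOn, ContinuousLinearMap.sum_apply]
    rw [h0 S, h0 R]
    have h1 : ∀ x ∈ R, ∑ y ∈ T, (u - π (Equiv.swap x y) u) = ((T.card : ℝ) + 1) • u := by
      intro x hx
      rw [Finset.sum_sub_distrib, hkey x hx, Finset.sum_const, ← Nat.cast_smul_eq_nsmul ℝ, add_smul, one_smul,
        sub_neg_eq_add]
    have h2 : ∀ x ∈ T, ∑ y ∈ R, (u - π (Equiv.swap x y) u) = ((T.card : ℝ) * 0 + 1 * 0) • u +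
        ∑ y ∈ R, (u - π (Equiv.swap y x) u) := by
      intro x _
      simp only [mul_zero, add_zero, zero_smul, zero_add]
      refine Finset.sum_congr rfl fun y _ => ?_
      rw [Equiv.swap_comm]
    have h3 : ∀ x ∈ T, ∑ y ∈ T, (u - π (Equiv.swap x y) u) = 0 := by
      intro x hx
      refine Finset.sum_eq_zero fun y hy => ?_
      rw [hTT x hx y hy, sub_self]
    have h4 : ∑ x ∈ T, ∑ y ∈ R, (u - π (Equiv.swap x y) u) = ∑ x ∈ R, ∑ y ∈ T, (u - π (Equiv.swap x y) u) := by
      rw [Finset.sum_comm]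
      refine Finset.sum_congr rfl fun y _ => Finset.sum_congr rfl fun x _ => ?_
      rw [Equiv.swap_comm]
    have h5 : ∑ x ∈ S, ∑ y ∈ S, (u - π (Equiv.swap x y) u) =
        ∑ x ∈ R, ∑ y ∈ R, (u - π (Equiv.swap x y) u) + (2 : ℝ) • ∑ x ∈ R, ∑ y ∈ T, (u - π (Equiv.swap x y) u) := by
      conv_lhs => rw [hS]
      rw [Finset.sum_union hdisj]
      have e1 : ∀ x, ∑ y ∈ R ∪ T, (u - π (Equiv.swap x y) u) =
          ∑ y ∈ R, (u - π (Equiv.swap x y) u) + ∑ y ∈ T, (u - π (Equiv.swap x y) u) := fun x =>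
        Finset.sum_union hdisj
      simp only [e1, Finset.sum_add_distrib, h4]
      rw [Finset.sum_congr rfl h3, Finset.sum_const_zero, two_smul]
      abel
    rw [h5, Finset.sum_congr rfl h1, Finset.sum_const, ← Nat.cast_smul_eq_nsmul ℝ, smul_add, smul_smul,
      smul_smul, smul_smul]
    congr 2
    norm_num
  have hune : u ≠ 0 := hne
  have hpos : 0 < ‖u‖ ^ 2 := by
    have := norm_pos_iff.mpr hune
    positivity
  have h1 : ⟪lapOn π S u, u⟫_ℝ = δ * ‖u‖ ^ 2 := by
    rw [hev', real_inner_smul_left, real_inner_self_eq_norm_sq]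
  have h2 : ⟪lapOn π S u, u⟫_ℝ = ⟪lapOn π R u, u⟫_ℝ + (R.card : ℝ) * ((T.card : ℝ) + 1) * ‖u‖ ^ 2 := by
    rw [hsplit, inner_add_left, real_inner_smul_left, real_inner_self_eq_norm_sq]
  have h3 := lapOn_nonneg hπ R u
  rw [hTc] at h2
  have h4 : (R.card : ℝ) * ((S.card : ℝ) - R.card + 1) * ‖u‖ ^ 2 ≤ δ * ‖u‖ ^ 2 := by
    rw [← h1, h2]
    linarith
  exact le_of_mul_le_mul_right h4 hpos

/-- Existence of a level; it is at most `|S| - 1`. -/
theorem exists_level (S : Finset X) (hS : S.Nonempty) {f : V} (hf : f ≠ 0) :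
    ∃ R ⊆ S, R.card + 1 ≤ S.card ∧ fixAvg π (R ∪ Sᶜ) f ≠ 0 ∧
      ∀ R' ⊆ S, R'.card < R.card → fixAvg π (R' ∪ Sᶜ) f = 0 := by
  classical
  obtain ⟨x, hx⟩ := hS
  have hex : ∃ n, ∃ R ⊆ S, R.card = n ∧ fixAvg π (R ∪ Sᶜ) f ≠ 0 := by
    refine ⟨(S.erase x).card, S.erase x, Finset.erase_subset _ _, rfl, ?_⟩
    have h : S.erase x ∪ Sᶜ = univ.erase x := by
      ext z
      simp only [Finset.mem_union, Finset.mem_erase, Finset.mem_compl, Finset.mem_univ, and_true]
      constructor
      · rintro (⟨h1, _⟩ | h2)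
        · exact h1
        · rintro rfl
          exact h2 hx
      · intro hz
        by_cases hzS : z ∈ S
        · exact Or.inl ⟨hz, hzS⟩
        · exact Or.inr hzS
    rw [h, fixAvg_erase]
    simpa using hf
  obtain ⟨R, hRS, hRc, hne⟩ := Nat.find_spec hex
  refine ⟨R, hRS, ?_, hne, ?_⟩
  · have h1 : Nat.find hex ≤ (S.erase x).card :=
      Nat.find_min' hex ⟨S.erase x, Finset.erase_subset _ _, rfl, by
        have h : S.erase x ∪ Sᶜ = univ.erase x := by
          ext z
          simp only [Finset.mem_union, Finset.mem_erase, Finset.mem_compl, Finset.mem_univ, and_true]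
          constructor
          · rintro (⟨h1, _⟩ | h2)
            · exact h1
            · rintro rfl
              exact h2 hx
          · intro hz
            by_cases hzS : z ∈ S
            · exact Or.inl ⟨hz, hzS⟩
            · exact Or.inr hzS
        rw [h, fixAvg_erase]
        simpa using hf⟩
    rw [Finset.card_erase_of_mem hx] at h1
    have h2 : 0 < S.card := Finset.card_pos.mpr ⟨x, hx⟩
    omega
  · intro R' hR' hlt
    by_contra hne'
    exact Nat.find_min hex (by omega : R'.card < Nat.find hex) ⟨R', hR', rfl, hne'⟩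

/-- The subspace of vectors of level `≥ j` relative to `S`. -/
def lowFix (S : Finset X) (j : ℕ) : Submodule ℝ V where
  carrier := {f | ∀ R ⊆ S, R.card < j → fixAvg π (R ∪ Sᶜ) f = 0}
  add_mem' := by
    intro a b ha hb R hR hj
    rw [map_add, ha R hR hj, hb R hR hj, add_zero]
  zero_mem' := by
    intro R _ _
    exact map_zero _
  smul_mem' := by
    intro c a ha R hR hj
    rw [map_smul, ha R hR hj, smul_zero]

theorem mem_lowFix {S : Finset X} {j : ℕ} {f : V} :
    f ∈ lowFix π S j ↔ ∀ R ⊆ S, R.card < j → fixAvg π (R ∪ Sᶜ) f = 0 := Iff.rfl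

theorem lowFix_invariant (S : Finset X) (j : ℕ) {f : V} (hf : f ∈ lowFix π S j) :
    lapOn π S f ∈ lowFix π S j := by
  intro R hR hj'
  have h1 := (fixAvg_commute_lapOn π S R).eq
  have h2 := congrArg (fun A : V →L[ℝ] V => A f) h1
  simp only [ContinuousLinearMap.mul_apply] at h2
  rw [h2, hf R hR hj', map_zero]

/-- Each pair lies in `C(s-2, w-2)` subsets of size `w`. -/
theorem sum_lapOn_powersetCard (S : Finset X) (w : ℕ) (hw : 2 ≤ w) :
    ∑ S' ∈ powersetCard w S, lapOn π S' = ((S.card - 2).choose (w - 2) : ℝ) • lapOn π S := by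
  classical
  have hcount : ∀ x ∈ S, ∀ y ∈ S, x ≠ y →
      ((powersetCard w S).filter (fun S' => x ∈ S' ∧ y ∈ S')).card = (S.card - 2).choose (w - 2) := by
    intro x hx y hy hxy
    have hsub : ({x, y} : Finset X) ⊆ S := by
      intro z hz
      simp only [Finset.mem_insert, Finset.mem_singleton] at hz
      rcases hz with rfl | rfl
      · exact hx
      · exact hy
    have hcard : ((S \ {x, y}).card) = S.card - 2 := by
      rw [Finset.card_sdiff_of_subset hsub, Finset.card_pair hxy]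
    rw [← hcard, ← Finset.card_powersetCard]
    refine Finset.card_bij' (fun S' _ => S' \ {x, y}) (fun A _ => insert x (insert y A)) ?_ ?_ ?_ ?_
    · intro S' hS'
      simp only [Finset.mem_filter, Finset.mem_powersetCard] at hS'
      obtain ⟨⟨h1, h2⟩, h3, h4⟩ := hS'
      rw [Finset.mem_powersetCard]
      refine ⟨Finset.sdiff_subset_sdiff h1 (Finset.Subset.refl _), ?_⟩
      have hsub' : ({x, y} : Finset X) ⊆ S' := by
        intro z hz
        simp only [Finset.mem_insert, Finset.mem_singleton] at hz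
        rcases hz with rfl | rfl
        · exact h3
        · exact h4
      rw [Finset.card_sdiff_of_subset hsub', Finset.card_pair hxy, h2]
    · intro A hA
      rw [Finset.mem_powersetCard] at hA
      obtain ⟨h1, h2⟩ := hA
      have hxA : x ∉ A := fun h => by
        have := h1 h
        simp at this
      have hyA : y ∉ A := fun h => by
        have := h1 h
        simp at this
      have hxyA : x ∉ insert y A := by
        simp [hxy, hxA]
      simp only [Finset.mem_filter, Finset.mem_powersetCard]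
      refine ⟨⟨?_, ?_⟩, Finset.mem_insert_self _ _,
        Finset.mem_insert_of_mem (Finset.mem_insert_self _ _)⟩
      · intro z hz
        simp only [Finset.mem_insert] at hz
        rcases hz with rfl | rfl | hz
        · exact hx
        · exact hy
        · exact (Finset.mem_sdiff.mp (h1 hz)).1
      · rw [Finset.card_insert_of_notMem hxyA, Finset.card_insert_of_notMem hyA, h2]
        omega
    · intro S' hS'
      simp only [Finset.mem_filter, Finset.mem_powersetCard] at hS'
      obtain ⟨⟨h1, h2⟩, h3, h4⟩ := hS'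
      ext z
      simp only [Finset.mem_insert, Finset.mem_sdiff, Finset.mem_singleton, not_or]
      constructor
      · rintro (rfl | rfl | ⟨h, _⟩)
        · exact h3
        · exact h4
        · exact h
      · intro h
        by_cases hzx : z = x
        · exact Or.inl hzx
        · by_cases hzy : z = y
          · exact Or.inr (Or.inl hzy)
          · exact Or.inr (Or.inr ⟨h, hzx, hzy⟩)
    · intro A hA
      rw [Finset.mem_powersetCard] at hA
      obtain ⟨h1, h2⟩ := hA
      ext z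
      simp only [Finset.mem_insert, Finset.mem_sdiff, Finset.mem_singleton, not_or]
      constructor
      · rintro ⟨(rfl | rfl | h), h3, h4⟩
        · exact absurd rfl h3
        · exact absurd rfl h4
        · exact h
      · intro h
        have := Finset.mem_sdiff.mp (h1 h)
        simp only [Finset.mem_insert, Finset.mem_singleton, not_or] at this
        exact ⟨Or.inr (Or.inr h), this.2.1, this.2.2⟩
  have hF0 : ∀ x, (1 - π (Equiv.swap x x) : V →L[ℝ] V) = 0 := by
    intro x
    rw [Equiv.swap_self]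
    have : π (Equiv.refl X) = π 1 := rfl
    rw [this, map_one, sub_self]
  have hL : ∀ S' ∈ powersetCard w S, lapOn π S' = (1 / 2 : ℝ) • ∑ x ∈ S, ∑ y ∈ S,
      (if x ∈ S' ∧ y ∈ S' then (1 - π (Equiv.swap x y)) else 0) := by
    intro S' hS'
    have hsub := (Finset.mem_powersetCard.mp hS').1
    unfold lapOn
    congr 1
    have h1 : ∀ x, ∑ y ∈ S, (if x ∈ S' ∧ y ∈ S' then (1 - π (Equiv.swap x y)) else 0) =
        if x ∈ S' then ∑ y ∈ S', (1 - π (Equiv.swap x y)) else 0 := by
      intro x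
      by_cases hx : x ∈ S'
      · simp only [hx, true_and, if_true]
        rw [← Finset.sum_filter, Finset.filter_mem_eq_inter, Finset.inter_eq_right.mpr hsub]
      · simp [hx]
    simp only [h1]
    rw [← Finset.sum_filter, Finset.filter_mem_eq_inter, Finset.inter_eq_right.mpr hsub]
  rw [Finset.sum_congr rfl hL, ← Finset.smul_sum]
  unfold lapOn
  rw [smul_comm]
  congr 1
  rw [Finset.sum_comm, Finset.smul_sum]
  refine Finset.sum_congr rfl fun x hx => ?_
  rw [Finset.sum_comm, Finset.smul_sum]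
  refine Finset.sum_congr rfl fun y hy => ?_
  by_cases hxy : x = y
  · subst hxy
    simp only [hF0, ite_self, Finset.sum_const_zero, smul_zero]
  · rw [← Finset.sum_filter, Finset.sum_const, hcount x hx y hy hxy, Nat.cast_smul_eq_nsmul]

theorem deep_bound_aux (hπ : IsOrth π) [FiniteDimensional ℝ V] [CompleteSpace V] (s : ℕ) :
    ∀ S : Finset X, S.card = s → Even s → ∀ f ∈ lowFix π S (s / 2),
      (3 / 16 : ℝ) * (s : ℝ) ^ 2 * ‖f‖ ^ 2 ≤ ⟪lapOn π S f, f⟫_ℝ := by
  induction s using Nat.strong_induction_on with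
  | _ s ih =>
  intro S hSc hSe f hf
  rcases S.eq_empty_or_nonempty with rfl | hne
  · have h0 : s = 0 := by simpa using hSc.symm
    subst h0
    simpa using lapOn_nonneg hπ ∅ f
  refine le_inner_of_eigen (lapOn_symm hπ S) (lowFix π S (s / 2))
    (fun g hg => lowFix_invariant π S _ hg) _ ?_ f hf
  intro g hg hg0 δ hev
  obtain ⟨R, hRS, hRc, hne', hmin⟩ := exists_level π S hne hg0
  have hlev := level_lemma π hπ S R hRS hev hne' hmin
  rw [hSc] at hlev hRc
  obtain ⟨r, hr⟩ := hSe
  have hkr : r ≤ R.card := by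
    by_contra hlt
    push Not at hlt
    exact hne' (hg R hRS (by omega))
  have hs' : (s : ℝ) = 2 * r := by
    rw [hr]
    push_cast
    ring
  by_cases hcase : 2 * R.card ≤ 3 * r
  · have h1 : (r : ℝ) ≤ R.card := by exact_mod_cast hkr
    have h2 : (2 * R.card : ℝ) ≤ 3 * r := by exact_mod_cast hcase
    have h3 : (0 : ℝ) ≤ r := Nat.cast_nonneg r
    rw [hs'] at hlev ⊢
    have h4 : (0 : ℝ) ≤ (R.card - r) * (3 * r - 2 * R.card) :=
      mul_nonneg (by linarith) (by linarith)
    have h5 : (0 : ℝ) ≤ r * (3 * r - 2 * R.card) := mul_nonneg h3 (by linarith)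
    nlinarith
  · push Not at hcase
    have hw2 : 2 ≤ 2 * (s - R.card) := by omega
    have hws : 2 * (s - R.card) < s := by omega
    have hIH : ∀ S' ∈ powersetCard (2 * (s - R.card)) S,
        (3 / 16 : ℝ) * ((2 * (s - R.card) : ℕ) : ℝ) ^ 2 * ‖g‖ ^ 2 ≤ ⟪lapOn π S' g, g⟫_ℝ := by
      intro S' hS'
      obtain ⟨hsub, hcard⟩ := Finset.mem_powersetCard.mp hS'
      refine ih _ hws S' hcard ⟨s - R.card, by omega⟩ g ?_
      intro R'' hR'' hlt
      have hset : R'' ∪ S'ᶜ = (R'' ∪ (S \ S')) ∪ Sᶜ := by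
        ext z
        simp only [Finset.mem_union, Finset.mem_compl, Finset.mem_sdiff]
        constructor
        · rintro (h | h)
          · exact Or.inl (Or.inl h)
          · by_cases hz : z ∈ S
            · exact Or.inl (Or.inr ⟨hz, h⟩)
            · exact Or.inr hz
        · rintro ((h | ⟨_, h⟩) | h)
          · exact Or.inl h
          · exact Or.inr h
          · exact Or.inr (fun hz => h (hsub hz))
      rw [hset]
      apply hmin
      · exact Finset.union_subset (hR''.trans hsub) Finset.sdiff_subset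
      · have h1 := Finset.card_union_le R'' (S \ S')
        have h2 : (S \ S').card = s - 2 * (s - R.card) := by
          rw [Finset.card_sdiff_of_subset hsub, hcard, hSc]
        have h3 : R''.card < s - R.card := by omega
        omega
    have hnormpos : 0 < ‖g‖ ^ 2 := by
      have := norm_pos_iff.mpr hg0
      positivity
    have hsum : ∑ S' ∈ powersetCard (2 * (s - R.card)) S, ⟪lapOn π S' g, g⟫_ℝ =
        (((S.card - 2).choose (2 * (s - R.card) - 2) : ℕ) : ℝ) * (δ * ‖g‖ ^ 2) := by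
      rw [← sum_inner, ← ContinuousLinearMap.sum_apply, sum_lapOn_powersetCard π S _ hw2,
        ContinuousLinearMap.smul_apply, hev, real_inner_smul_left, real_inner_smul_left,
        real_inner_self_eq_norm_sq]
    have hle := Finset.sum_le_sum hIH
    rw [hsum, Finset.sum_const, Finset.card_powersetCard, hSc, nsmul_eq_mul] at hle
    -- the binomial identities
    obtain ⟨s2, hs2⟩ : ∃ s2, s = s2 + 2 := ⟨s - 2, by omega⟩
    obtain ⟨w2, hw2'⟩ : ∃ w2, 2 * (s - R.card) = w2 + 2 := ⟨2 * (s - R.card) - 2, by omega⟩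
    have hw2s : w2 ≤ s2 := by omega
    rw [hw2'] at hle
    have hsub2 : s - 2 = s2 := by omega
    have hwsub : w2 + 2 - 2 = w2 := by omega
    rw [hsub2, hwsub, hs2] at hle
    have id1 := Nat.add_one_mul_choose_eq (s2 + 1) (w2 + 1)
    have id2 := Nat.add_one_mul_choose_eq s2 w2
    have hC : (0 : ℝ) < (s2.choose w2 : ℝ) := by
      exact_mod_cast Nat.choose_pos hw2s
    have id1' : ((s2 : ℝ) + 2) * (((s2 + 1).choose (w2 + 1) : ℕ) : ℝ) =
        (((s2 + 2).choose (w2 + 2) : ℕ) : ℝ) * ((w2 : ℝ) + 2) := by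
      have := congrArg (fun n : ℕ => (n : ℝ)) id1
      simp only [Nat.succ_eq_add_one, Nat.cast_mul, Nat.cast_add, Nat.cast_one] at this
      push_cast
      linarith
    have id2' : ((s2 : ℝ) + 1) * ((s2.choose w2 : ℕ) : ℝ) =
        (((s2 + 1).choose (w2 + 1) : ℕ) : ℝ) * ((w2 : ℝ) + 1) := by
      have := congrArg (fun n : ℕ => (n : ℝ)) id2
      simp only [Nat.succ_eq_add_one, Nat.cast_mul, Nat.cast_add, Nat.cast_one] at this
      linarith
    set C : ℝ := ((s2.choose w2 : ℕ) : ℝ) with hCdef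
    set C1 : ℝ := (((s2 + 1).choose (w2 + 1) : ℕ) : ℝ) with hC1def
    set C2 : ℝ := (((s2 + 2).choose (w2 + 2) : ℕ) : ℝ) with hC2def
    have hw : (0 : ℝ) ≤ (w2 : ℝ) := Nat.cast_nonneg w2
    have hss : (0 : ℝ) ≤ (s2 : ℝ) := Nat.cast_nonneg s2
    have hwss : (w2 : ℝ) ≤ s2 := by exact_mod_cast hw2s
    -- `C2 * w * (w-1) = s * (s-1) * C`
    have key : C2 * ((w2 : ℝ) + 2) * ((w2 : ℝ) + 1) = ((s2 : ℝ) + 2) * ((s2 : ℝ) + 1) * C := by
      calc C2 * ((w2 : ℝ) + 2) * ((w2 : ℝ) + 1) = ((s2 : ℝ) + 2) * C1 * ((w2 : ℝ) + 1) := by rw [id1']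
        _ = ((s2 : ℝ) + 2) * (C1 * ((w2 : ℝ) + 1)) := by ring
        _ = ((s2 : ℝ) + 2) * (((s2 : ℝ) + 1) * C) := by rw [id2']
        _ = _ := by ring
    have hle2 : C2 * ((3 / 16 : ℝ) * ((w2 + 2 : ℕ) : ℝ) ^ 2 * ‖g‖ ^ 2) ≤ C * (δ * ‖g‖ ^ 2) := hle
    push_cast at hle2
    have hle3 : C2 * ((3 / 16 : ℝ) * ((w2 : ℝ) + 2) ^ 2) ≤ C * δ := by
      have : (C2 * ((3 / 16 : ℝ) * ((w2 : ℝ) + 2) ^ 2)) * ‖g‖ ^ 2 ≤ (C * δ) * ‖g‖ ^ 2 := by
        calc _ = C2 * ((3 / 16 : ℝ) * ((w2 : ℝ) + 2) ^ 2 * ‖g‖ ^ 2) := by ring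
          _ ≤ C * (δ * ‖g‖ ^ 2) := hle2
          _ = _ := by ring
      exact le_of_mul_le_mul_right this hnormpos
    have hw1 : (0 : ℝ) < (w2 : ℝ) + 1 := by linarith
    have hle4 : C * (((s2 : ℝ) + 2) * ((s2 : ℝ) + 1) * ((3 / 16 : ℝ) * ((w2 : ℝ) + 2))) ≤
        C * (δ * ((w2 : ℝ) + 1)) := by
      calc _ = (C2 * ((w2 : ℝ) + 2) * ((w2 : ℝ) + 1)) * ((3 / 16 : ℝ) * ((w2 : ℝ) + 2)) := by
            rw [key]
            ring
        _ = (C2 * ((3 / 16 : ℝ) * ((w2 : ℝ) + 2) ^ 2)) * ((w2 : ℝ) + 1) := by ring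
        _ ≤ (C * δ) * ((w2 : ℝ) + 1) := mul_le_mul_of_nonneg_right hle3 hw1.le
        _ = _ := by ring
    have hle5 := le_of_mul_le_mul_left hle4 hC
    have hs3 : (s : ℝ) = (s2 : ℝ) + 2 := by
      rw [hs2]
      push_cast
      ring
    rw [hs3]
    -- `s (s-1) w ≥ s² (w-1)`
    have h6 : ((s2 : ℝ) + 2) ^ 2 * ((w2 : ℝ) + 1) ≤
        ((s2 : ℝ) + 2) * ((s2 : ℝ) + 1) * ((w2 : ℝ) + 2) := by
      nlinarith
    have h7 : ((3 / 16 : ℝ) * ((s2 : ℝ) + 2) ^ 2) * ((w2 : ℝ) + 1) ≤ δ * ((w2 : ℝ) + 1) := by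
      nlinarith
    exact le_of_mul_le_mul_right h7 hw1

/-- The deep bound. -/
theorem deep_bound (hπ : IsOrth π) [FiniteDimensional ℝ V] [CompleteSpace V] (S : Finset X)
    (hS : Even S.card) {f : V} (hf : f ∈ lowFix π S (S.card / 2)) :
    (3 / 16 : ℝ) * (S.card : ℝ) ^ 2 * ‖f‖ ^ 2 ≤ ⟪lapOn π S f, f⟫_ℝ :=
  deep_bound_aux π hπ S.card S rfl hS f hf

/-- The bound used in the end: `Δ ≥ (3n/8) j` on level `≥ j`. -/
theorem lap_lower (hπ : IsOrth π) [FiniteDimensional ℝ V] [CompleteSpace V]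
    (hn : Even (Fintype.card X)) {j : ℕ} (hj1 : 1 ≤ j) (hj2 : j ≤ Fintype.card X / 2) {f : V}
    (hf : f ∈ lowFix π univ j) :
    (3 * (Fintype.card X : ℝ) / 8) * j * ‖f‖ ^ 2 ≤ ⟪lap π f, f⟫_ℝ := by
  show _ ≤ ⟪lapOn π univ f, f⟫_ℝ
  have hcard : (univ : Finset X).card = Fintype.card X := Finset.card_univ
  refine le_inner_of_eigen (lapOn_symm hπ univ) (lowFix π univ j)
    (fun g hg => lowFix_invariant π univ _ hg) _ ?_ f hf
  intro g hg hg0 δ hev
  have hne : (univ : Finset X).Nonempty := by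
    rw [← Finset.card_pos, hcard]
    omega
  obtain ⟨R, hRS, hRc, hne', hmin⟩ := exists_level π univ hne hg0
  have hlev := level_lemma π hπ univ R hRS hev hne' hmin
  rw [hcard] at hlev hRc
  obtain ⟨r, hr⟩ := hn
  have hn' : (Fintype.card X : ℝ) = 2 * r := by
    rw [hr]
    push_cast
    ring
  have hjr : j ≤ r := by omega
  have hjk : j ≤ R.card := by
    by_contra hlt
    push Not at hlt
    exact hne' (hg R hRS hlt)
  have h0 : (0 : ℝ) ≤ r := Nat.cast_nonneg r
  have hjr' : (j : ℝ) ≤ r := by exact_mod_cast hjr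
  have hj0 : (0 : ℝ) ≤ j := Nat.cast_nonneg j
  by_cases hcase : R.card ≤ r
  · have h1 : (R.card : ℝ) ≤ r := by exact_mod_cast hcase
    have h2 : (j : ℝ) ≤ R.card := by exact_mod_cast hjk
    rw [hn'] at hlev ⊢
    have h3 : (R.card : ℝ) * r ≤ (R.card : ℝ) * (2 * r - R.card + 1) :=
      mul_le_mul_of_nonneg_left (by linarith) (by linarith)
    have h4 : (j : ℝ) * r ≤ (R.card : ℝ) * r := mul_le_mul_of_nonneg_right h2 h0
    have h5 : (0 : ℝ) ≤ j * r := mul_nonneg hj0 h0
    nlinarith
  · push Not at hcase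
    have hdeep : (3 / 16 : ℝ) * ((univ : Finset X).card : ℝ) ^ 2 * ‖g‖ ^ 2 ≤
        ⟪lapOn π univ g, g⟫_ℝ := by
      apply deep_bound π hπ univ (by rw [hcard]; exact ⟨r, hr⟩)
      intro R' hR' hlt
      rw [hcard] at hlt
      exact hmin R' hR' (by omega)
    rw [hev, real_inner_smul_left, real_inner_self_eq_norm_sq, hcard, hn'] at hdeep
    have hnormpos : 0 < ‖g‖ ^ 2 := by
      have := norm_pos_iff.mpr hg0
      positivity
    have h6 : (3 / 16 : ℝ) * (2 * (r : ℝ)) ^ 2 ≤ δ := le_of_mul_le_mul_right hdeep hnormpos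
    rw [hn']
    nlinarith

/-- Spectral gap form. -/
theorem lap_gap (hπ : IsOrth π) [FiniteDimensional ℝ V] [CompleteSpace V]
    (hn : Even (Fintype.card X)) (hn0 : 0 < Fintype.card X) {f : V}
    (hf : avgOn π (fixG (∅ : Finset X)) f = 0) :
    (3 * (Fintype.card X : ℝ) / 8) * ‖f‖ ^ 2 ≤ ⟪lap π f, f⟫_ℝ := by
  have hj2 : 1 ≤ Fintype.card X / 2 := by
    obtain ⟨r, hr⟩ := hn
    omega
  have h := lap_lower π hπ hn (le_refl 1) hj2 (f := f) (by
    intro R _ hR
    have hR0 : R = ∅ := by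
      rw [← Finset.card_eq_zero]
      omega
    subst hR0
    simpa using hf)
  simpa using h

end Vale.Agent.P162
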