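/-
P162: the switch operator Z on X = Y × Bool and its moments.

σ(y,b) = ±1 by the block b. Z = (1/4) ∑_{x,x'} σ(x)σ(x') π(swap x x').
Write H = {flipOf c}. v is H-invariant if π(flipOf c) v = v for all c.

Z_eq: Z = Δ/2 - Δ_K, with Δ_K = lap(π∘inFiber false) + lap(π∘inFiber true).
  (pairs in the same block have σσ' = 1, others -1; ∑ σσ' = 0.)

Key relation: σ(flipOf c x) = σ(x) · g_c(x.1), g_c(y) = (-1)^{c y}; and
  π(h) π(swap x x') π(h)⁻¹ = π(swap (h x) (h x')) and π(h) v = v.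

first_moment: average over h: only pairs with the same switch survive: 2 terms +‖v‖², 2 terms -‖v‖².

second_moment: for s,s' ∈ Y: D s s' := ∑_{b,b'} σ(b)σ(b') π(swap (s,b) (s',b')) v.  Z v = (1/4) ∑_{s,s'} D s s';
  D s s = 0 on H-invariant v; D s s' = D s' s; for s≠s', r≠r', {s,s'} ≠ {r,r'}: ⟪D s s', D r r'⟫ = 0 (apply π(τ_t) with
  t in exactly one of the two pairs: τ_t = flip at t only; it negates one and fixes the other).
  So ‖Zv‖² = (1/8) ∑_{s≠s'} ‖D s s'‖², and D s s' = ∑ σσ'(π(swap) - 1) v, so by Cauchy-Schwarz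
  ‖D s s'‖² ≤ 4 ∑_{b,b'} ‖(π swap - 1) v‖² = 8 ∑_{b,b'} (‖v‖² - ⟪π swap v, v⟫). Total ≤ ∑_{x,x'} (‖v‖² - a(x,x')) = 2⟪Δv,v⟫.

moment_bound: Z^r = 4^{-r} ∑_{t : Fin r → X × X} ∏_i σ(t_i) · π(∏_i swap t_i); a(t) := ⟪π(∏ swap t_i) v, v⟫ is invariant
  under t ↦ h·t. Average over h: ∑_t ε(t) a(t) = ∑_t ε(t) χ(t) a(t), χ(t) = E_c ∏_i g_c(t_i.1.1) g_c(t_i.2.1) ∈ {0,1}
  (a character average), |a(t)| ≤ ‖v‖². So |⟪Z^r v,v⟫| ≤ ‖v‖² 4^{-r} ∑_t χ(t) = ‖v‖² E_c (4^{-1} ∑_{x,x'} g_c g_c)^r = ‖v‖² E_c S_c^{2r},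
  with S_c = ∑_y g_c(y) because ∑_{x,x'} g_c(x.1) g_c(x'.1) = (2 S_c)².

mgf_bound: sum the exponential series.

subgauss: E_c exp(u S²) ≤ e^{u} E_c exp((u+2u²) S'^2), peeling one variable off (cosh x ≤ exp(x²/2)); iterate, u_{j+1} = u_j (1+2u_j)
  satisfies u_j ≤ u/(1-2ju) ≤ 2u when u = κ/m, κ ≤ 1/4.
-/
import Vale.Agent.P162.Level

open scoped InnerProductSpace BigOperators
open Finset

namespace Vale.Agent.P162

variable {Y : Type*} [Fintype Y] [DecidableEq Y]
variable {V : Type*} [NormedAddCommGroup V] [InnerProductSpace ℝ V]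

/-- Sign of a bit. -/
def sgn (b : Bool) : ℝ := if b then -1 else 1

/-- The flip of the block coordinate on the switches selected by `c`. -/
def flipOf (c : Y → Bool) : Equiv.Perm (Y × Bool) where
  toFun x := (x.1, xor x.2 (c x.1))
  invFun x := (x.1, xor x.2 (c x.1))
  left_inv x := by simp
  right_inv x := by simp

@[simp] theorem flipOf_apply (c : Y → Bool) (x : Y × Bool) : flipOf c x = (x.1, xor x.2 (c x.1)) := rfl

/-- `Perm Y` acting on the fiber `Y × {b}`. -/
def inFiber (b : Bool) : Equiv.Perm Y →* Equiv.Perm (Y × Bool) where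
  toFun g :=
    { toFun := fun x => if x.2 = b then (g x.1, x.2) else x
      invFun := fun x => if x.2 = b then (g⁻¹ x.1, x.2) else x
      left_inv := by
        rintro ⟨y, a⟩
        by_cases h : a = b
        · subst h; simp
        · simp [h]
      right_inv := by
        rintro ⟨y, a⟩
        by_cases h : a = b
        · subst h; simp
        · simp [h] }
  map_one' := by
    ext x <;> simp
  map_mul' := by
    intro g g'
    ext ⟨y, a⟩ <;> by_cases h : a = b <;> simp [h]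

theorem inFiber_apply (b : Bool) (g : Equiv.Perm Y) (x : Y × Bool) :
    inFiber b g x = if x.2 = b then (g x.1, x.2) else x := rfl

/-- The switch operator. -/
noncomputable def Zop (π : Equiv.Perm (Y × Bool) →* (V →L[ℝ] V)) : V →L[ℝ] V :=
  (1 / 4 : ℝ) • ∑ x : Y × Bool, ∑ x' : Y × Bool, (sgn x.2 * sgn x'.2) • π (Equiv.swap x x')

/-- `v` is invariant under all flips. -/
def HInv (π : Equiv.Perm (Y × Bool) →* (V →L[ℝ] V)) (v : V) : Prop :=
  ∀ c : Y → Bool, π (flipOf c) v = v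

/-- `E_c exp(u S_c²)`. -/
noncomputable def mgfS (Y : Type*) [Fintype Y] [DecidableEq Y] (u : ℝ) : ℝ :=
  ((2 : ℝ) ^ Fintype.card Y)⁻¹ * ∑ c : Y → Bool, Real.exp (u * (∑ y, sgn (c y)) ^ 2)

/-- `E_c S_c^{2r}`. -/
noncomputable def momS (Y : Type*) [Fintype Y] [DecidableEq Y] (r : ℕ) : ℝ :=
  ((2 : ℝ) ^ Fintype.card Y)⁻¹ * ∑ c : Y → Bool, ((∑ y, sgn (c y)) ^ 2) ^ r

variable (π : Equiv.Perm (Y × Bool) →* (V →L[ℝ] V))

/-- The two fibers commute. -/
theorem inFiber_commute (g g' : Equiv.Perm Y) :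
    Commute (inFiber false g) (inFiber true g') := by
  show inFiber false g * inFiber true g' = inFiber true g' * inFiber false g
  ext ⟨y, a⟩ <;> cases a <;> simp [inFiber_apply]

theorem inFiber_swap (b : Bool) (y y' : Y) :
    inFiber b (Equiv.swap y y') = Equiv.swap (y, b) (y', b) := by
  ext ⟨z, a⟩
  · by_cases h : a = b
    · subst h
      by_cases h1 : z = y
      · subst h1; simp [inFiber_apply]
      · by_cases h2 : z = y'
        · subst h2; simp [inFiber_apply]
        · simp [inFiber_apply, Equiv.swap_apply_def, h1, h2]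
    · have h3 : (z, a) ≠ (y, b) := fun e => h (congrArg Prod.snd e)
      have h4 : (z, a) ≠ (y', b) := fun e => h (congrArg Prod.snd e)
      rw [inFiber_apply, Equiv.swap_apply_of_ne_of_ne h3 h4]
      simp [h]
  · by_cases h : a = b
    · subst h
      by_cases h1 : z = y
      · subst h1; simp [inFiber_apply]
      · by_cases h2 : z = y'
        · subst h2; simp [inFiber_apply]
        · simp [inFiber_apply, Equiv.swap_apply_def, h1, h2]
    · have h3 : (z, a) ≠ (y, b) := fun e => h (congrArg Prod.snd e)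
      have h4 : (z, a) ≠ (y', b) := fun e => h (congrArg Prod.snd e)
      rw [inFiber_apply, Equiv.swap_apply_of_ne_of_ne h3 h4]
      simp [h]

/-- `Z = Δ/2 - Δ_K`. -/
theorem Z_eq : Zop π = (1 / 2 : ℝ) • lap π -
    (lap (π.comp (inFiber false)) + lap (π.comp (inFiber true))) := by
  unfold Zop lap lapOn
  simp only [MonoidHom.comp_apply, inFiber_swap]
  simp only [Fintype.sum_prod_type, Fintype.sum_bool, Finset.sum_add_distrib,
    Finset.sum_sub_distrib, ← Finset.smul_sum]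
  have h1 : sgn true = -1 := rfl
  have h2 : sgn false = 1 := rfl
  simp only [h1, h2]
  module

theorem Z_commute_lap : Commute (Zop π) (lap π) := by
  unfold Zop
  apply Commute.smul_left
  apply Commute.sum_left
  intro x _
  apply Commute.sum_left
  intro y _
  exact (lap_commute π _).smul_left _

variable {π} {v' : V}

theorem Z_symm (hπ : IsOrth π) : Symm (Zop π) := by
  intro u v
  simp only [Zop, ContinuousLinearMap.smul_apply, ContinuousLinearMap.sum_apply,
    real_inner_smul_left, real_inner_smul_right, sum_inner, inner_sum, swap_symm hπ]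

/-- The block sum at the pair of switches `s, s'`. -/
noncomputable def Dblock (π : Equiv.Perm (Y × Bool) →* (V →L[ℝ] V)) (v : V) (s s' : Y) : V :=
  ∑ b : Bool, ∑ b' : Bool, (sgn b * sgn b') • π (Equiv.swap (s, b) (s', b')) v

theorem Zop_apply_eq (π : Equiv.Perm (Y × Bool) →* (V →L[ℝ] V)) (v : V) :
    Zop π v = (1 / 4 : ℝ) • ∑ s, ∑ s', Dblock π v s s' := by
  unfold Zop Dblock
  simp only [ContinuousLinearMap.smul_apply, ContinuousLinearMap.sum_apply]
  congr 1
  rw [Fintype.sum_prod_type]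
  refine Finset.sum_congr rfl fun s _ => ?_
  simp only [Fintype.sum_prod_type]
  rw [Finset.sum_comm]

/-- Conjugating by a flip. -/
theorem map_flip_swap (hv : HInv π v') (c : Y → Bool) (x x' : Y × Bool) :
    π (flipOf c) (π (Equiv.swap x x') v') = π (Equiv.swap (flipOf c x) (flipOf c x')) v' := by
  have h : π (flipOf c) * π (Equiv.swap x x') =
      π (Equiv.swap (flipOf c x) (flipOf c x')) * π (flipOf c) := by
    rw [← map_mul, ← map_mul, Equiv.mul_swap_eq_swap_mul]
  have h2 := congrArg (fun A : V →L[ℝ] V => A v') h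
  simp only [ContinuousLinearMap.mul_apply] at h2
  rw [h2, hv c]

/-- A flip multiplies the block by the product of the two signs. -/
theorem map_flip_D (hv : HInv π v') (c : Y → Bool) (s s' : Y) :
    π (flipOf c) (Dblock π v' s s') = (sgn (c s) * sgn (c s')) • Dblock π v' s s' := by
  have key : ∀ b b', π (flipOf c) (π (Equiv.swap (s, b) (s', b')) v') =
      π (Equiv.swap (s, xor b (c s)) (s', xor b' (c s'))) v' := fun b b' =>
    map_flip_swap hv c _ _
  unfold Dblock
  simp only [Fintype.sum_bool, map_add, map_smul, key]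
  cases hs : c s <;> cases hs' : c s' <;> simp [sgn] <;> abel

theorem swap_eq_flip (s : Y) :
    Equiv.swap (s, true) (s, false) = flipOf (fun y => decide (y = s)) := by
  ext ⟨z, a⟩
  · by_cases h : z = s
    · subst h
      cases a <;> simp
    · have h3 : (z, a) ≠ (s, true) := fun e => h (congrArg Prod.fst e)
      have h4 : (z, a) ≠ (s, false) := fun e => h (congrArg Prod.fst e)
      rw [Equiv.swap_apply_of_ne_of_ne h3 h4]
      simp
  · by_cases h : z = s
    · subst h
      cases a <;> simp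
    · have h3 : (z, a) ≠ (s, true) := fun e => h (congrArg Prod.fst e)
      have h4 : (z, a) ≠ (s, false) := fun e => h (congrArg Prod.fst e)
      rw [Equiv.swap_apply_of_ne_of_ne h3 h4]
      simp [h]

/-- The diagonal blocks vanish. -/
theorem D_self (hv : HInv π v') (s : Y) : Dblock π v' s s = 0 := by
  have h := hv (fun y => decide (y = s))
  rw [← swap_eq_flip] at h
  have h1 : sgn true = -1 := rfl
  have h2 : sgn false = 1 := rfl
  unfold Dblock
  simp only [Fintype.sum_bool, Equiv.swap_self, Equiv.swap_comm (s, false) (s, true), h, h1, h2]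
  have h3 : π (Equiv.refl (Y × Bool)) = 1 := map_one π
  rw [h3]
  simp only [ContinuousLinearMap.one_apply]
  module

theorem D_symm (s s' : Y) : Dblock π v' s s' = Dblock π v' s' s := by
  have h1 : sgn true = -1 := rfl
  have h2 : sgn false = 1 := rfl
  unfold Dblock
  simp only [Fintype.sum_bool, Equiv.swap_comm (s', _) (s, _), h1, h2]
  module

/-- The single flip `τ_t`. -/
def tau (t : Y) : Equiv.Perm (Y × Bool) := flipOf (fun y => decide (y = t))

theorem map_tau_same (hv : HInv π v') {s s' : Y} (hss : s ≠ s') :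
    π (tau s) (Dblock π v' s s') = -Dblock π v' s s' := by
  rw [tau, map_flip_D hv]
  have hs' : decide (s' = s) = false := by simp [hss.symm]
  simp [hs', sgn]

theorem map_tau_other (hv : HInv π v') {t r r' : Y} (h1 : r ≠ t) (h2 : r' ≠ t) :
    π (tau t) (Dblock π v' r r') = Dblock π v' r r' := by
  rw [tau, map_flip_D hv]
  simp [h1, h2, sgn]

/-- Orthogonality of blocks at different pairs (with a switch `t` in one and not in the other). -/
theorem D_orth_aux (hπ : IsOrth π) (hv : HInv π v') {s s' r r' : Y} (hss : s ≠ s')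
    (h1 : r ≠ s) (h2 : r' ≠ s) : ⟪Dblock π v' s s', Dblock π v' r r'⟫_ℝ = 0 := by
  have h := hπ (tau s) (Dblock π v' s s') (Dblock π v' r r')
  rw [map_tau_same hv hss, map_tau_other hv h1 h2, inner_neg_left] at h
  linarith

theorem D_orth (hπ : IsOrth π) (hv : HInv π v') {s s' r r' : Y} (hss : s ≠ s')
    (_hrr : r ≠ r') (hne : ¬ ((r = s ∧ r' = s') ∨ (r = s' ∧ r' = s))) :
    ⟪Dblock π v' s s', Dblock π v' r r'⟫_ℝ = 0 := by
  by_cases h1 : r = s
  · subst h1
    have h2 : r' ≠ s' := fun e => hne (Or.inl ⟨rfl, e⟩)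
    rw [D_symm r s']
    exact D_orth_aux hπ hv hss.symm hss h2
  · by_cases h2 : r' = s
    · subst h2
      have h3 : r ≠ s' := fun e => hne (Or.inr ⟨e, rfl⟩)
      rw [D_symm r' s']
      exact D_orth_aux hπ hv hss.symm h3 hss
    · exact D_orth_aux hπ hv hss h1 h2

theorem inner_D_eq (hπ : IsOrth π) (hv : HInv π v') (s s' : Y) :
    ⟪Dblock π v' s s', ∑ r, ∑ r', Dblock π v' r r'⟫_ℝ = 2 * ‖Dblock π v' s s'‖ ^ 2 := by
  by_cases hss : s = s'
  · subst hss
    simp [D_self hv]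
  · simp only [inner_sum]
    rw [Fintype.sum_eq_add s s' hss]
    · rw [Fintype.sum_eq_single s', Fintype.sum_eq_single s]
      · rw [D_symm s' s, real_inner_self_eq_norm_sq]
        ring
      · intro r' hr'
        by_cases h : r' = s'
        · subst h; simp [D_self hv]
        · exact D_orth hπ hv hss (Ne.symm h) (by tauto)
      · intro r' hr'
        by_cases h : r' = s
        · subst h; simp [D_self hv]
        · exact D_orth hπ hv hss (Ne.symm h) (by tauto)
    · rintro r ⟨h1, h2⟩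
      refine Finset.sum_eq_zero fun r' _ => ?_
      by_cases h : r = r'
      · subst h; simp [D_self hv]
      · exact D_orth hπ hv hss h (by tauto)

theorem norm_sum_D (hπ : IsOrth π) (hv : HInv π v') :
    ‖∑ s, ∑ s', Dblock π v' s s'‖ ^ 2 = 2 * ∑ s, ∑ s', ‖Dblock π v' s s'‖ ^ 2 := by
  rw [← real_inner_self_eq_norm_sq]
  conv_lhs => arg 2; rw [show (∑ s, ∑ s', Dblock π v' s s') = ∑ r, ∑ r', Dblock π v' r r' from rfl]
  simp only [sum_inner, inner_D_eq hπ hv, Finset.mul_sum]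

/-- `‖D s s'‖² ≤ 8 ∑_{b,b'} (‖v‖² - a)`. -/
theorem norm_D_le (hπ : IsOrth π) (s s' : Y) :
    ‖Dblock π v' s s'‖ ^ 2 ≤
      8 * ∑ b : Bool, ∑ b' : Bool, (‖v'‖ ^ 2 - ⟪π (Equiv.swap (s, b) (s', b')) v', v'⟫_ℝ) := by
  have h1 : sgn true = -1 := rfl
  have h2 : sgn false = 1 := rfl
  have hD : Dblock π v' s s' =
      (π (Equiv.swap (s, true) (s', true)) v' - v') - (π (Equiv.swap (s, true) (s', false)) v' - v')
        - (π (Equiv.swap (s, false) (s', true)) v' - v')
        + (π (Equiv.swap (s, false) (s', false)) v' - v') := by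
    unfold Dblock
    simp only [Fintype.sum_bool, h1, h2]
    module
  simp only [Fintype.sum_bool]
  have e1 := norm_sub_sq_swap hπ (s, true) (s', true) v'
  have e2 := norm_sub_sq_swap hπ (s, true) (s', false) v'
  have e3 := norm_sub_sq_swap hπ (s, false) (s', true) v'
  have e4 := norm_sub_sq_swap hπ (s, false) (s', false) v'
  rw [hD]
  generalize π (Equiv.swap (s, true) (s', true)) v' - v' = u1 at *
  generalize π (Equiv.swap (s, true) (s', false)) v' - v' = u2 at *
  generalize π (Equiv.swap (s, false) (s', true)) v' - v' = u3 at *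
  generalize π (Equiv.swap (s, false) (s', false)) v' - v' = u4 at *
  have hn : ‖u1 - u2 - u3 + u4‖ ≤ ‖u1‖ + ‖u2‖ + ‖u3‖ + ‖u4‖ := by
    calc ‖u1 - u2 - u3 + u4‖ ≤ ‖u1 - u2 - u3‖ + ‖u4‖ := norm_add_le _ _
      _ ≤ ‖u1 - u2‖ + ‖u3‖ + ‖u4‖ := by gcongr; exact norm_sub_le _ _
      _ ≤ ‖u1‖ + ‖u2‖ + ‖u3‖ + ‖u4‖ := by gcongr; exact norm_sub_le _ _
  have hn0 := norm_nonneg (u1 - u2 - u3 + u4)
  have hsq : ‖u1 - u2 - u3 + u4‖ ^ 2 ≤ (‖u1‖ + ‖u2‖ + ‖u3‖ + ‖u4‖) ^ 2 := by gcongr
  nlinarith [sq_nonneg (‖u1‖ - ‖u2‖), sq_nonneg (‖u1‖ - ‖u3‖), sq_nonneg (‖u1‖ - ‖u4‖),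
    sq_nonneg (‖u2‖ - ‖u3‖), sq_nonneg (‖u2‖ - ‖u4‖), sq_nonneg (‖u3‖ - ‖u4‖)]

/-- First moment. -/
theorem first_moment (hπ : IsOrth π) {v : V} (hv : HInv π v) : ⟪Zop π v, v⟫_ℝ = 0 := by
  rw [Zop_apply_eq, real_inner_smul_left]
  simp only [sum_inner]
  have : ∀ s s', ⟪Dblock π v s s', v⟫_ℝ = 0 := by
    intro s s'
    by_cases hss : s = s'
    · subst hss; simp [D_self hv]
    · have h := hπ (tau s) (Dblock π v s s') v
      rw [map_tau_same hv hss, tau, hv, inner_neg_left] at h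
      linarith
  simp [this]

/-- Second moment. -/
theorem second_moment (hπ : IsOrth π) {v : V} (hv : HInv π v) :
    ‖Zop π v‖ ^ 2 ≤ 2 * ⟪lap π v, v⟫_ℝ := by
  have h1 : ‖Zop π v‖ ^ 2 = (1 / 8 : ℝ) * ∑ s, ∑ s', ‖Dblock π v s s'‖ ^ 2 := by
    rw [Zop_apply_eq, norm_smul, mul_pow, norm_sum_D hπ hv]
    norm_num
    ring
  have h2 : ∑ s, ∑ s', ‖Dblock π v s s'‖ ^ 2 ≤
      ∑ s, ∑ s', 8 * ∑ b : Bool, ∑ b' : Bool,
        (‖v‖ ^ 2 - ⟪π (Equiv.swap (s, b) (s', b')) v, v⟫_ℝ) :=
    Finset.sum_le_sum fun s _ => Finset.sum_le_sum fun s' _ => norm_D_le hπ s s'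
  have h3 : 2 * ⟪lap π v, v⟫_ℝ = ∑ s, ∑ s', ∑ b : Bool, ∑ b' : Bool,
      (‖v‖ ^ 2 - ⟪π (Equiv.swap (s, b) (s', b')) v, v⟫_ℝ) := by
    unfold lap
    rw [inner_lapOn hπ]
    rw [← mul_assoc, show (2 : ℝ) * (1 / 2) = 1 by norm_num, one_mul]
    simp only [Fintype.sum_prod_type]
    refine Finset.sum_congr rfl fun s _ => ?_
    rw [Finset.sum_comm]
  rw [h1, h3]
  simp only [← Finset.mul_sum] at h2
  linarith

end Vale.Agent.P162
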