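/-
P162: moments of the switch operator (see the plan in Switch.lean).

moment_bound: Z^r = 4^{-r} ∑_{t : Fin r → X × X} ∏_i σ(t_i) · π(∏_i swap t_i); a(t) := ⟪π(∏ swap t_i) v, v⟫ is invariant
  under t ↦ h·t (h = flipOf c) because π(h) π(swap x x') π(h)⁻¹ = π(swap (h x) (h x')) and π(h) v = v. Average over c:
  ∑_t ε(t) a(t) = ∑_t ε(t) χ(t) a(t), where ε(t) = ∏ σ(t_i.1) σ(t_i.2), χ(t) = E_c ∏_i g_c(t_i.1.1) g_c(t_i.2.1) ∈ {0,1}
  (g_c(y) = sgn (c y); χ is a character average: if some c₀ has ∏ = -1 then substituting c ↦ xor c c₀ gives χ = -χ so χ = 0; else χ = 1).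
  Since |a(t)| ≤ ‖v‖²: |⟪Z^r v,v⟫| ≤ ‖v‖² 4^{-r} ∑_t χ(t) = ‖v‖² E_c (4^{-1} ∑_{x,x'} g_c(x.1) g_c(x'.1))^r = ‖v‖² E_c (S_c²)^r,
  with S_c = ∑_y g_c(y), because ∑_{x,x'} g_c(x.1) g_c(x'.1) = (2 S_c)².

  In Lean the expansion is replaced by an induction on r over all characters χ of the coin group and all contractions A:
    |∑_c χ(c) ⟪A Z_c^r v, v⟫| ≤ (∑_c χ(c) (S_c²)^r) ‖v‖²,
  with Z_c = π(h_c) Z π(h_c)⁻¹ the operator Z with coefficients twisted by g_c.

mgf_bound: sum the exponential series (hasSum_inner_exp) and use moment_bound; finite expectation, swap sum (Real.exp as HasSum).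

subgauss: for a ∉ s: E_c exp(u (S_s + g_c(a))²) ≤ e^{u} E_c exp((u+2u²) S_s²)  where S_s = ∑_{y∈s} g_c(y): pair c with the flip of c at a,
  (e^{2uS} + e^{-2uS})/2 = cosh(2uS) ≤ exp(2u²S²) (Real.cosh_le_exp_half_sq). Iterating (Finset.induction on s generalizing u):
  E_c exp(u S_s²) ≤ exp(|s| u/(1 - 2|s|u)) when 2|s|u < 1.
-/
import Vale.Agent.P162.Switch

open scoped InnerProductSpace BigOperators
open Finset

namespace Vale.Agent.P162

variable {Y : Type*} [Fintype Y] [DecidableEq Y]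
variable {V : Type*} [NormedAddCommGroup V] [InnerProductSpace ℝ V]
variable {π : Equiv.Perm (Y × Bool) →* (V →L[ℝ] V)}

theorem sgn_xor (a b : Bool) : sgn (xor a b) = sgn a * sgn b := by
  cases a <;> cases b <;> simp [sgn]

theorem sgn_mul_self (a : Bool) : sgn a * sgn a = 1 := by
  cases a <;> simp [sgn]

theorem abs_sgn (a : Bool) : |sgn a| = 1 := by
  cases a <;> simp [sgn]

/-- The operator `Z` with coefficients twisted by the coins `c`. -/
noncomputable def Zc (π : Equiv.Perm (Y × Bool) →* (V →L[ℝ] V)) (c : Y → Bool) : V →L[ℝ] V :=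
  (1 / 4 : ℝ) • ∑ x : Y × Bool, ∑ x' : Y × Bool,
    (sgn x.2 * sgn x'.2 * (sgn (c x.1) * sgn (c x'.1))) • π (Equiv.swap x x')

/-- Conjugating `Z` by a flip twists the coefficients. -/
theorem flip_semiconj (π : Equiv.Perm (Y × Bool) →* (V →L[ℝ] V)) (c : Y → Bool) :
    π (flipOf c) * Zop π = Zc π c * π (flipOf c) := by
  unfold Zop Zc
  rw [mul_smul_comm, smul_mul_assoc]
  congr 1
  set h := flipOf c with hh
  let G : Y × Bool → Y × Bool → (V →L[ℝ] V) := fun x x' =>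
    ((sgn x.2 * sgn x'.2 * (sgn (c x.1) * sgn (c x'.1))) • π (Equiv.swap x x')) * π h
  have key : ∀ x x' : Y × Bool, π h * ((sgn x.2 * sgn x'.2) • π (Equiv.swap x x')) = G (h x) (h x') := by
    intro x x'
    have hcoef : sgn x.2 * sgn x'.2 = sgn (h x).2 * sgn (h x').2 *
        (sgn (c (h x).1) * sgn (c (h x').1)) := by
      simp only [hh, flipOf_apply, sgn_xor]
      have h1 := sgn_mul_self (c x.1)
      have h2 := sgn_mul_self (c x'.1)
      calc sgn x.2 * sgn x'.2 = sgn x.2 * sgn x'.2 * ((sgn (c x.1) * sgn (c x.1)) * (sgn (c x'.1) * sgn (c x'.1))) := by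
            rw [h1, h2]; ring
        _ = _ := by ring
    simp only [G]
    rw [mul_smul_comm, smul_mul_assoc, ← map_mul, ← map_mul, Equiv.mul_swap_eq_swap_mul, hcoef]
  calc π h * ∑ x, ∑ x', (sgn x.2 * sgn x'.2) • π (Equiv.swap x x')
      = ∑ x, ∑ x', G (h x) (h x') := by
        simp only [Finset.mul_sum]
        exact Finset.sum_congr rfl fun x _ => Finset.sum_congr rfl fun x' _ => key x x'
    _ = ∑ x, ∑ x', G x (h x') := Equiv.sum_comp h (fun x => ∑ x', G x (h x'))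
    _ = ∑ x, ∑ x', G x x' := Finset.sum_congr rfl fun x _ => Equiv.sum_comp h (G x)
    _ = _ := by simp only [G, Finset.sum_mul]

/-- Products of twisted operators in the inner product with `v`: `⟪Z^r v, v⟫ = ⟪Z_c^r v, v⟫`. -/
theorem inner_pow_eq_twist (hπ : IsOrth π) {v : V} (hv : HInv π v) (c : Y → Bool) (r : ℕ) :
    ⟪(Zop π ^ r) v, v⟫_ℝ = ⟪(Zc π c ^ r) v, v⟫_ℝ := by
  have hsc : SemiconjBy (π (flipOf c)) (Zop π) (Zc π c) := flip_semiconj π c
  have h1 : π (flipOf c) * Zop π ^ r = Zc π c ^ r * π (flipOf c) := (hsc.pow_right r).eq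
  have h2 := congrArg (fun A : V →L[ℝ] V => A v) h1
  simp only [ContinuousLinearMap.mul_apply] at h2
  rw [hv c] at h2
  rw [← h2, ← hπ (flipOf c) ((Zop π ^ r) v) v, hv c]

/-- A multiplicative function on the coin group. -/
def IsMul (χ : (Y → Bool) → ℝ) : Prop := ∀ c c', χ (fun y => xor (c y) (c' y)) = χ c * χ c'

/-- Translation of the coins. -/
def coinShift (c₀ : Y → Bool) : Equiv.Perm (Y → Bool) where
  toFun c y := xor (c y) (c₀ y)
  invFun c y := xor (c y) (c₀ y)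
  left_inv c := by ext y; simp
  right_inv c := by ext y; simp

theorem IsMul.sum_nonneg {χ : (Y → Bool) → ℝ} (h : IsMul χ) : 0 ≤ ∑ c, χ c := by
  by_cases hall : ∀ c, χ c = 1
  · simp only [hall]
    positivity
  · push Not at hall
    obtain ⟨c₀, hc₀⟩ := hall
    have h1 : ∑ c, χ c = χ c₀ * ∑ c, χ c := by
      rw [Finset.mul_sum]
      rw [← Equiv.sum_comp (coinShift c₀)]
      refine Finset.sum_congr rfl fun c _ => ?_
      show χ (fun y => xor (c y) (c₀ y)) = _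
      rw [h c c₀, mul_comm]
    have h2 : (1 - χ c₀) * ∑ c, χ c = 0 := by linarith
    rcases mul_eq_zero.mp h2 with h3 | h3
    · exact absurd (by linarith) hc₀
    · exact h3.ge

theorem IsMul.mul_sgn {χ : (Y → Bool) → ℝ} (h : IsMul χ) (y y' : Y) :
    IsMul (fun c => χ c * (sgn (c y) * sgn (c y'))) := by
  intro c c'
  simp only [h c c', sgn_xor]
  ring

/-- `∑_{x,x'} g(x.1) g(x'.1) = 4 S²`. -/
theorem sum_sum_sgn (c : Y → Bool) :
    ∑ x : Y × Bool, ∑ x' : Y × Bool, (sgn (c x.1) * sgn (c x'.1)) = 4 * (∑ y, sgn (c y)) ^ 2 := by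
  have h : ∑ x : Y × Bool, sgn (c x.1) = 2 * ∑ y, sgn (c y) := by
    rw [Fintype.sum_prod_type]
    simp [two_mul, Finset.sum_add_distrib]
  calc ∑ x : Y × Bool, ∑ x' : Y × Bool, (sgn (c x.1) * sgn (c x'.1))
      = (∑ x : Y × Bool, sgn (c x.1)) * ∑ x' : Y × Bool, sgn (c x'.1) := by
        rw [Finset.sum_mul_sum]
    _ = _ := by rw [h]; ring

/-- One application of the twisted operator, expanded. -/
theorem inner_Zc_apply (π : Equiv.Perm (Y × Bool) →* (V →L[ℝ] V)) (c : Y → Bool)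
    (A : V →L[ℝ] V) (w v : V) :
    ⟪A (Zc π c w), v⟫_ℝ = (1 / 4 : ℝ) * ∑ x : Y × Bool, ∑ x' : Y × Bool,
      (sgn x.2 * sgn x'.2 * (sgn (c x.1) * sgn (c x'.1))) * ⟪(A * π (Equiv.swap x x')) w, v⟫_ℝ := by
  simp only [Zc, ContinuousLinearMap.smul_apply, ContinuousLinearMap.sum_apply, map_smul, map_sum,
    real_inner_smul_left, sum_inner, ContinuousLinearMap.mul_apply]

/-- The character form of the moment bound. -/
theorem char_moment (hπ : IsOrth π) (v : V) (r : ℕ) :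
    ∀ (χ : (Y → Bool) → ℝ) (_ : IsMul χ) (A : V →L[ℝ] V) (_ : ∀ u, ‖A u‖ ≤ ‖u‖),
      |∑ c, χ c * ⟪A ((Zc π c ^ r) v), v⟫_ℝ| ≤
        (∑ c, χ c * ((∑ y, sgn (c y)) ^ 2) ^ r) * ‖v‖ ^ 2 := by
  induction r with
  | zero =>
    intro χ hχ A hA
    simp only [pow_zero, ContinuousLinearMap.one_apply, mul_one]
    rw [← Finset.sum_mul, abs_mul, abs_of_nonneg hχ.sum_nonneg]
    apply mul_le_mul_of_nonneg_left _ hχ.sum_nonneg
    calc |⟪A v, v⟫_ℝ| ≤ ‖A v‖ * ‖v‖ := abs_real_inner_le_norm _ _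
      _ ≤ ‖v‖ * ‖v‖ := mul_le_mul_of_nonneg_right (hA v) (norm_nonneg v)
      _ = ‖v‖ ^ 2 := (sq _).symm
  | succ r ih =>
    intro χ hχ A hA
    have hexp : ∑ c, χ c * ⟪A ((Zc π c ^ (r + 1)) v), v⟫_ℝ =
        (1 / 4 : ℝ) * ∑ x : Y × Bool, ∑ x' : Y × Bool, (sgn x.2 * sgn x'.2) *
          ∑ c, (χ c * (sgn (c x.1) * sgn (c x'.1))) *
            ⟪(A * π (Equiv.swap x x')) ((Zc π c ^ r) v), v⟫_ℝ := by
      simp only [pow_succ', ContinuousLinearMap.mul_apply, inner_Zc_apply]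
      simp only [Finset.mul_sum]
      rw [Finset.sum_comm]
      refine Finset.sum_congr rfl fun x _ => ?_
      rw [Finset.sum_comm]
      refine Finset.sum_congr rfl fun x' _ => ?_
      refine Finset.sum_congr rfl fun c _ => ?_
      ring
    have hterm : ∀ x x' : Y × Bool,
        |(sgn x.2 * sgn x'.2) *
          ∑ c, (χ c * (sgn (c x.1) * sgn (c x'.1))) *
            ⟪(A * π (Equiv.swap x x')) ((Zc π c ^ r) v), v⟫_ℝ| ≤
        (∑ c, (χ c * (sgn (c x.1) * sgn (c x'.1))) * ((∑ y, sgn (c y)) ^ 2) ^ r) * ‖v‖ ^ 2 := by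
      intro x x'
      rw [abs_mul, abs_mul, abs_sgn, abs_sgn, one_mul, one_mul]
      apply ih _ (hχ.mul_sgn x.1 x'.1)
      intro u
      simp only [ContinuousLinearMap.mul_apply]
      exact (hA _).trans (hπ.norm_map _ _).le
    rw [hexp, abs_mul, abs_of_pos (by norm_num : (0 : ℝ) < 1 / 4)]
    have hfinal : (1 / 4 : ℝ) * ∑ x : Y × Bool, ∑ x' : Y × Bool,
        (∑ c, (χ c * (sgn (c x.1) * sgn (c x'.1))) * ((∑ y, sgn (c y)) ^ 2) ^ r) * ‖v‖ ^ 2 =
        (∑ c, χ c * ((∑ y, sgn (c y)) ^ 2) ^ (r + 1)) * ‖v‖ ^ 2 := by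
      have hc : ∀ c : Y → Bool, ∑ x : Y × Bool, ∑ x' : Y × Bool,
          (χ c * (sgn (c x.1) * sgn (c x'.1))) * ((∑ y, sgn (c y)) ^ 2) ^ r =
          χ c * ((∑ y, sgn (c y)) ^ 2) ^ r * (4 * (∑ y, sgn (c y)) ^ 2) := by
        intro c
        rw [← sum_sum_sgn c, Finset.mul_sum]
        refine Finset.sum_congr rfl fun x _ => ?_
        rw [Finset.mul_sum]
        refine Finset.sum_congr rfl fun x' _ => ?_
        ring
      have hsw : ∑ x : Y × Bool, ∑ x' : Y × Bool,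
          (∑ c, (χ c * (sgn (c x.1) * sgn (c x'.1))) * ((∑ y, sgn (c y)) ^ 2) ^ r) =
          ∑ c, ∑ x : Y × Bool, ∑ x' : Y × Bool,
            (χ c * (sgn (c x.1) * sgn (c x'.1))) * ((∑ y, sgn (c y)) ^ 2) ^ r := by
        calc _ = ∑ x : Y × Bool, ∑ c : Y → Bool, ∑ x' : Y × Bool,
              (χ c * (sgn (c x.1) * sgn (c x'.1))) * ((∑ y, sgn (c y)) ^ 2) ^ r :=
              Finset.sum_congr rfl fun x _ => Finset.sum_comm
          _ = _ := Finset.sum_comm
      simp only [← Finset.sum_mul]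
      rw [← mul_assoc, hsw]
      congr 1
      simp only [hc, Finset.mul_sum]
      refine Finset.sum_congr rfl fun c _ => ?_
      ring
    rw [← hfinal]
    apply mul_le_mul_of_nonneg_left _ (by norm_num : (0 : ℝ) ≤ 1 / 4)
    refine (Finset.abs_sum_le_sum_abs _ _).trans (Finset.sum_le_sum fun x _ => ?_)
    refine (Finset.abs_sum_le_sum_abs _ _).trans (Finset.sum_le_sum fun x' _ => hterm x x')

/-- Moment bound (Kahane-Khintchine type comparison). -/
theorem moment_bound (hπ : IsOrth π) {v : V} (hv : HInv π v) (r : ℕ) :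
    |⟪(Zop π ^ r) v, v⟫_ℝ| ≤ momS Y r * ‖v‖ ^ 2 := by
  have h := char_moment hπ v r (fun _ => 1) (by intro c c'; simp) 1 (by intro u; simp)
  simp only [one_mul, ContinuousLinearMap.one_apply] at h
  have hcard : (∑ _c : Y → Bool, (1 : ℝ)) = (2 : ℝ) ^ Fintype.card Y := by
    simp
  have hpos : (0 : ℝ) < (2 : ℝ) ^ Fintype.card Y := by positivity
  have heq : ∑ c : Y → Bool, ⟪(Zc π c ^ r) v, v⟫_ℝ = (2 : ℝ) ^ Fintype.card Y * ⟪(Zop π ^ r) v, v⟫_ℝ := by
    rw [← hcard, Finset.sum_mul]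
    refine Finset.sum_congr rfl fun c _ => ?_
    rw [one_mul, inner_pow_eq_twist hπ hv c r]
  rw [heq, abs_mul, abs_of_pos hpos] at h
  unfold momS
  rw [inv_mul_eq_div, div_mul_eq_mul_div, le_div_iff₀ hpos, mul_comm]
  exact h

/-- Moment generating function bound. -/
theorem mgf_bound [CompleteSpace V] (hπ : IsOrth π) {v : V} (hv : HInv π v) {u : ℝ} (hu : 0 ≤ u) :
    ⟪NormedSpace.exp (u • Zop π) v, v⟫_ℝ ≤ mgfS Y u * ‖v‖ ^ 2 := by
  have h1 := hasSum_inner_exp (u • Zop π) v v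
  have h2 : HasSum (fun r : ℕ => (r.factorial : ℝ)⁻¹ * (u ^ r * (momS Y r * ‖v‖ ^ 2)))
      (mgfS Y u * ‖v‖ ^ 2) := by
    have h3 : ∀ c : Y → Bool, HasSum (fun r : ℕ => (r.factorial : ℝ)⁻¹ * (u ^ r * ((∑ y, sgn (c y)) ^ 2) ^ r))
        (Real.exp (u * (∑ y, sgn (c y)) ^ 2)) := by
      intro c
      have := NormedSpace.expSeries_div_hasSum_exp (u * (∑ y, sgn (c y)) ^ 2)
      rw [← Real.exp_eq_exp_ℝ] at this
      have hfun : (fun r : ℕ => (r.factorial : ℝ)⁻¹ * (u ^ r * ((∑ y, sgn (c y)) ^ 2) ^ r)) =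
          fun n => (u * (∑ y, sgn (c y)) ^ 2) ^ n / (n.factorial : ℝ) := by
        funext r
        rw [mul_pow, div_eq_inv_mul]
      rw [hfun]
      exact this
    have h4 := hasSum_sum (s := (univ : Finset (Y → Bool))) (fun c _ => h3 c)
    have h5 := (h4.mul_left ((2 : ℝ) ^ Fintype.card Y)⁻¹).mul_right (‖v‖ ^ 2)
    have hfun : (fun r : ℕ => (r.factorial : ℝ)⁻¹ * (u ^ r * (momS Y r * ‖v‖ ^ 2))) =
        fun r : ℕ => ((2 : ℝ) ^ Fintype.card Y)⁻¹ *
          (∑ c : Y → Bool, (r.factorial : ℝ)⁻¹ * (u ^ r * ((∑ y, sgn (c y)) ^ 2) ^ r)) * ‖v‖ ^ 2 := by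
      funext r
      unfold momS
      simp only [← Finset.mul_sum]
      ring
    rw [hfun]
    exact h5
  refine hasSum_le (fun r => ?_) h1 h2
  apply mul_le_mul_of_nonneg_left _ (by positivity)
  rw [smul_pow]
  simp only [ContinuousLinearMap.smul_apply, real_inner_smul_left]
  apply mul_le_mul_of_nonneg_left _ (pow_nonneg hu r)
  exact (le_abs_self _).trans (moment_bound hπ hv r)

/-- `E_c exp(u S_s²)` for a subset `s` of the coins. -/
noncomputable def mgfOn (s : Finset Y) (u : ℝ) : ℝ :=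
  ((2 : ℝ) ^ Fintype.card Y)⁻¹ * ∑ c : Y → Bool, Real.exp (u * (∑ y ∈ s, sgn (c y)) ^ 2)

theorem mgfOn_univ (u : ℝ) : mgfOn (univ : Finset Y) u = mgfS Y u := rfl

/-- Peeling off one coordinate. -/
theorem mgfOn_insert {a : Y} {s : Finset Y} (ha : a ∉ s) (u : ℝ) :
    mgfOn (insert a s) u ≤ Real.exp u * mgfOn s (u + 2 * u ^ 2) := by
  classical
  unfold mgfOn
  set sh := coinShift (fun y : Y => decide (y = a)) with hsh
  have hsh_a : ∀ c : Y → Bool, sgn (sh c a) = - sgn (c a) := by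
    intro c
    show sgn (xor (c a) (decide (a = a))) = _
    cases h : c a <;> simp [sgn]
  have hsh_s : ∀ (c : Y → Bool) (y : Y), y ∈ s → sgn (sh c y) = sgn (c y) := by
    intro c y hy
    have hne : y ≠ a := fun h => ha (h ▸ hy)
    show sgn (xor (c y) (decide (y = a))) = _
    simp [hne]
  set f : (Y → Bool) → ℝ := fun c => Real.exp (u * (∑ y ∈ insert a s, sgn (c y)) ^ 2) with hf
  have hsum : ∑ c, f c = ∑ c, f (sh c) := (Equiv.sum_comp sh f).symm
  have hpt : ∀ c, f c + f (sh c) ≤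
      2 * (Real.exp u * Real.exp ((u + 2 * u ^ 2) * (∑ y ∈ s, sgn (c y)) ^ 2)) := by
    intro c
    set T := ∑ y ∈ s, sgn (c y) with hT
    have hTsh : ∑ y ∈ s, sgn (sh c y) = T :=
      Finset.sum_congr rfl fun y hy => hsh_s c y hy
    have hg2 : sgn (c a) ^ 2 = 1 := by
      rw [sq]; exact sgn_mul_self _
    simp only [hf, Finset.sum_insert ha, hTsh, hsh_a]
    set g := sgn (c a) with hg
    have hcosh := Real.cosh_le_exp_half_sq (2 * u * g * T)
    rw [Real.cosh_eq] at hcosh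
    have e1 : u * (g + T) ^ 2 = u * (T ^ 2 + 1) + 2 * u * g * T := by
      have : (g + T) ^ 2 = g ^ 2 + 2 * g * T + T ^ 2 := by ring
      rw [this, hg2]; ring
    have e2 : u * (-g + T) ^ 2 = u * (T ^ 2 + 1) + -(2 * u * g * T) := by
      have : (-g + T) ^ 2 = g ^ 2 - 2 * g * T + T ^ 2 := by ring
      rw [this, hg2]; ring
    have e3 : (2 * u * g * T) ^ 2 / 2 = 2 * u ^ 2 * T ^ 2 := by
      have : (2 * u * g * T) ^ 2 = 4 * u ^ 2 * g ^ 2 * T ^ 2 := by ring
      rw [this, hg2]; ring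
    have e4 : Real.exp u * Real.exp ((u + 2 * u ^ 2) * T ^ 2) =
        Real.exp (u * (T ^ 2 + 1)) * Real.exp (2 * u ^ 2 * T ^ 2) := by
      rw [← Real.exp_add, ← Real.exp_add]
      congr 1
      ring
    rw [e3] at hcosh
    rw [e1, e2, Real.exp_add, Real.exp_add (u * (T ^ 2 + 1)), e4]
    have hA := Real.exp_pos (u * (T ^ 2 + 1))
    nlinarith
  have hpos : (0 : ℝ) < ((2 : ℝ) ^ Fintype.card Y)⁻¹ := by positivity
  set G : (Y → Bool) → ℝ := fun c => Real.exp ((u + 2 * u ^ 2) * (∑ y ∈ s, sgn (c y)) ^ 2) with hG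
  have h2 : 2 * ∑ c, f c ≤ 2 * ∑ c, (Real.exp u * G c) := by
    calc 2 * ∑ c, f c = ∑ c, f c + ∑ c, f (sh c) := by rw [← hsum]; ring
      _ = ∑ c, (f c + f (sh c)) := (Finset.sum_add_distrib).symm
      _ ≤ ∑ c, 2 * (Real.exp u * G c) := Finset.sum_le_sum fun c _ => hpt c
      _ = _ := (Finset.mul_sum _ _ _).symm
  have h3 : ∑ c, f c ≤ ∑ c, (Real.exp u * G c) := by
    linarith
  calc ((2 : ℝ) ^ Fintype.card Y)⁻¹ * ∑ c, f c
      ≤ ((2 : ℝ) ^ Fintype.card Y)⁻¹ * ∑ c, (Real.exp u * G c) :=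
        mul_le_mul_of_nonneg_left h3 hpos.le
    _ = _ := by
        rw [← Finset.mul_sum]; ring

/-- The iterated bound. -/
theorem mgfOn_le (s : Finset Y) : ∀ u : ℝ, 0 ≤ u → 2 * (s.card : ℝ) * u < 1 →
    mgfOn s u ≤ Real.exp ((s.card : ℝ) * u / (1 - 2 * (s.card : ℝ) * u)) := by
  induction s using Finset.induction_on with
  | empty =>
    intro u _ _
    simp [mgfOn]
  | insert a s ha ih =>
    intro u hu hk
    rw [Finset.card_insert_of_notMem ha] at hk ⊢
    push_cast at hk ⊢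
    set k : ℝ := (s.card : ℝ) with hkdef
    have hk0 : 0 ≤ k := Nat.cast_nonneg _
    set w : ℝ := 1 - 2 * (k + 1) * u with hw
    have hw0 : 0 < w := by linarith
    have hw1 : w ≤ 1 := by
      have : 0 ≤ 2 * (k + 1) * u := by positivity
      linarith
    have hD : 1 - 2 * k * (u + 2 * u ^ 2) = w + 2 * u * (w + 2 * u) := by
      rw [hw]; ring
    have hDpos : 0 < 1 - 2 * k * (u + 2 * u ^ 2) := by
      rw [hD]; positivity
    have hih := ih (u + 2 * u ^ 2) (by positivity) (by linarith)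
    have hexp : 0 < Real.exp u := Real.exp_pos u
    refine (mgfOn_insert ha u).trans ((mul_le_mul_of_nonneg_left hih hexp.le).trans ?_)
    rw [← Real.exp_add]
    apply Real.exp_le_exp.mpr
    have h1 : (u + 2 * u ^ 2) / (1 - 2 * k * (u + 2 * u ^ 2)) ≤ u / w := by
      rw [div_le_div_iff₀ hDpos hw0, hD]
      have : 0 ≤ u ^ 2 * u := by positivity
      nlinarith
    have h2 : u ≤ u / w := by
      rw [le_div_iff₀ hw0]
      nlinarith
    have h3 : k * (u + 2 * u ^ 2) / (1 - 2 * k * (u + 2 * u ^ 2)) ≤ k * (u / w) := by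
      rw [mul_div_assoc]
      exact mul_le_mul_of_nonneg_left h1 hk0
    have h4 : (k + 1) * u / (1 - 2 * (k + 1) * u) = k * (u / w) + u / w := by
      rw [← hw]; ring
    rw [h4]
    linarith

/-- Sub-Gaussian bound, by peeling off one coordinate at a time. -/
theorem subgauss {κ : ℝ} (hκ0 : 0 ≤ κ) (hκ : κ ≤ 1 / 4) (hY : 0 < Fintype.card Y) :
    mgfS Y (κ / Fintype.card Y) ≤ Real.exp (2 * κ) := by
  have hm : (0 : ℝ) < Fintype.card Y := by exact_mod_cast hY
  have hcard : ((univ : Finset Y).card : ℝ) = Fintype.card Y := by simp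
  have h := mgfOn_le (univ : Finset Y) (κ / Fintype.card Y) (by positivity) (by
    rw [hcard]
    have : 2 * (Fintype.card Y : ℝ) * (κ / Fintype.card Y) = 2 * κ := by field_simp
    rw [this]; linarith)
  rw [mgfOn_univ, hcard] at h
  refine h.trans (Real.exp_le_exp.mpr ?_)
  have e1 : (Fintype.card Y : ℝ) * (κ / Fintype.card Y) = κ := by field_simp
  have e2 : 2 * (Fintype.card Y : ℝ) * (κ / Fintype.card Y) = 2 * κ := by field_simp
  rw [e1, e2, div_le_iff₀ (by linarith)]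
  nlinarith

end Vale.Agent.P162
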