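/-
P162: the scalar lemma and the single step of the induction.

scalar_tail: for finitely many weights p_i ≥ 0 and reals y_i with ∑ p_i exp(y_i/4) ≤ K P (P = ∑ p_i), 0 < c ≤ 1/16:
   ∑ p_i exp(c y_i) ≤ P + c ∑ p_i y_i + (c²/2) (e^c ∑ p_i y_i² + sqrt(∑ p_i y_i²) sqrt(128 K P)).
 Proof: e^{cy} ≤ 1 + cy + (c²/2) y² e^c for y ≤ 1, and for y>1 add (c²/2) y² e^{cy} and use Cauchy-Schwarz,
 y² e^{2cy} ≤ 128 e^{y/4} for y ≥ 0 because y²/128 ≤ e^{y/8}.

exp_Z_le: apply it to the eigen-data of Z with y_i = z_i/m, p_i = ⟪w,b_i⟫², K = e^{1/2} using mgf_bound (u = 1/(4m)) and subgauss.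

step' : for H-invariant w, with n = 2m, ε = 40 c²/√n:
   ⟪exp((c/m) Z) w, w⟫ ≤ ⟪exp((ε/n) Δ) w, w⟫.
 Split w = a + w', a = P_∅ w (Z a = 0, Δ a = 0, a ⊥ w', w' H-invariant). On w': by first_moment, second_moment, lap_gap:
   ‖Zw'‖² ≤ 2D, ‖w'‖² ≤ 8D/(3n), D = ⟪Δw',w'⟫; so RHS of exp_Z_le ≤ ‖w'‖² + (ε/n) D ≤ ⟪exp((ε/n)Δ) w',w'⟫ by exp_ge.

step : for H-invariant v: ⟪T⁰(c) T¹(c) v, v⟫ ≤ ⟪T(c - ε) v, v⟫.
 Since T⁰(c)T¹(c) = exp(-(c/m)Δ_K) = exp((c/m) Z) exp(-(c/n) Δ) (Z_eq and commutation), and w = T(c/2) v is H-invariant.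
-/
import Vale.Agent.P162.Moment

open scoped InnerProductSpace BigOperators
open Finset

namespace Vale.Agent.P162

variable {Y : Type*} [Fintype Y] [DecidableEq Y]
variable {V : Type*} [NormedAddCommGroup V] [InnerProductSpace ℝ V]

/-- Second order upper bound for the exponential, negative side. -/
theorem exp_le_quad_of_nonpos {a : ℝ} (ha : a ≤ 0) : Real.exp a ≤ 1 + a + a ^ 2 / 2 := by
  have h1 : 1 + (-a) + (-a) ^ 2 / 2 ≤ Real.exp (-a) := Real.quadratic_le_exp_of_nonneg (by linarith)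
  have h2 : 0 < 1 - a + a ^ 2 / 2 := by nlinarith [sq_nonneg a]
  have h3 : Real.exp a * Real.exp (-a) = 1 := by rw [← Real.exp_add]; simp
  have h4 : (1 + a + a ^ 2 / 2) * (1 - a + a ^ 2 / 2) ≥ 1 := by nlinarith [sq_nonneg (a ^ 2)]
  have h5 : 0 < Real.exp a := Real.exp_pos a
  have h6 : (1 - a + a ^ 2 / 2) ≤ Real.exp (-a) := by nlinarith
  by_contra hcon
  push Not at hcon
  have h7 : (1 + a + a ^ 2 / 2) * (1 - a + a ^ 2 / 2) < Real.exp a * (1 - a + a ^ 2 / 2) :=
    mul_lt_mul_of_pos_right hcon h2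
  have h8 : Real.exp a * (1 - a + a ^ 2 / 2) ≤ Real.exp a * Real.exp (-a) :=
    mul_le_mul_of_nonneg_left h6 h5.le
  linarith

/-- Second order upper bound for the exponential, positive side. -/
theorem exp_le_quad_of_nonneg {a : ℝ} (ha : 0 ≤ a) : Real.exp a ≤ 1 + a + a ^ 2 / 2 * Real.exp a := by
  -- φ(t) = (1 + t) e^{-t} - 1 + t²/2 is nondecreasing on [0, ∞)
  let φ : ℝ → ℝ := fun t => (1 + t) * Real.exp (-t) - 1 + t ^ 2 / 2
  have hd : ∀ t, HasDerivAt φ (t * (1 - Real.exp (-t))) t := by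
    intro t
    have h1 : HasDerivAt (fun t : ℝ => 1 + t) 1 t := (hasDerivAt_id t).const_add 1
    have h2 : HasDerivAt (fun t : ℝ => Real.exp (-t)) (Real.exp (-t) * (-1)) t :=
      (Real.hasDerivAt_exp (-t)).comp t (hasDerivAt_neg t)
    have h3 : HasDerivAt (fun t : ℝ => t ^ 2 / 2) t t := by
      have h := ((hasDerivAt_id t).pow 2).div_const 2
      exact HasDerivAt.congr_deriv h (by simp)
    have h4 := ((h1.mul h2).sub_const 1).add h3
    exact HasDerivAt.congr_deriv h4 (by ring)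
  have hmono : MonotoneOn φ (Set.Ici 0) := by
    apply monotoneOn_of_deriv_nonneg (convex_Ici 0)
    · exact fun t _ => (hd t).continuousAt.continuousWithinAt
    · exact fun t _ => (hd t).differentiableAt.differentiableWithinAt
    · intro t ht
      rw [interior_Ici] at ht
      rw [(hd t).deriv]
      have ht' : 0 < t := ht
      have : Real.exp (-t) ≤ 1 := Real.exp_le_one_iff.mpr (by linarith)
      exact mul_nonneg ht'.le (by linarith)
  have h0 : φ 0 ≤ φ a := hmono (Set.mem_Ici.mpr le_rfl) (Set.mem_Ici.mpr ha) ha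
  have h00 : φ 0 = 0 := by simp [φ]
  rw [h00] at h0
  simp only [φ] at h0
  have h5 : 0 < Real.exp a := Real.exp_pos a
  have h6 : Real.exp a * Real.exp (-a) = 1 := by rw [← Real.exp_add]; simp
  have h7 := mul_le_mul_of_nonneg_left h0 h5.le
  nlinarith

/-- The pointwise inequality behind the scalar lemma. -/
theorem exp_pointwise {c y : ℝ} (hc0 : 0 < c) (hc : c ≤ 1 / 16) :
    Real.exp (c * y) ≤ 1 + c * y + (c ^ 2 / 2) * (Real.exp c * y ^ 2 +
      (if 1 < y then y ^ 2 * Real.exp (c * y) else 0)) := by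
  have hq : 0 ≤ (c * y) ^ 2 / 2 := by positivity
  rcases le_or_gt y 1 with hy | hy
  · rw [if_neg (by linarith)]
    rcases le_or_gt y 0 with hy0 | hy0
    · have h1 := exp_le_quad_of_nonpos (a := c * y) (mul_nonpos_of_nonneg_of_nonpos hc0.le hy0)
      have h2 : 1 ≤ Real.exp c := Real.one_le_exp hc0.le
      have h3 : 0 ≤ (c ^ 2 / 2) * y ^ 2 := by positivity
      nlinarith
    · have h1 := exp_le_quad_of_nonneg (a := c * y) (by positivity)
      have h2 : Real.exp (c * y) ≤ Real.exp c := Real.exp_le_exp.mpr (by nlinarith)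
      have h3 : (c * y) ^ 2 / 2 * Real.exp (c * y) ≤ (c * y) ^ 2 / 2 * Real.exp c :=
        mul_le_mul_of_nonneg_left h2 hq
      nlinarith
  · rw [if_pos hy]
    have h1 := exp_le_quad_of_nonneg (a := c * y) (by positivity)
    have h3 : 0 ≤ (c ^ 2 / 2) * (Real.exp c * y ^ 2) := by positivity
    nlinarith

/-- The tail estimate. -/
theorem tail_pointwise {c y : ℝ} (hc0 : 0 < c) (hc : c ≤ 1 / 16) (hy : 1 < y) :
    y ^ 2 * Real.exp (2 * (c * y)) ≤ 128 * Real.exp (y / 4) := by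
  have h1 : 1 + y / 8 + (y / 8) ^ 2 / 2 ≤ Real.exp (y / 8) :=
    Real.quadratic_le_exp_of_nonneg (by linarith)
  have h2 : y ^ 2 ≤ 128 * Real.exp (y / 8) := by nlinarith
  have h3 : Real.exp (2 * (c * y)) ≤ Real.exp (y / 8) := Real.exp_le_exp.mpr (by nlinarith)
  have h4 : Real.exp (y / 4) = Real.exp (y / 8) * Real.exp (y / 8) := by
    rw [← Real.exp_add]; congr 1; ring
  have h5 := Real.exp_pos (y / 8)
  have h6 := Real.exp_pos (2 * (c * y))
  rw [h4]
  calc y ^ 2 * Real.exp (2 * (c * y)) ≤ (128 * Real.exp (y / 8)) * Real.exp (y / 8) :=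
        mul_le_mul h2 h3 h6.le (by positivity)
    _ = _ := by ring

/-- Scalar lemma. -/
theorem scalar_tail {ι : Type*} [Fintype ι] (p y : ι → ℝ) (hp : ∀ i, 0 ≤ p i) {K c : ℝ}
    (hK : ∑ i, p i * Real.exp (y i / 4) ≤ K * ∑ i, p i) (hc0 : 0 < c) (hc : c ≤ 1 / 16) :
    ∑ i, p i * Real.exp (c * y i) ≤ ∑ i, p i + c * ∑ i, p i * y i +
      (c ^ 2 / 2) * (Real.exp c * ∑ i, p i * y i ^ 2 +
        Real.sqrt (∑ i, p i * y i ^ 2) * Real.sqrt (128 * K * ∑ i, p i)) := by
  have hcs := Real.sum_mul_le_sqrt_mul_sqrt (univ : Finset ι)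
    (fun i => Real.sqrt (p i) * y i)
    (fun i => Real.sqrt (p i) * (if 1 < y i then y i * Real.exp (c * y i) else 0))
  have hf : ∀ i, (Real.sqrt (p i) * y i) ^ 2 = p i * y i ^ 2 := by
    intro i
    rw [mul_pow, Real.sq_sqrt (hp i)]
  have hg : ∀ i, (Real.sqrt (p i) * (if 1 < y i then y i * Real.exp (c * y i) else 0)) ^ 2 ≤
      p i * (128 * Real.exp (y i / 4)) := by
    intro i
    rw [mul_pow, Real.sq_sqrt (hp i)]
    apply mul_le_mul_of_nonneg_left _ (hp i)
    split_ifs with hy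
    · have h1 := tail_pointwise hc0 hc hy
      have h2 : (y i * Real.exp (c * y i)) ^ 2 = y i ^ 2 * Real.exp (2 * (c * y i)) := by
        rw [mul_pow, ← Real.exp_nat_mul]
        norm_num
      rw [h2]
      exact h1
    · have := Real.exp_pos (y i / 4)
      norm_num
      positivity
  have hfg : ∀ i, (Real.sqrt (p i) * y i) *
      (Real.sqrt (p i) * (if 1 < y i then y i * Real.exp (c * y i) else 0)) =
      p i * (if 1 < y i then y i ^ 2 * Real.exp (c * y i) else 0) := by
    intro i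
    have hsq : Real.sqrt (p i) * Real.sqrt (p i) = p i := Real.mul_self_sqrt (hp i)
    split_ifs with hy
    · calc _ = (Real.sqrt (p i) * Real.sqrt (p i)) * (y i ^ 2 * Real.exp (c * y i)) := by ring
        _ = _ := by rw [hsq]
    · ring
  simp only [hf, hfg] at hcs
  have hG : ∑ i, (Real.sqrt (p i) * (if 1 < y i then y i * Real.exp (c * y i) else 0)) ^ 2 ≤
      128 * K * ∑ i, p i := by
    calc _ ≤ ∑ i, p i * (128 * Real.exp (y i / 4)) := Finset.sum_le_sum fun i _ => hg i
      _ = 128 * ∑ i, p i * Real.exp (y i / 4) := by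
        rw [Finset.mul_sum]; exact Finset.sum_congr rfl fun i _ => by ring
      _ ≤ 128 * (K * ∑ i, p i) := by linarith
      _ = _ := by ring
  have hT : ∑ i, p i * (if 1 < y i then y i ^ 2 * Real.exp (c * y i) else 0) ≤
      Real.sqrt (∑ i, p i * y i ^ 2) * Real.sqrt (128 * K * ∑ i, p i) :=
    hcs.trans (mul_le_mul_of_nonneg_left (Real.sqrt_le_sqrt hG) (Real.sqrt_nonneg _))
  have hmain : ∑ i, p i * Real.exp (c * y i) ≤ ∑ i, p i * (1 + c * y i + (c ^ 2 / 2) *
      (Real.exp c * y i ^ 2 + (if 1 < y i then y i ^ 2 * Real.exp (c * y i) else 0))) :=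
    Finset.sum_le_sum fun i _ => mul_le_mul_of_nonneg_left (exp_pointwise hc0 hc) (hp i)
  have hexp : ∑ i, p i * (1 + c * y i + (c ^ 2 / 2) *
      (Real.exp c * y i ^ 2 + (if 1 < y i then y i ^ 2 * Real.exp (c * y i) else 0))) =
      ∑ i, p i + c * ∑ i, p i * y i + (c ^ 2 / 2) * (Real.exp c * ∑ i, p i * y i ^ 2 +
        ∑ i, p i * (if 1 < y i then y i ^ 2 * Real.exp (c * y i) else 0)) := by
    simp only [Finset.mul_sum, ← Finset.sum_add_distrib]
    exact Finset.sum_congr rfl fun i _ => by ring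
  rw [hexp] at hmain
  have hc2 : 0 ≤ c ^ 2 / 2 := by positivity
  nlinarith [mul_le_mul_of_nonneg_left hT hc2]

variable [FiniteDimensional ℝ V] [CompleteSpace V]
variable {π : Equiv.Perm (Y × Bool) →* (V →L[ℝ] V)}

/-- Fixed vectors are killed by `Z`. -/
theorem Z_apply_of_fixed {π : Equiv.Perm (Y × Bool) →* (V →L[ℝ] V)} {a : V} (ha : ∀ g, π g a = a) :
    Zop π a = 0 := by
  simp only [Zop, smul_apply, _root_.sum_apply, ha]
  have h : ∑ x : Y × Bool, sgn x.2 = 0 := by
    rw [Fintype.sum_prod_type]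
    simp [sgn]
  have h2 : ∑ x : Y × Bool, ∑ x' : Y × Bool, (sgn x.2 * sgn x'.2) • a =
      ((∑ x : Y × Bool, sgn x.2) * ∑ x' : Y × Bool, sgn x'.2) • a := by
    rw [Finset.sum_mul_sum, Finset.sum_smul]
    exact Finset.sum_congr rfl fun x _ => by rw [Finset.sum_smul]
  rw [h2, h]
  simp

/-- Fixed vectors are killed by the Laplacian. -/
theorem lap_apply_of_fixed {X : Type*} [Fintype X] [DecidableEq X]
    {π : Equiv.Perm X →* (V →L[ℝ] V)} {a : V} (ha : ∀ g, π g a = a) :
    lap π a = 0 := by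
  simp [lap, lapOn, ha]

/-- Splitting off a null vector. -/
theorem inner_exp_split {A : V →L[ℝ] V} (hA : Symm A) {a w' : V} (ha : A a = 0)
    (hperp : ⟪a, w'⟫_ℝ = 0) (t : ℝ) :
    ⟪NormedSpace.exp (t • A) (a + w'), a + w'⟫_ℝ = ‖a‖ ^ 2 + ⟪NormedSpace.exp (t • A) w', w'⟫_ℝ := by
  have hE : NormedSpace.exp (t • A) a = a := by
    have h : (t • A) a = (0 : ℝ) • a := by simp [ha]
    have := exp_apply_of_eigen (t • A) h
    simpa using this
  have hS := exp_symm hA t
  rw [map_add, hE, inner_add_left, inner_add_right, inner_add_right, hperp,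
    real_inner_self_eq_norm_sq, hS w' a, hE, real_inner_comm, hperp]
  ring

/-- The exponential of the switch operator on an `H`-invariant vector. -/
theorem exp_Z_le (hπ : IsOrth π) {w : V} (hw : HInv π w) (hY : 0 < Fintype.card Y) {c : ℝ}
    (hc0 : 0 < c) (hc : c ≤ 1 / 16) :
    ⟪NormedSpace.exp ((c / Fintype.card Y) • Zop π) w, w⟫_ℝ ≤ ‖w‖ ^ 2 +
      (c ^ 2 / 2) * (Real.exp c * (‖Zop π w‖ / Fintype.card Y) ^ 2 +
        (‖Zop π w‖ / Fintype.card Y) * (Real.sqrt (128 * Real.exp (1 / 2)) * ‖w‖)) := by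
  obtain ⟨b, z, hb⟩ := exists_eigen (Zop π) (Z_symm hπ)
  have hm : (0 : ℝ) < Fintype.card Y := by exact_mod_cast hY
  set m : ℝ := (Fintype.card Y : ℝ) with hmdef
  have hN := norm_sq_eq_sum b w
  have hK : ∑ i, ⟪w, b i⟫_ℝ ^ 2 * Real.exp ((z i / m) / 4) ≤
      Real.exp (1 / 2) * ∑ i, ⟪w, b i⟫_ℝ ^ 2 := by
    have h1 := mgf_bound hπ hw (u := (1 / 4) / m) (by positivity)
    have h2 : mgfS Y ((1 / 4) / m) ≤ Real.exp (2 * (1 / 4)) :=
      subgauss (κ := 1 / 4) (by norm_num) (by norm_num) hY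
    rw [inner_exp_eq_sum b hb] at h1
    have h3 : ∑ i, ⟪w, b i⟫_ℝ ^ 2 * Real.exp ((z i / m) / 4) =
        ∑ i, Real.exp ((1 / 4) / m * z i) * (⟪w, b i⟫_ℝ * ⟪w, b i⟫_ℝ) := by
      refine Finset.sum_congr rfl fun i _ => ?_
      have : (z i / m) / 4 = (1 / 4) / m * z i := by ring
      rw [this]
      ring
    rw [h3, ← hN]
    have h4 : (2 : ℝ) * (1 / 4) = 1 / 2 := by norm_num
    rw [h4] at h2
    exact h1.trans (mul_le_mul_of_nonneg_right h2 (by positivity))
  have hs := scalar_tail (fun i => ⟪w, b i⟫_ℝ ^ 2) (fun i => z i / m) (fun i => sq_nonneg _) hK hc0 hc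
  have h1 : ⟪NormedSpace.exp ((c / m) • Zop π) w, w⟫_ℝ =
      ∑ i, ⟪w, b i⟫_ℝ ^ 2 * Real.exp (c * (z i / m)) := by
    rw [inner_exp_eq_sum b hb]
    refine Finset.sum_congr rfl fun i _ => ?_
    have : c / m * z i = c * (z i / m) := by ring
    rw [this]
    ring
  have h2 : ∑ i, ⟪w, b i⟫_ℝ ^ 2 * (z i / m) = 0 := by
    have h := first_moment hπ hw
    rw [inner_apply_eq_sum b hb] at h
    have : ∑ i, ⟪w, b i⟫_ℝ ^ 2 * (z i / m) = (∑ i, z i * (⟪w, b i⟫_ℝ * ⟪w, b i⟫_ℝ)) / m := by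
      rw [Finset.sum_div]
      refine Finset.sum_congr rfl fun i _ => ?_
      ring
    rw [this, h, zero_div]
  have h3 : ∑ i, ⟪w, b i⟫_ℝ ^ 2 * (z i / m) ^ 2 = (‖Zop π w‖ / m) ^ 2 := by
    rw [div_pow, norm_apply_sq_eq_sum b hb, Finset.sum_div]
    refine Finset.sum_congr rfl fun i _ => ?_
    field_simp
  rw [h1]
  rw [h2, h3, ← hN, mul_zero, add_zero] at hs
  have h4 : Real.sqrt ((‖Zop π w‖ / m) ^ 2) = ‖Zop π w‖ / m :=
    Real.sqrt_sq (by positivity)
  have h5 : Real.sqrt (128 * Real.exp (1 / 2) * ‖w‖ ^ 2) =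
      Real.sqrt (128 * Real.exp (1 / 2)) * ‖w‖ := by
    rw [Real.sqrt_mul (by positivity), Real.sqrt_sq (norm_nonneg _)]
  rw [h4, h5] at hs
  exact hs

/-- Domination of the exponential of `Z` by a small heat factor (for mean-free vectors). -/
theorem step_mean_free (hπ : IsOrth π) {w : V} (hw : HInv π w)
    (hw0 : avgOn π (fixG (∅ : Finset (Y × Bool))) w = 0) (hY : 0 < Fintype.card Y) {c : ℝ}
    (hc0 : 0 < c) (hc : c ≤ 1 / 16) :
    ⟪NormedSpace.exp ((c / Fintype.card Y) • Zop π) w, w⟫_ℝ ≤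
      ‖w‖ ^ 2 + (40 * c ^ 2 / Real.sqrt (2 * Fintype.card Y) / (2 * Fintype.card Y)) * ⟪lap π w, w⟫_ℝ := by
  have hm : (0 : ℝ) < Fintype.card Y := by exact_mod_cast hY
  have hcardX : (Fintype.card (Y × Bool) : ℝ) = 2 * Fintype.card Y := by
    simp [Fintype.card_prod, Fintype.card_bool]
    ring
  have hE : Even (Fintype.card (Y × Bool)) := by
    simp [Fintype.card_prod, Fintype.card_bool]
  have hX0 : 0 < Fintype.card (Y × Bool) := by
    simp [Fintype.card_prod, Fintype.card_bool, hY]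
  have hgap := lap_gap π hπ hE hX0 hw0
  rw [hcardX] at hgap
  have hsec := second_moment hπ hw
  refine (exp_Z_le hπ hw hY hc0 hc).trans ?_
  set m : ℝ := (Fintype.card Y : ℝ) with hmdef
  set D : ℝ := ⟪lap π w, w⟫_ℝ with hD
  have hD0 : 0 ≤ D := lapOn_nonneg hπ univ w
  set n : ℝ := 2 * m with hn
  have hn0 : 0 < n := by positivity
  have hn1 : 1 ≤ n := by
    have : (1 : ℝ) ≤ m := by
      have : 1 ≤ Fintype.card Y := hY
      rw [hmdef]
      exact_mod_cast this
    linarith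
  set R : ℝ := Real.sqrt n with hR
  have hR0 : 0 < R := Real.sqrt_pos.mpr hn0
  have hR2 : R ^ 2 = n := Real.sq_sqrt hn0.le
  have hR1 : R ≤ n := by nlinarith [Real.sqrt_nonneg n, Real.one_le_sqrt.mpr hn1]
  set a : ℝ := ‖Zop π w‖ / m with ha
  have ha0 : 0 ≤ a := by positivity
  have ha2 : a ^ 2 ≤ 8 * D / n ^ 2 := by
    rw [ha, div_pow, div_le_div_iff₀ (by positivity) (by positivity)]
    have : 2 * D * n ^ 2 = 8 * D * m ^ 2 := by rw [hn]; ring
    nlinarith [sq_nonneg m]
  set W : ℝ := ‖w‖ with hW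
  have hW0 : 0 ≤ W := norm_nonneg _
  have hW2 : W ^ 2 ≤ 8 * D / (3 * n) := by
    rw [le_div_iff₀ (by positivity)]
    nlinarith
  -- the constant
  have hK2 : Real.exp (1 / 2) ≤ 1.65 := by
    have h1 : Real.exp (1 / 2) ^ 2 = Real.exp 1 := by
      rw [← Real.exp_nat_mul]
      norm_num
    have h2 := Real.exp_one_lt_d9
    have h3 := Real.exp_pos (1 / 2)
    nlinarith
  set s : ℝ := Real.sqrt (128 * Real.exp (1 / 2)) with hs
  have hs0 : 0 ≤ s := Real.sqrt_nonneg _
  have hs2 : s ^ 2 ≤ 128 * 1.65 := by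
    rw [hs, Real.sq_sqrt (by positivity)]
    linarith
  -- second term
  have hprod : a * (s * W) ≤ 68 * D / (n * R) := by
    have h1 : (a * (s * W)) ^ 2 ≤ (68 * D / (n * R)) ^ 2 := by
      have h2 : (68 * D / (n * R)) ^ 2 = 4624 * D ^ 2 / n ^ 3 := by
        rw [div_pow, mul_pow, mul_pow, hR2]
        ring
      rw [h2]
      calc (a * (s * W)) ^ 2 = a ^ 2 * s ^ 2 * W ^ 2 := by ring
        _ ≤ (8 * D / n ^ 2) * (128 * 1.65) * (8 * D / (3 * n)) := by
            apply mul_le_mul _ hW2 (by positivity) (by positivity)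
            exact mul_le_mul ha2 hs2 (by positivity) (by positivity)
        _ ≤ 4624 * D ^ 2 / n ^ 3 := by
            have : (8 * D / n ^ 2) * (128 * 1.65) * (8 * D / (3 * n)) =
                (8 * 128 * 1.65 * 8 / 3) * D ^ 2 / n ^ 3 := by
              field_simp
            rw [this]
            apply div_le_div_of_nonneg_right _ (by positivity)
            nlinarith [sq_nonneg D]
    exact abs_le_of_sq_le_sq' h1 (by positivity) |>.2
  -- first term
  have hec : Real.exp c ≤ 3 / 2 := by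
    have h1 : Real.exp c ≤ Real.exp (1 / 16) := Real.exp_le_exp.mpr hc
    have h2 := Real.exp_bound_div_one_sub_of_interval (x := 1 / 16) (by norm_num) (by norm_num)
    have h3 : Real.exp (1 / 16) ≤ 1 / (1 - 1 / 16) := h2
    have h4 : (1 : ℝ) / (1 - 1 / 16) ≤ 3 / 2 := by norm_num
    linarith
  have hfirst : Real.exp c * a ^ 2 ≤ 12 * D / (n * R) := by
    have h1 : Real.exp c * a ^ 2 ≤ (3 / 2) * (8 * D / n ^ 2) :=
      mul_le_mul hec ha2 (by positivity) (by norm_num)
    refine h1.trans ?_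
    have h2 : (3 / 2) * (8 * D / n ^ 2) = 12 * D / (n * n) := by
      field_simp
      ring
    rw [h2]
    apply div_le_div_of_nonneg_left (by positivity) (by positivity)
    exact mul_le_mul_of_nonneg_left hR1 hn0.le
  have hbr : Real.exp c * a ^ 2 + a * (s * W) ≤ 80 * D / (n * R) := by
    have : 80 * D / (n * R) = 12 * D / (n * R) + 68 * D / (n * R) := by ring
    rw [this]
    exact add_le_add hfirst hprod
  have hfin : (c ^ 2 / 2) * (Real.exp c * a ^ 2 + a * (s * W)) ≤ 40 * c ^ 2 / R / n * D := by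
    calc _ ≤ (c ^ 2 / 2) * (80 * D / (n * R)) := mul_le_mul_of_nonneg_left hbr (by positivity)
      _ = _ := by field_simp; ring
  linarith

/-- Domination of the exponential of `Z` by a small heat factor. -/
theorem step' (hπ : IsOrth π) {w : V} (hw : HInv π w) (hY : 0 < Fintype.card Y) {c : ℝ}
    (hc0 : 0 < c) (hc : c ≤ 1 / 16) :
    ⟪NormedSpace.exp ((c / Fintype.card Y) • Zop π) w, w⟫_ℝ ≤
      ⟪NormedSpace.exp ((40 * c ^ 2 / Real.sqrt (2 * Fintype.card Y) / (2 * Fintype.card Y)) • lap π) w, w⟫_ℝ := by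
  -- the split
  set P := avgOn π (fixG (∅ : Finset (Y × Bool))) with hP
  set a := P w with ha
  set w' := w - a with hw'
  have hmemAll : ∀ g : Equiv.Perm (Y × Bool), g ∈ fixG (∅ : Finset (Y × Bool)) := by
    intro g x hx
    simp at hx
  have hafix : ∀ g, π g a = a := fun g => avgOn_map_apply π _ (hmemAll g) w
  have hPw' : P w' = 0 := by
    rw [hw', map_sub, ha]
    have h := congrArg (fun A : (V →L[ℝ] V) => A w) (avgOn_idem π (fixG (∅ : Finset (Y × Bool))))
    simp only [mul_apply_eq_comp] at h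
    rw [h, sub_self]
  have hHw' : HInv π w' := by
    intro c'
    rw [hw', map_sub, hw c', hafix]
  have hperp : ⟪a, w'⟫_ℝ = 0 := by
    rw [ha, avgOn_symm (fixG (∅ : Finset (Y × Bool))) hπ, hPw', inner_zero_right]
  have hw_eq : w = a + w' := by rw [hw']; abel
  have hZa : Zop π a = 0 := Z_apply_of_fixed hafix
  have hLa : lap π a = 0 := lap_apply_of_fixed hafix
  have h1 := inner_exp_split (Z_symm hπ) hZa hperp (c / Fintype.card Y)
  have hLsym : Symm (lap π) := lapOn_symm hπ univ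
  have h2 := inner_exp_split hLsym hLa hperp
    (40 * c ^ 2 / Real.sqrt (2 * Fintype.card Y) / (2 * Fintype.card Y))
  rw [← hw_eq] at h1 h2
  rw [h1, h2]
  have h3 := step_mean_free hπ hHw' hPw' hY hc0 hc
  have h4 := exp_ge hLsym
    (40 * c ^ 2 / Real.sqrt (2 * Fintype.card Y) / (2 * Fintype.card Y)) w'
  linarith

/-- The single step: the product of the two half heat kernels is dominated on `H`-invariant vectors
by the full heat kernel at a slightly smaller time. -/
theorem step (hπ : IsOrth π) {v : V} (hv : HInv π v) (hY : 0 < Fintype.card Y) {c : ℝ}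
    (hc0 : 0 < c) (hc : c ≤ 1 / 16) :
    ⟪heat (π.comp (inFiber false)) c (heat (π.comp (inFiber true)) c v), v⟫_ℝ ≤
      ⟪heat π (c - 40 * c ^ 2 / Real.sqrt (2 * Fintype.card Y)) v, v⟫_ℝ := by
  have hm : (0 : ℝ) < Fintype.card Y := by exact_mod_cast hY
  have hcardX : (Fintype.card (Y × Bool) : ℝ) = 2 * Fintype.card Y := by
    simp [Fintype.card_prod, Fintype.card_bool]
    ring
  set m : ℝ := (Fintype.card Y : ℝ) with hmdef
  set ε : ℝ := 40 * c ^ 2 / Real.sqrt (2 * m) with hε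
  set ρ0 := π.comp (inFiber false) with hρ0
  set ρ1 := π.comp (inFiber true) with hρ1
  -- product of the two half kernels
  have hcomm01 : Commute (lap ρ0) (lap ρ1) := by
    apply lap_commute_of
    intro g
    apply Commute.symm
    apply lap_commute_of
    intro g'
    show Commute (π (inFiber true g)) (π (inFiber false g'))
    have := inFiber_commute g' g
    show π (inFiber true g) * π (inFiber false g') = π (inFiber false g') * π (inFiber true g)
    rw [← map_mul, ← map_mul, this.symm.eq]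
  have hprod : heat ρ0 c * heat ρ1 c =
      NormedSpace.exp ((c / m) • Zop π) * heat π c := by
    unfold heat
    rw [← exp_add_comm (((hcomm01).smul_left _).smul_right _), ← exp_add_comm]
    · congr 1
      have hZ := Z_eq π
      rw [hZ, hcardX]
      have hm' : (Fintype.card Y : ℝ) = m := rfl
      rw [hm']
      rw [← hρ0, ← hρ1]
      simp only [smul_sub, smul_add, smul_smul]
      have h1 : c / (2 * m) = (c / m) * (1 / 2) := by field_simp
      rw [h1]
      simp only [neg_smul]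
      abel
    · exact ((Z_commute_lap π).smul_left _).smul_right _
  -- the half heat kernel
  set S := heat π (c / 2) with hS
  have hSS : heat π c = S * S := by
    rw [hS, ← heat_add]
    congr 1
    ring
  set E := NormedSpace.exp ((c / m) • Zop π) with hE
  have hES : Commute E S := by
    apply Commute.exp_left
    apply Commute.smul_left
    exact heat_commute π (Z_commute_lap π) _
  have hSsym := heat_symm hπ (c / 2)
  have hw : HInv π (S v) := by
    intro c'
    have := (heat_commute_map π (flipOf c') (c / 2)).eq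
    have h2 := congrArg (fun A : (V →L[ℝ] V) => A v) this
    simp only [mul_apply_eq_comp] at h2
    rw [h2, hv c']
  have hLHS : ⟪heat ρ0 c (heat ρ1 c v), v⟫_ℝ = ⟪E (S v), S v⟫_ℝ := by
    have h1 : heat ρ0 c (heat ρ1 c v) = (heat ρ0 c * heat ρ1 c) v := rfl
    rw [h1, hprod, hSS]
    have h2 : (E * (S * S)) v = S (E (S v)) := by
      have : E * (S * S) = S * (E * S) := by
        calc E * (S * S) = (E * S) * S := (mul_assoc _ _ _).symm
          _ = (S * E) * S := by rw [hES.eq]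
          _ = S * (E * S) := mul_assoc _ _ _
      rw [this]
      rfl
    rw [h2, hSsym]
  rw [hLHS]
  have hstep := step' hπ hw hY hc0 hc
  refine hstep.trans (le_of_eq ?_)
  -- rewrite the right-hand side
  have hneg : NormedSpace.exp ((40 * c ^ 2 / Real.sqrt (2 * m) / (2 * m)) • lap π) = heat π (-ε) := by
    unfold heat
    rw [hcardX]
    congr 2
    rw [hε]
    ring
  rw [hneg]
  have h3 : heat π (c - ε) = S * heat π (-ε) * S := by
    rw [hS, ← heat_add, ← heat_add]
    congr 1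
    ring
  rw [h3]
  have h4 : (S * heat π (-ε) * S) v = S (heat π (-ε) (S v)) := rfl
  rw [h4, hSsym]

end Vale.Agent.P162
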