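/-
P162: the cube, the subgroups H_k and the Thorp network.

Cube d = Fin d → Bool. Hk D k = permutations of the cube moving only the coordinate k.
Qk π k = average of π over Hk D k. netP π k = Q_0 Q_1 ... Q_{k-1}, net π = netP π D.

Recursion (net_succ): with fiberHom b : Perm (Cube d) →* Perm (Cube (d+1)) (acting on the fiber x_last = b),
  net π = net (π ∘ fiberHom false) * net (π ∘ fiberHom true) * Qk π d.
Conjugation: π(rot) Q_k π(rot)⁻¹ = Q_{k+1} and π(rot) Q_last π(rot)⁻¹ = Q_0, rot = the cyclic shift of coordinates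
(rot x) 0 = x last, (rot x) (j+1) = x j; so (π(rot) Q_d)^(d+1) = net π.
-/
import Vale.Agent.P162.Step

open scoped InnerProductSpace BigOperators
open Finset

namespace Vale.Agent.P162

/-- The cube -/
abbrev Cube (d : ℕ) := Fin d → Bool

/-- conjugation of permutations along an equivalence -/
def conjHom {X Y : Type*} (e : X ≃ Y) : Equiv.Perm X →* Equiv.Perm Y :=
  e.permCongrHom.toMonoidHom

@[simp] theorem conjHom_apply {X Y : Type*} (e : X ≃ Y) (g : Equiv.Perm X) (y : Y) :
    conjHom e g y = e (g (e.symm y)) := rfl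

theorem conjHom_injective {X Y : Type*} (e : X ≃ Y) : Function.Injective (conjHom e) :=
  e.permCongrHom.injective

/-- Splitting off the last coordinate. -/
def lastE (d : ℕ) : Cube (d + 1) ≃ Cube d × Bool where
  toFun x := (Fin.init x, x (Fin.last d))
  invFun p := Fin.snoc p.1 p.2
  left_inv x := by simp
  right_inv p := by simp

/-- The fiber embedding for the cube. -/
def fiberHom (d : ℕ) (b : Bool) : Equiv.Perm (Cube d) →* Equiv.Perm (Cube (d + 1)) :=
  (conjHom (lastE d).symm).comp (inFiber b)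

/-- Permutations of the cube moving only the coordinate `k`. -/
def Hk (D k : ℕ) : Subgroup (Equiv.Perm (Cube D)) where
  carrier := {g | ∀ x (i : Fin D), (i : ℕ) ≠ k → g x i = x i}
  mul_mem' := by
    intro a b ha hb x i hi
    have h1 := ha (b x) i hi
    have h2 := hb x i hi
    simp [h1, h2]
  one_mem' := by intro x i _; rfl
  inv_mem' := by
    intro a ha x i hi
    have h := ha (a⁻¹ x) i hi
    simpa using h.symm

theorem mem_Hk {D k : ℕ} {g : Equiv.Perm (Cube D)} :
    g ∈ Hk D k ↔ ∀ x (i : Fin D), (i : ℕ) ≠ k → g x i = x i := Iff.rfl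

variable {V : Type*} [NormedAddCommGroup V] [InnerProductSpace ℝ V]

/-- `Q_k` -/
noncomputable abbrev Qk {D : ℕ} (π : Equiv.Perm (Cube D) →* (V →L[ℝ] V)) (k : ℕ) : V →L[ℝ] V :=
  avgOn π (Hk D k)

/-- `Q_0 Q_1 ... Q_{k-1}` -/
noncomputable def netP {D : ℕ} (π : Equiv.Perm (Cube D) →* (V →L[ℝ] V)) : ℕ → (V →L[ℝ] V)
  | 0 => 1
  | k + 1 => netP π k * Qk π k

/-- The Thorp network on the cube: `Q_0 Q_1 ... Q_{D-1}`. -/
noncomputable def net {D : ℕ} (π : Equiv.Perm (Cube D) →* (V →L[ℝ] V)) : V →L[ℝ] V := netP π D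

/-- anything commuting with `π` commutes with the network -/
theorem netP_commute {D : ℕ} (π : Equiv.Perm (Cube D) →* (V →L[ℝ] V)) {A : V →L[ℝ] V}
    (h : ∀ g, Commute A (π g)) (k : ℕ) : Commute A (netP π k) := by
  induction k with
  | zero => exact Commute.one_right A
  | succ k ih =>
    exact ih.mul_right (avgOn_commute π (Hk D k) (fun g _ => h g))

theorem net_commute {D : ℕ} (π : Equiv.Perm (Cube D) →* (V →L[ℝ] V)) {A : V →L[ℝ] V}
    (h : ∀ g, Commute A (π g)) : Commute A (net π) :=
  netP_commute π h D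

/-- A vector fixed by `π` is fixed by the network. -/
theorem net_apply_of_fixed {D : ℕ} (π : Equiv.Perm (Cube D) →* (V →L[ℝ] V)) {v : V}
    (h : ∀ g, π g v = v) : net π v = v := by
  have key : ∀ k, netP π k v = v := by
    intro k
    induction k with
    | zero => rfl
    | succ k ih =>
      show (netP π k) (Qk π k v) = v
      rw [avgOn_apply_of_fixed π (Hk D k) (fun g _ => h g), ih]
  exact key D

/-- The network does not increase norms. -/
theorem net_norm_le {D : ℕ} {π : Equiv.Perm (Cube D) →* (V →L[ℝ] V)} (hπ : IsOrth π) (v : V) :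
    ‖net π v‖ ≤ ‖v‖ := by
  have key : ∀ k (v : V), ‖netP π k v‖ ≤ ‖v‖ := by
    intro k
    induction k with
    | zero => intro v; exact le_rfl
    | succ k ih =>
      intro v
      show ‖(netP π k) (Qk π k v)‖ ≤ ‖v‖
      exact (ih _).trans (avgOn_norm_le (Hk D k) hπ v)
  exact key D v

section fiber

variable {d : ℕ}

theorem fiberHom_snoc (b a : Bool) (g : Equiv.Perm (Cube d)) (y : Cube d) :
    fiberHom d b g (Fin.snoc y a : Cube (d + 1)) =
      if a = b then (Fin.snoc (g y) a : Cube (d + 1)) else (Fin.snoc y a : Cube (d + 1)) := by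
  have h : (lastE d) (Fin.snoc y a : Cube (d + 1)) = (y, a) := (lastE d).apply_symm_apply (y, a)
  simp only [fiberHom, MonoidHom.comp_apply, conjHom_apply, Equiv.symm_symm, h, inFiber_apply]
  by_cases hab : a = b
  · simp only [hab, if_true]
    rfl
  · simp only [hab, if_false]
    rfl

theorem cube_snoc_init (x : Cube (d + 1)) : (Fin.snoc (Fin.init x) (x (Fin.last d)) : Cube (d + 1)) = x :=
  Fin.snoc_init_self x

theorem snoc_init_of_last {z : Cube (d + 1)} {b : Bool} (h : z (Fin.last d) = b) :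
    (Fin.snoc (Fin.init z) b : Cube (d + 1)) = z := by
  subst h
  exact cube_snoc_init z

theorem fiberHom_snoc_same (b : Bool) (g : Equiv.Perm (Cube d)) (y : Cube d) :
    fiberHom d b g (Fin.snoc y b : Cube (d + 1)) = (Fin.snoc (g y) b : Cube (d + 1)) := by
  rw [fiberHom_snoc, if_pos rfl]

theorem fiberHom_snoc_ne {a b : Bool} (h : a ≠ b) (g : Equiv.Perm (Cube d)) (y : Cube d) :
    fiberHom d b g (Fin.snoc y a : Cube (d + 1)) = (Fin.snoc y a : Cube (d + 1)) := by
  rw [fiberHom_snoc, if_neg h]

theorem fiberHom_mem_Hk {k : ℕ} (b : Bool) {g : Equiv.Perm (Cube d)}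
    (hg : g ∈ Hk d k) : fiberHom d b g ∈ Hk (d + 1) k := by
  intro x i hi
  obtain ⟨y, a, rfl⟩ : ∃ y a, x = (Fin.snoc y a : Cube (d + 1)) := ⟨_, _, (cube_snoc_init x).symm⟩
  rw [fiberHom_snoc]
  split_ifs with hab
  · induction i using Fin.lastCases with
    | last => simp
    | cast j =>
      simp only [Fin.snoc_castSucc]
      exact hg y j (by simpa using hi)
  · rfl

/-- Elements of `Hk (d+1) k`, `k < d`, preserve the last coordinate. -/
theorem Hk_last {k : ℕ} (hk : k < d) {g : Equiv.Perm (Cube (d + 1))} (hg : g ∈ Hk (d + 1) k)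
    (x : Cube (d + 1)) : g x (Fin.last d) = x (Fin.last d) :=
  hg x (Fin.last d) (by simp; omega)

/-- Restriction of `g` to a fiber. -/
def resF (g : Equiv.Perm (Cube (d + 1))) (hl : ∀ x, g x (Fin.last d) = x (Fin.last d)) (b : Bool) :
    Equiv.Perm (Cube d) where
  toFun x := Fin.init (g (Fin.snoc x b))
  invFun x := Fin.init (g⁻¹ (Fin.snoc x b))
  left_inv x := by
    have h1 : (g (Fin.snoc x b : Cube (d + 1))) (Fin.last d) = b := by
      rw [hl]; simp
    have h2 : (Fin.snoc (Fin.init (g (Fin.snoc x b))) b : Cube (d + 1)) = g (Fin.snoc x b) :=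
      snoc_init_of_last h1
    simp only [h2]
    simp
  right_inv x := by
    have hl' : ∀ z : Cube (d + 1), g⁻¹ z (Fin.last d) = z (Fin.last d) := by
      intro z
      have := hl (g⁻¹ z)
      simpa using this.symm
    have h1 : (g⁻¹ (Fin.snoc x b : Cube (d + 1))) (Fin.last d) = b := by
      rw [hl']; simp
    have h2 : (Fin.snoc (Fin.init (g⁻¹ (Fin.snoc x b))) b : Cube (d + 1)) = g⁻¹ (Fin.snoc x b) :=
      snoc_init_of_last h1
    simp only [h2]
    simp

theorem resF_snoc (g : Equiv.Perm (Cube (d + 1))) (hl : ∀ x, g x (Fin.last d) = x (Fin.last d))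
    (b : Bool) (y : Cube d) :
    (Fin.snoc (resF g hl b y) b : Cube (d + 1)) = g (Fin.snoc y b) := by
  have h1 : (g (Fin.snoc y b : Cube (d + 1))) (Fin.last d) = b := by
    rw [hl]; simp
  exact snoc_init_of_last h1

theorem resF_mem {k : ℕ} (hk : k < d) {g : Equiv.Perm (Cube (d + 1))} (hg : g ∈ Hk (d + 1) k)
    (b : Bool) : resF g (Hk_last hk hg) b ∈ Hk d k := by
  intro x i hi
  show (Fin.init (g (Fin.snoc x b)) : Cube d) i = x i
  have := hg (Fin.snoc x b : Cube (d + 1)) i.castSucc (by simpa using hi)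
  simpa [Fin.init] using this

theorem snoc_inj_left {x y : Cube d} {a b : Bool}
    (h : (Fin.snoc x a : Cube (d + 1)) = (Fin.snoc y b : Cube (d + 1))) : x = y := by
  funext i
  have := congrFun h i.castSucc
  simpa using this

theorem fiberHom_factor {k : ℕ} (hk : k < d) {g : Equiv.Perm (Cube (d + 1))}
    (hg : g ∈ Hk (d + 1) k) :
    g = fiberHom d false (resF g (Hk_last hk hg) false) *
      fiberHom d true (resF g (Hk_last hk hg) true) := by
  ext1 x
  obtain ⟨y, a, rfl⟩ : ∃ y a, x = (Fin.snoc y a : Cube (d + 1)) := ⟨_, _, (cube_snoc_init x).symm⟩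
  rw [Equiv.Perm.mul_apply]
  cases a with
  | false =>
    rw [fiberHom_snoc_ne (by simp), fiberHom_snoc_same, resF_snoc]
  | true =>
    rw [fiberHom_snoc_same, fiberHom_snoc_ne (by simp), resF_snoc]

theorem fiberHom_factor_inj {g0 g1 g0' g1' : Equiv.Perm (Cube d)}
    (h : fiberHom d false g0 * fiberHom d true g1 = fiberHom d false g0' * fiberHom d true g1') :
    g0 = g0' ∧ g1 = g1' := by
  constructor
  · ext1 y
    have := congrArg (fun u : Equiv.Perm (Cube (d + 1)) => u (Fin.snoc y false : Cube (d + 1))) h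
    simp only [Equiv.Perm.mul_apply] at this
    rw [fiberHom_snoc_ne Bool.false_ne_true, fiberHom_snoc_ne Bool.false_ne_true,
      fiberHom_snoc_same, fiberHom_snoc_same] at this
    exact snoc_inj_left this
  · ext1 y
    have := congrArg (fun u : Equiv.Perm (Cube (d + 1)) => u (Fin.snoc y true : Cube (d + 1))) h
    simp only [Equiv.Perm.mul_apply] at this
    rw [fiberHom_snoc_same, fiberHom_snoc_same, fiberHom_snoc_ne (Ne.symm Bool.false_ne_true),
      fiberHom_snoc_ne (Ne.symm Bool.false_ne_true)] at this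
    exact snoc_inj_left this

/-- `mems (Hk (d+1) k)` is the image of the pairs. -/
theorem mems_Hk_eq {k : ℕ} (hk : k < d) :
    mems (Hk (d + 1) k) = (mems (Hk d k) ×ˢ mems (Hk d k)).image
      (fun p => fiberHom d false p.1 * fiberHom d true p.2) := by
  ext g
  simp only [mem_mems, Finset.mem_image, Finset.mem_product, Prod.exists]
  constructor
  · intro hg
    exact ⟨_, _, ⟨resF_mem hk hg false, resF_mem hk hg true⟩, (fiberHom_factor hk hg).symm⟩
  · rintro ⟨g0, g1, ⟨h0, h1⟩, rfl⟩
    exact (Hk (d + 1) k).mul_mem (fiberHom_mem_Hk false h0) (fiberHom_mem_Hk true h1)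

end fiber

/-- The factorisation of `Q_k`, `k < d`, over the two fibers. -/
theorem Qk_split {d : ℕ} (π : Equiv.Perm (Cube (d + 1)) →* (V →L[ℝ] V)) {k : ℕ} (hk : k < d) :
    Qk π k = Qk (π.comp (fiberHom d false)) k * Qk (π.comp (fiberHom d true)) k := by
  have hinj : Set.InjOn (fun p : Equiv.Perm (Cube d) × Equiv.Perm (Cube d) =>
      fiberHom d false p.1 * fiberHom d true p.2)
      ((mems (Hk d k) ×ˢ mems (Hk d k) : Finset _) : Set _) := by
    intro p _ q _ h
    obtain ⟨h1, h2⟩ := fiberHom_factor_inj h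
    exact Prod.ext h1 h2
  show avgOn π (Hk (d + 1) k) = avgOn _ (Hk d k) * avgOn _ (Hk d k)
  unfold avgOn
  rw [mems_Hk_eq hk, Finset.card_image_of_injOn hinj, Finset.sum_image hinj, Finset.card_product,
    smul_mul_smul_comm, Finset.sum_product, Finset.sum_mul_sum]
  congr 1
  · push_cast
    rw [mul_inv]
  · simp only [MonoidHom.comp_apply, map_mul]

section netsplit

variable {d : ℕ} (π : Equiv.Perm (Cube (d + 1)) →* (V →L[ℝ] V))

theorem fiber_commute (g g' : Equiv.Perm (Cube d)) :
    Commute (π.comp (fiberHom d false) g) (π.comp (fiberHom d true) g') := by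
  have h := inFiber_commute (Y := Cube d) g g'
  have h2 : Commute (fiberHom d false g) (fiberHom d true g') := by
    simp only [fiberHom, MonoidHom.comp_apply]
    exact h.map (conjHom (lastE d).symm)
  exact h2.map π

theorem netP_commute_fiber (g : Equiv.Perm (Cube d)) (j : ℕ) :
    Commute (π.comp (fiberHom d false) g) (netP (π.comp (fiberHom d true)) j) :=
  netP_commute _ (fun g' => fiber_commute π g g') j

theorem Qk_commute_netP_fiber (k j : ℕ) :
    Commute (netP (π.comp (fiberHom d true)) j) (Qk (π.comp (fiberHom d false)) k) :=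
  avgOn_commute _ _ (fun g _ => (netP_commute_fiber π g j).symm)

theorem netP_split {k : ℕ} (hk : k ≤ d) :
    netP π k = netP (π.comp (fiberHom d false)) k * netP (π.comp (fiberHom d true)) k := by
  induction k with
  | zero => simp [netP]
  | succ k ih =>
    have hk' : k < d := hk
    simp only [netP]
    rw [ih hk'.le, Qk_split π hk']
    have hc := Qk_commute_netP_fiber π k k
    calc _ = netP (π.comp (fiberHom d false)) k *
          (netP (π.comp (fiberHom d true)) k * Qk (π.comp (fiberHom d false)) k) *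
          Qk (π.comp (fiberHom d true)) k := by noncomm_ring
      _ = _ := by rw [hc.eq]; noncomm_ring

end netsplit

/-- Recursion for the network. -/
theorem net_succ {d : ℕ} (π : Equiv.Perm (Cube (d + 1)) →* (V →L[ℝ] V)) :
    net π = net (π.comp (fiberHom d false)) * net (π.comp (fiberHom d true)) * Qk π d := by
  show netP π d * Qk π d = netP _ d * netP _ d * Qk π d
  rw [netP_split π le_rfl]

/-- Flips belong to the top subgroup. -/
theorem flipHom_apply {d : ℕ} (c : Cube d → Bool) (y : Cube d) (a : Bool) :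
    conjHom (lastE d).symm (flipOf c) (Fin.snoc y a : Cube (d + 1)) =
      (Fin.snoc y (xor a (c y)) : Cube (d + 1)) := by
  have h : (lastE d) (Fin.snoc y a : Cube (d + 1)) = (y, a) := (lastE d).apply_symm_apply (y, a)
  simp only [conjHom_apply, Equiv.symm_symm, h, flipOf_apply]
  rfl

theorem flip_mem_Hk {d : ℕ} (c : Cube d → Bool) :
    conjHom (lastE d).symm (flipOf c) ∈ Hk (d + 1) d := by
  intro x i hi
  obtain ⟨y, a, rfl⟩ : ∃ y a, x = (Fin.snoc y a : Cube (d + 1)) := ⟨_, _, (cube_snoc_init x).symm⟩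
  rw [flipHom_apply]
  induction i using Fin.lastCases with
  | last => simp at hi
  | cast j => simp

/-- The flips are exactly the top subgroup. -/
theorem Hk_top_eq_flip {d : ℕ} {g : Equiv.Perm (Cube (d + 1))} (hg : g ∈ Hk (d + 1) d) :
    ∃ c : Cube d → Bool, g = conjHom (lastE d).symm (flipOf c) := by
  have hinit : ∀ y a, (Fin.init (g (Fin.snoc y a : Cube (d + 1))) : Cube d) = y := by
    intro y a
    funext j
    have := hg (Fin.snoc y a : Cube (d + 1)) j.castSucc (by simp; omega)
    simpa [Fin.init] using this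
  have hform : ∀ y a, g (Fin.snoc y a : Cube (d + 1)) =
      (Fin.snoc y (g (Fin.snoc y a : Cube (d + 1)) (Fin.last d)) : Cube (d + 1)) := by
    intro y a
    conv_lhs => rw [← cube_snoc_init (g (Fin.snoc y a : Cube (d + 1))), hinit]
  refine ⟨fun y => g (Fin.snoc y false : Cube (d + 1)) (Fin.last d), ?_⟩
  ext1 x
  obtain ⟨y, a, rfl⟩ : ∃ y a, x = (Fin.snoc y a : Cube (d + 1)) := ⟨_, _, (cube_snoc_init x).symm⟩
  rw [flipHom_apply]
  cases a with
  | false =>
    rw [hform y false]
    simp
  | true =>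
    rw [hform y true]
    have hne : g (Fin.snoc y true : Cube (d + 1)) (Fin.last d) ≠
        g (Fin.snoc y false : Cube (d + 1)) (Fin.last d) := by
      intro h
      have h2 : g (Fin.snoc y true : Cube (d + 1)) = g (Fin.snoc y false : Cube (d + 1)) := by
        rw [hform y true, hform y false, h]
      have h3 := g.injective h2
      have h4 := congrFun h3 (Fin.last d)
      simp at h4
    have : g (Fin.snoc y true : Cube (d + 1)) (Fin.last d) =
        xor true (g (Fin.snoc y false : Cube (d + 1)) (Fin.last d)) := by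
      revert hne
      cases g (Fin.snoc y true : Cube (d + 1)) (Fin.last d) <;>
        cases g (Fin.snoc y false : Cube (d + 1)) (Fin.last d) <;> simp
    simp [this]

theorem flip_injective {d : ℕ} :
    Function.Injective (fun c : Cube d → Bool => conjHom (lastE d).symm (flipOf c)) := by
  intro c c' h
  funext y
  have h1 := congrArg (fun u : Equiv.Perm (Cube (d + 1)) => u (Fin.snoc y false : Cube (d + 1))) h
  simp only [flipHom_apply] at h1
  have h2 := congrFun h1 (Fin.last d)
  simpa using h2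

/-- The cyclic shift of coordinates -/
def rot (D : ℕ) : Equiv.Perm (Cube D) :=
  (finRotate D).arrowCongr (Equiv.refl Bool)

theorem rot_apply (D : ℕ) (x : Cube D) (i : Fin D) : rot D x i = x ((finRotate D).symm i) := rfl

theorem rot_inv_apply (D : ℕ) (x : Cube D) (i : Fin D) : (rot D)⁻¹ x i = x (finRotate D i) := rfl

theorem finRotate_val (D : ℕ) (j : Fin (D + 1)) :
    ((finRotate (D + 1) j : Fin (D + 1)) : ℕ) = if (j : ℕ) = D then 0 else (j : ℕ) + 1 := by
  by_cases h : (j : ℕ) = D
  · have : j = Fin.last D := Fin.ext h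
    subst this
    simp
  · have : j ≠ Fin.last D := by
      intro h'
      apply h
      simp [h']
    rw [if_neg h, coe_finRotate_of_ne_last this]

/-- The next coordinate. -/
def nextC (D k : ℕ) : ℕ := if k = D then 0 else k + 1

theorem finRotate_ne_iff {D k : ℕ} (hk : k ≤ D) (j : Fin (D + 1)) :
    ((finRotate (D + 1) j : Fin (D + 1)) : ℕ) = nextC D k ↔ (j : ℕ) = k := by
  rw [finRotate_val]
  unfold nextC
  have hj := j.isLt
  by_cases h1 : (j : ℕ) = D <;> by_cases h2 : k = D
  · rw [if_pos h1, if_pos h2]; omega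
  · rw [if_pos h1, if_neg h2]; omega
  · rw [if_neg h1, if_pos h2]; omega
  · rw [if_neg h1, if_neg h2]; omega

theorem rot_conj_mem {D k : ℕ} (hk : k ≤ D) (g : Equiv.Perm (Cube (D + 1))) :
    g ∈ Hk (D + 1) k ↔ rot (D + 1) * g * (rot (D + 1))⁻¹ ∈ Hk (D + 1) (nextC D k) := by
  constructor
  · intro hg x i hi
    have hj : (((finRotate (D + 1)).symm i : Fin (D + 1)) : ℕ) ≠ k := by
      intro h
      apply hi
      have := (finRotate_ne_iff hk ((finRotate (D + 1)).symm i)).mpr h
      simpa using this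
    show rot (D + 1) (g ((rot (D + 1))⁻¹ x)) i = x i
    rw [rot_apply, hg _ _ hj, rot_inv_apply]
    simp
  · intro hg y j hj
    have hi : ((finRotate (D + 1) j : Fin (D + 1)) : ℕ) ≠ nextC D k := by
      intro h
      exact hj ((finRotate_ne_iff hk j).mp h)
    have h := hg (rot (D + 1) y) _ hi
    have e : (rot (D + 1) * g * (rot (D + 1))⁻¹) (rot (D + 1) y) = rot (D + 1) (g y) := by
      simp [Equiv.Perm.mul_apply]
    rw [e, rot_apply, rot_apply] at h
    simpa using h

/-- General conjugation of averages. -/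
theorem avgOn_conj {X : Type*} [Fintype X] [DecidableEq X]
    (π : Equiv.Perm X →* (V →L[ℝ] V)) (h : Equiv.Perm X) {H H' : Subgroup (Equiv.Perm X)}
    (hH : ∀ g, g ∈ H ↔ h * g * h⁻¹ ∈ H') : π h * avgOn π H = avgOn π H' * π h := by
  have hinj : Function.Injective (fun g : Equiv.Perm X => h * g * h⁻¹) := by
    intro a b hab
    simpa using hab
  have hm : mems H' = (mems H).image (fun g : Equiv.Perm X => h * g * h⁻¹) := by
    ext g
    simp only [mem_mems, Finset.mem_image]
    constructor
    · intro hg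
      refine ⟨h⁻¹ * g * h, ?_, by group⟩
      rw [hH]
      have : h * (h⁻¹ * g * h) * h⁻¹ = g := by group
      rwa [this]
    · rintro ⟨a, ha, rfl⟩
      exact (hH a).mp ha
  unfold avgOn
  rw [hm, Finset.card_image_of_injective _ hinj, Finset.sum_image (fun a _ b _ hab => hinj hab),
    mul_smul_comm, smul_mul_assoc, Finset.mul_sum, Finset.sum_mul]
  congr 1
  refine Finset.sum_congr rfl fun g _ => ?_
  rw [← map_mul, ← map_mul]
  congr 1
  group

/-- `rot` conjugates `Q_k` to `Q_{k+1}`. -/
theorem rot_Qk {D : ℕ} (π : Equiv.Perm (Cube (D + 1)) →* (V →L[ℝ] V)) {k : ℕ} (hk : k < D) :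
    π (rot (D + 1)) * Qk π k = Qk π (k + 1) * π (rot (D + 1)) := by
  have h : nextC D k = k + 1 := by
    unfold nextC
    rw [if_neg (by omega)]
  have := avgOn_conj π (rot (D + 1)) (H := Hk (D + 1) k) (H' := Hk (D + 1) (k + 1))
    (fun g => by rw [← h]; exact rot_conj_mem hk.le g)
  exact this

theorem rot_Qk_top {D : ℕ} (π : Equiv.Perm (Cube (D + 1)) →* (V →L[ℝ] V)) :
    π (rot (D + 1)) * Qk π D = Qk π 0 * π (rot (D + 1)) := by
  have h : nextC D D = 0 := by
    unfold nextC
    rw [if_pos rfl]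
  have := avgOn_conj π (rot (D + 1)) (H := Hk (D + 1) D) (H' := Hk (D + 1) 0)
    (fun g => by rw [← h]; exact rot_conj_mem le_rfl g)
  exact this

theorem finRotate_pow_apply (D n : ℕ) (i : Fin (D + 1)) :
    ((finRotate (D + 1)) ^ n) i = i + n • (1 : Fin (D + 1)) := by
  induction n with
  | zero => simp
  | succ n ih =>
    rw [pow_succ', Equiv.Perm.mul_apply, ih, finRotate_apply, succ_nsmul, add_assoc]

theorem finRotate_pow_self (D : ℕ) : (finRotate (D + 1)) ^ (D + 1) = 1 := by
  ext1 i
  rw [finRotate_pow_apply]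
  have := card_nsmul_eq_zero (G := Fin (D + 1)) (x := 1)
  simp only [Fintype.card_fin] at this
  simp [this]

theorem rot_pow_apply (D n : ℕ) (x : Cube (D + 1)) (i : Fin (D + 1)) :
    (rot (D + 1) ^ n) x i = x (((finRotate (D + 1)) ^ n)⁻¹ i) := by
  induction n generalizing x i with
  | zero => simp
  | succ n ih =>
    rw [pow_succ', Equiv.Perm.mul_apply, rot_apply, ih]
    rw [pow_succ', mul_inv_rev]
    rfl

theorem rot_pow (D : ℕ) : rot D ^ D = 1 := by
  cases D with
  | zero => rfl
  | succ D =>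
    ext x i
    rw [rot_pow_apply, finRotate_pow_self]
    simp

/-- `D` Thorp steps are the network. -/
theorem rot_pow_Q0 {D : ℕ} (π : Equiv.Perm (Cube (D + 1)) →* (V →L[ℝ] V)) {i : ℕ} (hi : i ≤ D) :
    π (rot (D + 1)) ^ i * Qk π 0 = Qk π i * π (rot (D + 1)) ^ i := by
  induction i with
  | zero => simp
  | succ i ih =>
    have hi' : i < D := hi
    rw [pow_succ', mul_assoc, ih hi'.le, ← mul_assoc, rot_Qk π hi', mul_assoc]

theorem thorp_pow_aux {D : ℕ} (π : Equiv.Perm (Cube (D + 1)) →* (V →L[ℝ] V)) {j : ℕ} (hj : j ≤ D) :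
    (π (rot (D + 1)) * Qk π D) ^ (j + 1) = netP π (j + 1) * π (rot (D + 1)) ^ (j + 1) := by
  induction j with
  | zero =>
    simp only [zero_add, pow_one, netP, one_mul]
    exact rot_Qk_top π
  | succ j ih =>
    have hj' : j < D := hj
    rw [pow_succ, ih hj'.le, rot_Qk_top π]
    have h := rot_pow_Q0 π (i := j + 1) hj
    calc netP π (j + 1) * π (rot (D + 1)) ^ (j + 1) * (Qk π 0 * π (rot (D + 1)))
        = netP π (j + 1) * (π (rot (D + 1)) ^ (j + 1) * Qk π 0) * π (rot (D + 1)) := by
          noncomm_ring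
      _ = netP π (j + 1) * (Qk π (j + 1) * π (rot (D + 1)) ^ (j + 1)) * π (rot (D + 1)) := by
          rw [h]
      _ = netP π (j + 1 + 1) * π (rot (D + 1)) ^ (j + 1 + 1) := by
          simp only [netP]
          rw [pow_succ]
          noncomm_ring

theorem thorp_pow_eq_net {D : ℕ} (π : Equiv.Perm (Cube (D + 1)) →* (V →L[ℝ] V)) :
    (π (rot (D + 1)) * Qk π D) ^ (D + 1) = net π := by
  rw [thorp_pow_aux π le_rfl, ← map_pow, rot_pow, map_one, mul_one]
  rfl

end Vale.Agent.P162
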