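/-
P162: the objects of the problem: the Thorp shuffle on a deck of 2m cards, its law, convolution powers,
total variation distance from uniform, and the mixing time.
-/
import Mathlib

open Finset

namespace Vale.Agent.P162

/-- One Thorp shuffle of a deck of `2m` cards with coins `c`: positions `0, …, 2m-1`. For `i < m`, the cards
at positions `i` and `m + i` go to positions `2i` and `2i+1`: if `c i` is false, `i ↦ 2i` and `m+i ↦ 2i+1`;
if `c i` is true, `i ↦ 2i+1` and `m+i ↦ 2i`. -/
def thorpPos (m : ℕ) (c : Fin m → Bool) (p : Fin (2 * m)) : ℕ :=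
  if h : p.val < m then
    2 * p.val + (if c ⟨p.val, h⟩ then 1 else 0)
  else
    2 * (p.val - m) + (if c ⟨p.val - m, by omega⟩ then 0 else 1)

/-- The law `q_n` of one Thorp shuffle, `n = 2m`, on the symmetric group: the fraction of the `2^m` coin
vectors whose shuffle is `g`. -/
noncomputable def thorpLaw (m : ℕ) (g : Equiv.Perm (Fin (2 * m))) : ℝ :=
  ((univ.filter (fun c : Fin m → Bool => ∀ p, ((g p : Fin (2 * m)) : ℕ) = thorpPos m c p)).card : ℝ) / 2 ^ m

/-- Convolution on a finite group. -/
noncomputable def conv {G : Type*} [Group G] [Fintype G] (μ ν : G → ℝ) (g : G) : ℝ :=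
  ∑ h : G, μ h * ν (h⁻¹ * g)

/-- Convolution powers. -/
noncomputable def convPow {G : Type*} [Group G] [Fintype G] [DecidableEq G] (μ : G → ℝ) : ℕ → (G → ℝ)
  | 0 => fun g => if g = 1 then 1 else 0
  | t + 1 => conv μ (convPow μ t)

/-- Total variation distance from the uniform law. -/
noncomputable def tvUnif {G : Type*} [Fintype G] (μ : G → ℝ) : ℝ :=
  (1 / 2 : ℝ) * ∑ g : G, |μ g - 1 / (Fintype.card G : ℝ)|

/-- The mixing time of the Thorp shuffle for `n = 2m` cards. -/
noncomputable def tmix (m : ℕ) : ℕ :=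
  sInf {t : ℕ | tvUnif (convPow (thorpLaw m) t) ≤ 1 / 4}

end Vale.Agent.P162
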