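/-
P162: the main induction: ‖net π f‖² ≤ ⟪heat π (cseq d) f, f⟫ for every orthogonal representation π of Perm (Cube d).

Step: g = Q_d f is invariant under flips. With ρ_b = π ∘ fiberHom b, T^b = heat ρ_b (cseq d), S⁰ = heat ρ_0 (cseq d / 2):
 ‖net ρ_0 (net ρ_1 g)‖² ≤ ⟪T⁰ net ρ_1 g, net ρ_1 g⟫ = ‖S⁰ net ρ_1 g‖² = ‖net ρ_1 (S⁰ g)‖² ≤ ⟪T¹ S⁰ g, S⁰ g⟫ = ⟪T⁰ T¹ g, g⟫.
Then `step` (transported to the cube), heat_antitone and
 ⟪T(c') Q f, Q f⟫ = ‖S Q f‖² = ‖Q S f‖² ≤ ‖S f‖² = ⟪T(c') f, f⟫.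
-/
import Vale.Agent.P162.Cube

open scoped InnerProductSpace BigOperators
open Finset

namespace Vale.Agent.P162

variable {V : Type*} [NormedAddCommGroup V] [InnerProductSpace ℝ V]
variable [FiniteDimensional ℝ V] [CompleteSpace V]

/-- The time constants. -/
noncomputable def cseq (d : ℕ) : ℝ := (1 / 800) * (1 + (4 / 5 : ℝ) ^ d)

theorem cseq_ge (d : ℕ) : 1 / 800 ≤ cseq d := by
  unfold cseq
  have : (0 : ℝ) ≤ (4 / 5 : ℝ) ^ d := by positivity
  linarith

theorem cseq_pos (d : ℕ) : 0 < cseq d := lt_of_lt_of_le (by norm_num) (cseq_ge d)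

theorem cseq_le2 (d : ℕ) : cseq d ≤ 1 / 400 := by
  unfold cseq
  have : (4 / 5 : ℝ) ^ d ≤ 1 := pow_le_one₀ (by norm_num) (by norm_num)
  linarith

theorem cseq_le (d : ℕ) : cseq d ≤ 1 / 16 := (cseq_le2 d).trans (by norm_num)

/-- The constants work. -/
theorem cseq_succ (d : ℕ) :
    cseq (d + 1) ≤ cseq d - 40 * cseq d ^ 2 / Real.sqrt (2 * 2 ^ d) := by
  set x : ℝ := (4 / 5 : ℝ) ^ d with hx
  have hx0 : 0 < x := by positivity
  -- `x * sqrt (2 * 2 ^ d) ≥ 1`
  set R : ℝ := Real.sqrt (2 * 2 ^ d) with hR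
  have hR0 : 0 < R := Real.sqrt_pos.mpr (by positivity)
  have hR2 : R ^ 2 = 2 * 2 ^ d := Real.sq_sqrt (by positivity)
  have hxR : 1 ≤ x * R := by
    have h1 : (1 : ℝ) ≤ (x * R) ^ 2 := by
      rw [mul_pow, hR2, hx, ← pow_mul, mul_comm d 2, pow_mul]
      have h2 : (1 : ℝ) ≤ ((4 / 5 : ℝ) ^ 2 * 2) ^ d := one_le_pow₀ (by norm_num)
      calc (1 : ℝ) ≤ ((4 / 5 : ℝ) ^ 2 * 2) ^ d := h2
        _ = ((4 / 5 : ℝ) ^ 2) ^ d * 2 ^ d := mul_pow _ _ _
        _ ≤ ((4 / 5 : ℝ) ^ 2) ^ d * (2 * 2 ^ d) := by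
          apply mul_le_mul_of_nonneg_left _ (by positivity)
          have : (0 : ℝ) < 2 ^ d := by positivity
          linarith
    have h3 : 0 ≤ x * R := by positivity
    nlinarith
  have h1 : cseq d - cseq (d + 1) = (1 / 4000) * x := by
    unfold cseq
    rw [pow_succ, ← hx]
    ring
  have h2 : 40 * cseq d ^ 2 / R ≤ (1 / 4000) * x := by
    rw [div_le_iff₀ hR0]
    have h3 : cseq d ^ 2 ≤ (1 / 400) ^ 2 :=
      pow_le_pow_left₀ (cseq_pos d).le (cseq_le2 d) 2
    nlinarith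
  linarith

/-- heat is unchanged under relabeling -/
theorem heat_conj {X Y : Type*} [Fintype X] [DecidableEq X] [Fintype Y] [DecidableEq Y] (e : X ≃ Y)
    (π : Equiv.Perm Y →* (V →L[ℝ] V)) (c : ℝ) :
    heat (π.comp (conjHom e)) c = heat π c := by
  have hcard : Fintype.card X = Fintype.card Y := Fintype.card_congr e
  have hlap : lap (π.comp (conjHom e)) = lap π := by
    unfold lap lapOn
    congr 1
    have h1 : ∀ x x' : X, conjHom e (Equiv.swap x x') = Equiv.swap (e x) (e x') := by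
      intro x x'
      ext y
      simp only [conjHom_apply]
      by_cases h1 : e.symm y = x
      · have : y = e x := by rw [← h1]; simp
        subst this
        simp
      · by_cases h2 : e.symm y = x'
        · have : y = e x' := by rw [← h2]; simp
          subst this
          simp
        · rw [Equiv.swap_apply_of_ne_of_ne h1 h2, Equiv.swap_apply_of_ne_of_ne]
          · simp
          · rintro rfl
            simp at h1
          · rintro rfl
            simp at h2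
    simp only [MonoidHom.comp_apply, h1]
    rw [← e.sum_comp (fun y => ∑ y' : Y, (1 - π (Equiv.swap y y')))]
    refine Finset.sum_congr rfl fun x _ => ?_
    rw [← e.sum_comp (fun y' => (1 - π (Equiv.swap (e x) y')))]
  unfold heat
  rw [hlap, hcard]

/-- Base of the induction: one point, network = identity, Laplacian = 0. -/
theorem net_domination_zero (π : Equiv.Perm (Cube 0) →* (V →L[ℝ] V)) (hπ : IsOrth π) (f : V) :
    ‖net π f‖ ^ 2 ≤ ⟪heat π (cseq 0) f, f⟫_ℝ := by
  have hnet : net π = 1 := rfl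
  have hlap : lap π = 0 := by
    unfold lap lapOn
    have h : ∀ x y : Cube 0, Equiv.swap x y = 1 := by
      intro x y
      rw [Subsingleton.elim x y, Equiv.swap_self]
      rfl
    simp [h]
  have hheat : heat π (cseq 0) = 1 := by
    unfold heat
    rw [hlap]
    simp
  rw [hnet, hheat]
  simp [real_inner_self_eq_norm_sq]

/-- The inductive step. -/
theorem net_domination_step (d : ℕ)
    (ih : ∀ ρ : Equiv.Perm (Cube d) →* (V →L[ℝ] V), IsOrth ρ → ∀ g,
      ‖net ρ g‖ ^ 2 ≤ ⟪heat ρ (cseq d) g, g⟫_ℝ)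
    (π : Equiv.Perm (Cube (d + 1)) →* (V →L[ℝ] V)) (hπ : IsOrth π) (f : V) :
    ‖net π f‖ ^ 2 ≤ ⟪heat π (cseq (d + 1)) f, f⟫_ℝ := by
  set c := cseq d with hc
  set ρ0 := π.comp (fiberHom d false) with hρ0
  set ρ1 := π.comp (fiberHom d true) with hρ1
  have hρ0o : IsOrth ρ0 := hπ.comp _
  have hρ1o : IsOrth ρ1 := hπ.comp _
  set g := Qk π d f with hg
  -- ρ0 commutes with ρ1
  have hc01 : ∀ a b, Commute (ρ0 a) (ρ1 b) := by
    intro a b
    show π (fiberHom d false a) * π (fiberHom d true b) = π (fiberHom d true b) * π (fiberHom d false a)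
    rw [← map_mul, ← map_mul]
    congr 1
    exact ((inFiber_commute a b).map (conjHom (lastE d).symm)).eq
  -- heat of ρ0 commutes with ρ1 and with net ρ1
  have hh : ∀ s b, Commute (heat ρ0 s) (ρ1 b) := by
    intro s b
    exact (heat_commute ρ0 (lap_commute_of ρ0 (fun a => (hc01 a b).symm)) s).symm
  have hhn : ∀ s, Commute (heat ρ0 s) (net ρ1) := fun s => net_commute ρ1 (hh s)
  -- the tensor step
  set S0 := heat ρ0 (c / 2) with hS0
  have hten : ‖net ρ0 (net ρ1 g)‖ ^ 2 ≤ ⟪heat ρ0 c (heat ρ1 c g), g⟫_ℝ := by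
    refine (ih ρ0 hρ0o _).trans ?_
    rw [inner_heat_half hρ0o c, ← hS0, real_inner_self_eq_norm_sq]
    have h1 : S0 (net ρ1 g) = net ρ1 (S0 g) := by
      have := congrArg (fun A : (V →L[ℝ] V) => A g) (hhn (c / 2)).eq
      exact this
    rw [h1]
    refine (ih ρ1 hρ1o _).trans (le_of_eq ?_)
    -- ⟪T¹ S⁰ g, S⁰ g⟫ = ⟪T⁰ T¹ g, g⟫
    have hsym := heat_symm hρ0o (c / 2)
    rw [← hS0] at hsym
    have hT : Commute S0 (heat ρ1 c) := by
      exact heat_commute ρ1 (lap_commute_of ρ1 (fun b => hh (c / 2) b)) c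
    have h2 : heat ρ1 c (S0 g) = S0 (heat ρ1 c g) := by
      have := congrArg (fun A : (V →L[ℝ] V) => A g) hT.eq
      exact this.symm
    rw [h2, hsym]
    have h3 : heat ρ0 c = S0 * S0 := by
      rw [hS0, ← heat_add]
      congr 1
      ring
    rw [h3]
    show _ = ⟪S0 (S0 (heat ρ1 c g)), g⟫_ℝ
    rw [hsym (S0 (heat ρ1 c g)) g, hsym (heat ρ1 c g) (S0 g)]
  -- transport to the product
  set π' := π.comp (conjHom (lastE d).symm) with hπ'
  have hπ'o : IsOrth π' := hπ.comp _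
  have hY : 0 < Fintype.card (Cube d) := Fintype.card_pos
  have hcardY : (Fintype.card (Cube d) : ℝ) = 2 ^ d := by
    simp [Cube]
  have hHg : HInv π' g := by
    intro c'
    exact avgOn_map_apply π (Hk (d + 1) d) (flip_mem_Hk c') f
  have hstep := step hπ'o hHg hY (cseq_pos d) (cseq_le d)
  rw [hcardY, ← hc] at hstep
  have hh1 : π'.comp (inFiber false) = ρ0 := rfl
  have hh2 : π'.comp (inFiber true) = ρ1 := rfl
  rw [hh1, hh2, hπ', heat_conj] at hstep
  have hnet : net π f = net ρ0 (net ρ1 g) := by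
    rw [net_succ π]
    rfl
  rw [hnet]
  refine hten.trans (hstep.trans ?_)
  refine (heat_antitone hπ (cseq_succ d) g).trans ?_
  -- ⟪T Q f, Q f⟫ ≤ ⟪T f, f⟫
  set c' := cseq (d + 1) with hc'
  rw [inner_heat_half hπ c']
  set S := heat π (c' / 2) with hS
  rw [inner_heat_half hπ c' f f, ← hS, real_inner_self_eq_norm_sq, real_inner_self_eq_norm_sq]
  have h1 : S g = Qk π d (S f) := by
    have hcomm : Commute S (Qk π d) := by
      apply avgOn_commute
      intro h _
      exact (heat_commute_map π h (c' / 2)).symm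
    have := congrArg (fun A : (V →L[ℝ] V) => A f) hcomm.eq
    exact this
  rw [h1]
  have h2 := avgOn_norm_le (Hk (d + 1) d) hπ (S f)
  exact pow_le_pow_left₀ (norm_nonneg _) h2 2

/-- Main domination theorem. -/
theorem net_domination (d : ℕ) (π : Equiv.Perm (Cube d) →* (V →L[ℝ] V)) (hπ : IsOrth π) (f : V) :
    ‖net π f‖ ^ 2 ≤ ⟪heat π (cseq d) f, f⟫_ℝ := by
  induction d generalizing f with
  | zero => exact net_domination_zero π hπ f
  | succ d ih => exact net_domination_step d (fun ρ hρ g => ih ρ hρ g) π hπ f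

/-- Final form with an absolute constant. -/
theorem net_domination' (d : ℕ) (π : Equiv.Perm (Cube d) →* (V →L[ℝ] V)) (hπ : IsOrth π) (f : V) :
    ‖net π f‖ ^ 2 ≤ ⟪heat π (1 / 800) f, f⟫_ℝ :=
  (net_domination d π hπ f).trans (heat_antitone hπ (cseq_ge d) f)

/-- Iterating. -/
theorem pow_domination {X : Type*} [Fintype X] [DecidableEq X]
    {π : Equiv.Perm X →* (V →L[ℝ] V)} (hπ : IsOrth π) {B : V →L[ℝ] V} {c : ℝ}
    (hcomm : ∀ s, Commute B (heat π s))
    (hB : ∀ f, ‖B f‖ ^ 2 ≤ ⟪heat π c f, f⟫_ℝ) (r : ℕ) (f : V) :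
    ‖(B ^ r) f‖ ^ 2 ≤ ⟪heat π (r * c) f, f⟫_ℝ := by
  induction r generalizing f with
  | zero =>
    simp [heat_zero, real_inner_self_eq_norm_sq]
  | succ r ih =>
    set S := heat π (c / 2) with hS
    have h1 : (B ^ (r + 1)) f = B ((B ^ r) f) := by
      rw [pow_succ']
      rfl
    rw [h1]
    refine (hB _).trans ?_
    rw [inner_heat_half hπ c]
    have h2 : S ((B ^ r) f) = (B ^ r) (S f) := by
      have : Commute (B ^ r) S := (hcomm (c / 2)).pow_left r
      have h3 := congrArg (fun A : (V →L[ℝ] V) => A f) this.eq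
      exact h3.symm
    rw [← hS, h2, real_inner_self_eq_norm_sq]
    refine (ih (S f)).trans (le_of_eq ?_)
    have hsym := heat_symm hπ (c / 2)
    rw [← hS] at hsym
    have h4 : heat π (((r + 1 : ℕ) : ℝ) * c) = S * heat π (r * c) * S := by
      rw [hS, ← heat_add, ← heat_add]
      congr 1
      push_cast
      ring
    rw [h4]
    have h5 : (S * heat π (r * c) * S) f = S (heat π (r * c) (S f)) := rfl
    rw [h5, hsym]

end Vale.Agent.P162
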