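/-
P162: the regular representation and the L² bound.

regRep h f = f ∘ (h⁻¹ * ·) on ℓ²(Perm X).
heat_trace: (n!) ⟪heat s δ₁, δ₁⟫ = ∑_i exp(-(s/n) a_i) for any eigendata (b,a) of lap regRep  (right translations commute with heat, so
  ⟪heat s δ_g, δ_g⟫ does not depend on g; Parseval; or LinearMap.trace_eq_sum_inner).
rank_fixAvg: rank P_F ≤ n^{|F|}: a function in the range of P_F is left-G_F-invariant, hence a function of g ↦ g⁻¹|_F.
count_eigen: #{i : a_i < (3n/8) j} ≤ n^{2(j-1)} for 1 ≤ j ≤ n/2, from lap_lower and card_eigen_lt_add_finrank_le: the subspace lowFix univ j is the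
  intersection of the kernels of P_R, |R| ≤ j - 1 (enough: |R| = j-1; or bound the sum over all R with |R|<j... see below).
  codim ≤ ∑_{|R| = j-1} rank P_R ≤ C(n,j-1) n^{j-1} ≤ n^{2(j-1)}. Use P_{R'} P_R = P_{R'} for R' ⊆ R to reduce |R|<j to |R| = j-1.
trace_bound: pointwise e^{-τδ} ≤ [δ<x_1] + ∑_{j=1}^{J-1} [δ<x_{j+1}] θ^j + θ^J (x_j = (3n/8) j, θ = e^{-τ x_1}, τ = s/n, J = n/2);
  sum over i: ∑_i e^{-τ a_i} ≤ 1 + ∑_{j=1}^{J} (n² θ)^j ≤ 1 + 1/7 if n² θ ≤ 1/8. (|G| = n! ≤ n^{2J}).
tv_bound: TV ≤ (1/2) sqrt(|G| ‖B^r δ₁ - u‖²) ≤ (1/2) sqrt(1/7) ≤ 1/4.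
-/
import Vale.Agent.P162.Induction
import Vale.Agent.P162.Defs

open scoped InnerProductSpace BigOperators
open Finset

namespace Vale.Agent.P162

variable {X : Type*} [Fintype X] [DecidableEq X]

/-- ℓ² of the symmetric group -/
abbrev RegV (X : Type*) [Fintype X] [DecidableEq X] := EuclideanSpace ℝ (Equiv.Perm X)

theorem piLpCongrLeft_mulLeft_apply (h : Equiv.Perm X) (f : RegV X) (g : Equiv.Perm X) :
    (LinearIsometryEquiv.piLpCongrLeft 2 ℝ ℝ (Equiv.mulLeft h) f : RegV X) g = f (h⁻¹ * g) := by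
  simp [LinearIsometryEquiv.piLpCongrLeft_apply, Equiv.piCongrLeft']

/-- The left regular representation. -/
noncomputable def regRep (X : Type*) [Fintype X] [DecidableEq X] :
    Equiv.Perm X →* (RegV X →L[ℝ] RegV X) where
  toFun h := ((LinearIsometryEquiv.piLpCongrLeft 2 ℝ ℝ (Equiv.mulLeft h) :
    RegV X ≃ₗᵢ[ℝ] RegV X) : RegV X →L[ℝ] RegV X)
  map_one' := by
    ext f g
    show (LinearIsometryEquiv.piLpCongrLeft 2 ℝ ℝ (Equiv.mulLeft (1 : Equiv.Perm X)) f : RegV X) g = f g
    rw [piLpCongrLeft_mulLeft_apply]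
    simp
  map_mul' := by
    intro a b
    ext f g
    show (LinearIsometryEquiv.piLpCongrLeft 2 ℝ ℝ (Equiv.mulLeft (a * b)) f : RegV X) g =
      (LinearIsometryEquiv.piLpCongrLeft 2 ℝ ℝ (Equiv.mulLeft a)
        (LinearIsometryEquiv.piLpCongrLeft 2 ℝ ℝ (Equiv.mulLeft b) f : RegV X) : RegV X) g
    rw [piLpCongrLeft_mulLeft_apply, piLpCongrLeft_mulLeft_apply, piLpCongrLeft_mulLeft_apply]
    simp [mul_assoc]

@[simp] theorem regRep_apply (h : Equiv.Perm X) (f : RegV X) (g : Equiv.Perm X) :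
    regRep X h f g = f (h⁻¹ * g) := by
  exact piLpCongrLeft_mulLeft_apply h f g

theorem regRep_orth : IsOrth (regRep X) := by
  intro g u v
  exact (LinearIsometryEquiv.piLpCongrLeft 2 ℝ ℝ (Equiv.mulLeft g) :
    RegV X ≃ₗᵢ[ℝ] RegV X).inner_map_map u v

/-- The delta at the identity -/
noncomputable def delta1 (X : Type*) [Fintype X] [DecidableEq X] : RegV X :=
  EuclideanSpace.single 1 1

/-- The uniform law, as a vector. -/
noncomputable def unifV (X : Type*) [Fintype X] [DecidableEq X] : RegV X :=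
  WithLp.toLp 2 (fun _ => 1 / (Fintype.card (Equiv.Perm X) : ℝ))

@[simp] theorem unifV_apply (g : Equiv.Perm X) : unifV X g = 1 / (Fintype.card (Equiv.Perm X) : ℝ) := rfl

theorem regRep_unif (h : Equiv.Perm X) : regRep X h (unifV X) = unifV X := by
  ext g
  simp

/-- Rank of the stabiliser averages in the regular representation. -/
theorem rank_fixAvg (F : Finset X) :
    Module.finrank ℝ (LinearMap.range (fixAvg (regRep X) F : RegV X →ₗ[ℝ] RegV X)) ≤
      Fintype.card X ^ F.card := by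
  classical
  -- a function in the range of `P_F` is a function of `g ↦ g⁻¹|_F`
  let res : Equiv.Perm X → (F → X) := fun g x => g⁻¹ x
  let Φ : ((F → X) → ℝ) →ₗ[ℝ] RegV X :=
    { toFun := fun φ => WithLp.toLp 2 (fun g => φ (res g))
      map_add' := by
        intro a b
        rfl
      map_smul' := by
        intro c a
        rfl }
  have hle : LinearMap.range (fixAvg (regRep X) F : RegV X →ₗ[ℝ] RegV X) ≤ LinearMap.range Φ := by
    rintro w ⟨v, rfl⟩
    set f : RegV X := fixAvg (regRep X) F v with hf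
    have hinv : ∀ h ∈ fixG F, ∀ g, f (h⁻¹ * g) = f g := by
      intro h hh g
      have h1 : regRep X h f = f := avgOn_map_apply (regRep X) (fixG F) hh v
      have h2 := congrArg (fun w : RegV X => w g) h1
      simpa using h2
    have hdep : ∀ g₁ g₂, res g₁ = res g₂ → f g₁ = f g₂ := by
      intro g₁ g₂ hres
      have hh : g₁ * g₂⁻¹ ∈ fixG F := by
        intro x hx
        have h3 := congrFun hres ⟨x, hx⟩
        simp only [res] at h3
        show g₁ (g₂⁻¹ x) = x
        rw [← h3]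
        simp
      have h4 := hinv _ hh g₁
      have h5 : (g₁ * g₂⁻¹)⁻¹ * g₁ = g₂ := by group
      rw [h5] at h4
      exact h4.symm
    refine ⟨fun w => if h : ∃ g, res g = w then f h.choose else 0, ?_⟩
    ext g
    show (if h : ∃ g', res g' = res g then f h.choose else 0) = f g
    have hex : ∃ g', res g' = res g := ⟨g, rfl⟩
    rw [dif_pos hex]
    exact hdep _ _ hex.choose_spec
  calc Module.finrank ℝ (LinearMap.range (fixAvg (regRep X) F : RegV X →ₗ[ℝ] RegV X))
      ≤ Module.finrank ℝ (LinearMap.range Φ) := Submodule.finrank_mono hle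
    _ ≤ Module.finrank ℝ ((F → X) → ℝ) := LinearMap.finrank_range_le Φ
    _ = Fintype.card X ^ F.card := by
        rw [Module.finrank_fintype_fun_eq_card, Fintype.card_fun, Fintype.card_coe]

/-- Codimension of the level subspace. -/
theorem finrank_lowFix_add (j : ℕ) (hj : 1 ≤ j) (hj2 : j - 1 ≤ Fintype.card X) :
    Module.finrank ℝ (RegV X) ≤ Module.finrank ℝ (lowFix (regRep X) (univ : Finset X) j) +
      (Fintype.card X) ^ (2 * (j - 1)) := by
  classical
  set π := regRep X with hπdef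
  set n := Fintype.card X with hn
  let ι := {R : Finset X // R ∈ powersetCard (j - 1) (univ : Finset X)}
  let T : ι → Submodule ℝ (RegV X) := fun R =>
    LinearMap.range (fixAvg π R.1 : RegV X →ₗ[ℝ] RegV X)
  let L : RegV X →ₗ[ℝ] (∀ R : ι, T R) :=
    LinearMap.pi fun R => (LinearMap.rangeRestrict (fixAvg π R.1 : RegV X →ₗ[ℝ] RegV X))
  have hker : LinearMap.ker L ≤ lowFix π (univ : Finset X) j := by
    intro f hf R' _ hcard
    have hf0 : ∀ R : ι, fixAvg π R.1 f = 0 := by
      intro R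
      have h1 := congrFun (LinearMap.mem_ker.mp hf) R
      have h2 := congrArg (fun x : T R => (x : RegV X)) h1
      simpa [L] using h2
    have hR' : R'.card ≤ j - 1 := by omega
    have hjn : j - 1 ≤ (univ : Finset X).card := by simpa using hj2
    obtain ⟨R, hR'R, hRuniv, hRcard⟩ := Finset.exists_subsuperset_card_eq (Finset.subset_univ R') hR' hjn
    have hmem : R ∈ powersetCard (j - 1) (univ : Finset X) :=
      Finset.mem_powersetCard.mpr ⟨hRuniv, hRcard⟩
    have h3 := hf0 ⟨R, hmem⟩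
    have h4 : fixAvg π R' * fixAvg π R = fixAvg π R' := avgOn_mul_of_le π _ _ (fixG_anti hR'R)
    have h5 := congrArg (fun A : RegV X →L[ℝ] RegV X => A f) h4
    simp only [ContinuousLinearMap.mul_apply] at h5
    rw [h3, map_zero] at h5
    simp only [compl_univ, union_empty]
    exact h5.symm
  have hcardι : Fintype.card ι = (n.choose (j - 1)) := by
    simp [ι, hn]
  have hrange : Module.finrank ℝ (LinearMap.range L) ≤ n ^ (2 * (j - 1)) := by
    calc Module.finrank ℝ (LinearMap.range L)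
        ≤ Module.finrank ℝ (∀ R : ι, T R) := Submodule.finrank_le _
      _ = ∑ R : ι, Module.finrank ℝ (T R) := Module.finrank_pi_fintype ℝ
      _ ≤ ∑ _R : ι, n ^ (j - 1) := by
          refine Finset.sum_le_sum fun R _ => ?_
          have h1 := rank_fixAvg (X := X) R.1
          have h2 : R.1.card = j - 1 := (Finset.mem_powersetCard.mp R.2).2
          rw [h2] at h1
          exact h1
      _ = n.choose (j - 1) * n ^ (j - 1) := by
          simp [hcardι]
      _ ≤ n ^ (j - 1) * n ^ (j - 1) :=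
          Nat.mul_le_mul_right _ (Nat.choose_le_pow _ _)
      _ = n ^ (2 * (j - 1)) := by rw [two_mul, pow_add]
  have hrk := LinearMap.finrank_range_add_finrank_ker L
  have hmono : Module.finrank ℝ (LinearMap.ker L) ≤
      Module.finrank ℝ (lowFix π (univ : Finset X) j) := Submodule.finrank_mono hker
  omega

/-- Eigenvalue counting. -/
theorem count_eigen {ι : Type*} [Fintype ι] (b : OrthonormalBasis ι ℝ (RegV X)) {a : ι → ℝ}
    (hb : ∀ i, lap (regRep X) (b i) = a i • b i) (hn : Even (Fintype.card X)) {j : ℕ}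
    (hj1 : 1 ≤ j) (hj2 : j ≤ Fintype.card X / 2) :
    (univ.filter (fun i => a i < (3 * (Fintype.card X : ℝ) / 8) * j)).card ≤
      (Fintype.card X) ^ (2 * (j - 1)) := by
  have h1 := card_eigen_lt_add_finrank_le b hb (lowFix (regRep X) (univ : Finset X) j)
    ((3 * (Fintype.card X : ℝ) / 8) * j)
    (fun f hf => lap_lower (regRep X) regRep_orth hn hj1 hj2 hf)
  have hle : j - 1 ≤ Fintype.card X := by
    have := Nat.div_le_self (Fintype.card X) 2
    omega
  have h2 := finrank_lowFix_add (X := X) j hj1 hle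
  omega

/-- The delta at `g`. -/
noncomputable def deltaAt (X : Type*) [Fintype X] [DecidableEq X] (g : Equiv.Perm X) : RegV X :=
  EuclideanSpace.single g 1

theorem inner_deltaAt (g : Equiv.Perm X) (f : RegV X) : ⟪deltaAt X g, f⟫_ℝ = f g := by
  simp [deltaAt, EuclideanSpace.inner_single_left]

/-- The right regular representation, as an isometry. -/
noncomputable def rightRep (X : Type*) [Fintype X] [DecidableEq X] (h : Equiv.Perm X) :
    RegV X →L[ℝ] RegV X :=
  ((LinearIsometryEquiv.piLpCongrLeft 2 ℝ ℝ (Equiv.mulRight h) :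
    RegV X ≃ₗᵢ[ℝ] RegV X) : RegV X →L[ℝ] RegV X)

theorem rightRep_apply (h : Equiv.Perm X) (f : RegV X) (g : Equiv.Perm X) :
    rightRep X h f g = f (g * h⁻¹) := by
  show (LinearIsometryEquiv.piLpCongrLeft 2 ℝ ℝ (Equiv.mulRight h) f : RegV X) g = _
  simp [LinearIsometryEquiv.piLpCongrLeft_apply, Equiv.piCongrLeft']

theorem rightRep_inner (h : Equiv.Perm X) (u v : RegV X) :
    ⟪rightRep X h u, rightRep X h v⟫_ℝ = ⟪u, v⟫_ℝ :=
  (LinearIsometryEquiv.piLpCongrLeft 2 ℝ ℝ (Equiv.mulRight h) :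
    RegV X ≃ₗᵢ[ℝ] RegV X).inner_map_map u v

theorem rightRep_delta1 (g : Equiv.Perm X) : rightRep X g (delta1 X) = deltaAt X g := by
  ext x
  rw [rightRep_apply]
  simp only [delta1, deltaAt, PiLp.single_apply]
  by_cases h : x = g
  · subst h; simp
  · have h2 : x * g⁻¹ ≠ 1 := fun h3 => h (mul_inv_eq_one.mp h3)
    simp [h, h2]

theorem rightRep_commute (h g : Equiv.Perm X) : Commute (rightRep X h) (regRep X g) := by
  ext f x
  show rightRep X h (regRep X g f) x = regRep X g (rightRep X h f) x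
  rw [rightRep_apply, regRep_apply, regRep_apply, rightRep_apply, mul_assoc]

theorem heat_rightRep_commute (s : ℝ) (g : Equiv.Perm X) :
    Commute (rightRep X g) (heat (regRep X) s) :=
  heat_commute (regRep X) (lap_commute_of (regRep X) (fun g' => rightRep_commute g g')) s

/-- Trace formula for the heat kernel. -/
theorem heat_trace {ι : Type*} [Fintype ι] (b : OrthonormalBasis ι ℝ (RegV X)) {a : ι → ℝ}
    (hb : ∀ i, lap (regRep X) (b i) = a i • b i) (s : ℝ) :
    (Fintype.card (Equiv.Perm X) : ℝ) * ⟪heat (regRep X) s (delta1 X), delta1 X⟫_ℝ =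
      ∑ i, Real.exp (-(s / Fintype.card X) * a i) := by
  classical
  set t : ℝ := -(s / Fintype.card X) with ht
  -- the diagonal of the heat kernel is constant
  have hdiag : ∀ g : Equiv.Perm X, ⟪heat (regRep X) s (deltaAt X g), deltaAt X g⟫_ℝ =
      ⟪heat (regRep X) s (delta1 X), delta1 X⟫_ℝ := by
    intro g
    have hρ := heat_rightRep_commute (X := X) s g
    have h1 : deltaAt X g = rightRep X g (delta1 X) := (rightRep_delta1 g).symm
    rw [h1]
    have h2 := congrArg (fun A : RegV X →L[ℝ] RegV X => A (delta1 X)) hρ.eq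
    simp only [ContinuousLinearMap.mul_apply] at h2
    rw [← h2]
    exact rightRep_inner g _ _
  -- trace
  have htrace : ∑ g : Equiv.Perm X, ⟪heat (regRep X) s (deltaAt X g), deltaAt X g⟫_ℝ =
      ∑ i, Real.exp (t * a i) := by
    have hheat : ∀ g, ⟪heat (regRep X) s (deltaAt X g), deltaAt X g⟫_ℝ =
        ∑ i, Real.exp (t * a i) * (⟪deltaAt X g, b i⟫_ℝ * ⟪deltaAt X g, b i⟫_ℝ) := by
      intro g
      exact inner_exp_eq_sum b hb t _ _
    simp only [hheat]
    rw [Finset.sum_comm]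
    refine Finset.sum_congr rfl fun i _ => ?_
    rw [← Finset.mul_sum]
    have hn : ∑ g : Equiv.Perm X, (⟪deltaAt X g, b i⟫_ℝ * ⟪deltaAt X g, b i⟫_ℝ) = 1 := by
      have h1 : ‖b i‖ ^ 2 = ∑ g, ⟪deltaAt X g, b i⟫_ℝ ^ 2 := by
        rw [EuclideanSpace.norm_sq_eq]
        refine Finset.sum_congr rfl fun g _ => ?_
        simp [inner_deltaAt]
      rw [b.orthonormal.1 i] at h1
      simp only [sq] at h1
      linarith
    rw [hn, mul_one]
  rw [← htrace]
  simp only [hdiag]
  simp

/-- Pointwise inequality for the exponential used in the bucketing. -/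
theorem exp_bucket {τ x δ : ℝ} (hτ : 0 ≤ τ) (hx : 0 ≤ x) (hδ : 0 ≤ δ) (J : ℕ) (hJ : 1 ≤ J) :
    Real.exp (-τ * δ) ≤ (if δ < x then 1 else 0) +
      ∑ j ∈ Finset.Ico 1 J, (if δ < x * (j + 1) then Real.exp (-τ * x) ^ j else 0) +
      Real.exp (-τ * x) ^ J := by
  set θ := Real.exp (-τ * x) with hθ
  have hθ0 : 0 < θ := Real.exp_pos _
  have hθpow : ∀ k : ℕ, θ ^ k = Real.exp (-τ * (x * k)) := by
    intro k
    rw [hθ, ← Real.exp_nat_mul]
    congr 1
    ring
  have hterm0 : ∀ j ∈ Finset.Ico 1 J, 0 ≤ (if δ < x * (j + 1) then θ ^ j else 0 : ℝ) := by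
    intro j _
    split_ifs
    · positivity
    · exact le_rfl
  have hA0 : (0 : ℝ) ≤ (if δ < x then 1 else 0) := by split_ifs <;> norm_num
  have hsum0 := Finset.sum_nonneg hterm0
  have hJ0 : 0 < θ ^ J := by positivity
  have hmono : ∀ k : ℕ, x * k ≤ δ → Real.exp (-τ * δ) ≤ θ ^ k := by
    intro k hk
    rw [hθpow]
    apply Real.exp_le_exp.mpr
    nlinarith
  by_cases hJx : x * J ≤ δ
  · have := hmono J hJx
    linarith
  push Not at hJx
  -- the smallest k with δ < x (k+1)
  have hex : ∃ k : ℕ, δ < x * ((k : ℝ) + 1) := by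
    refine ⟨J, ?_⟩
    have hx' : 0 ≤ x := hx
    nlinarith
  classical
  let k := Nat.find hex
  have hk : δ < x * ((k : ℝ) + 1) := Nat.find_spec hex
  have hk' : ∀ m < k, ¬ δ < x * ((m : ℝ) + 1) := fun m hm => Nat.find_min hex hm
  have hklow : x * k ≤ δ := by
    rcases Nat.eq_zero_or_pos k with h0 | hpos
    · rw [h0]; simpa using hδ
    · have := hk' (k - 1) (by omega)
      push Not at this
      have h2 : ((k - 1 : ℕ) : ℝ) + 1 = k := by
        have : (k - 1) + 1 = k := by omega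
        exact_mod_cast this
      rwa [h2] at this
  have hkJ : k < J := by
    by_contra hcon
    push Not at hcon
    have hle : (J : ℝ) ≤ k := by exact_mod_cast hcon
    have : x * J ≤ x * k := mul_le_mul_of_nonneg_left hle hx
    linarith
  rcases Nat.eq_zero_or_pos k with h0 | hpos
  · have hd : δ < x := by
      have := hk
      rw [h0] at this
      simpa using this
    have h1 : Real.exp (-τ * δ) ≤ 1 := by
      apply Real.exp_le_one_iff.mpr
      nlinarith
    rw [if_pos hd]
    linarith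
  · have hmem : k ∈ Finset.Ico 1 J := Finset.mem_Ico.mpr ⟨hpos, hkJ⟩
    have hle := Finset.single_le_sum hterm0 hmem
    rw [if_pos hk] at hle
    have := hmono k hklow
    linarith

/-- The return probability of the heat kernel. -/
theorem return_bound (hn : Even (Fintype.card X)) (hn2 : 2 ≤ Fintype.card X) {s : ℝ} (hs : 0 ≤ s)
    (hθ : (Fintype.card X : ℝ) ^ 2 * Real.exp (-(3 * s / 8)) ≤ 1 / 8) :
    (Fintype.card (Equiv.Perm X) : ℝ) * ⟪heat (regRep X) s (delta1 X), delta1 X⟫_ℝ ≤ 1 + 1 / 7 := by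
  obtain ⟨b, a, hb⟩ := exists_eigen (lap (regRep X)) (lapOn_symm regRep_orth univ)
  rw [heat_trace b hb s]
  set n : ℝ := (Fintype.card X : ℝ) with hndef
  have hn0 : 0 < n := by
    have : 0 < Fintype.card X := by omega
    rw [hndef]
    exact_mod_cast this
  set J : ℕ := Fintype.card X / 2 with hJ
  have hJ1 : 1 ≤ J := by
    rw [hJ]
    omega
  have hnJ : Fintype.card X = 2 * J := by
    obtain ⟨m, hm⟩ := hn
    rw [hJ]
    omega
  set τ : ℝ := s / n with hτ
  have hτ0 : 0 ≤ τ := by positivity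
  set x : ℝ := 3 * n / 8 with hx
  have hx0 : 0 ≤ x := by positivity
  set θ : ℝ := Real.exp (-τ * x) with hθdef
  have hθ0 : 0 < θ := Real.exp_pos _
  have hθe : θ = Real.exp (-(3 * s / 8)) := by
    rw [hθdef]
    congr 1
    rw [hτ, hx]
    field_simp
  rw [← hθe] at hθ
  have ha0 : ∀ i, 0 ≤ a i := by
    intro i
    have h1 := lapOn_nonneg regRep_orth (univ : Finset X) (b i)
    have h2 : ⟪lap (regRep X) (b i), b i⟫_ℝ = a i := by
      rw [hb i, real_inner_smul_left, real_inner_self_eq_norm_sq, b.orthonormal.1 i]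
      ring
    rw [← h2]
    exact h1
  have hpt : ∀ i, Real.exp (-τ * a i) ≤ (if a i < x then 1 else 0) +
      ∑ j ∈ Finset.Ico 1 J, (if a i < x * (j + 1) then θ ^ j else 0) + θ ^ J :=
    fun i => exp_bucket hτ0 hx0 (ha0 i) J hJ1
  have hcount1 : (univ.filter (fun i => a i < x)).card ≤ 1 := by
    have h := count_eigen b hb hn (j := 1) le_rfl hJ1
    simpa [hx] using h
  have hcountj : ∀ j ∈ Finset.Ico 1 J, (univ.filter (fun i => a i < x * ((j : ℝ) + 1))).card ≤
      Fintype.card X ^ (2 * j) := by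
    intro j hj
    have hj' := Finset.mem_Ico.mp hj
    have h := count_eigen b hb hn (j := j + 1) (by omega) (by omega)
    simpa [hx] using h
  set D : ℝ := ((2 * J).factorial : ℝ) with hD
  have hDcard : (Fintype.card (Fin (Module.finrank ℝ (RegV X))) : ℝ) = D := by
    rw [Fintype.card_fin, finrank_euclideanSpace, Fintype.card_perm, hnJ]
  have hDle : D ≤ n ^ (2 * J) := by
    rw [hD, hndef, hnJ]
    have := Nat.factorial_le_pow (2 * J)
    exact_mod_cast this
  have hpow : ∀ j : ℕ, n ^ (2 * j) * θ ^ j ≤ (1 / 8 : ℝ) ^ j := by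
    intro j
    rw [pow_mul, ← mul_pow]
    exact pow_le_pow_left₀ (by positivity) hθ j
  have hsum1 : ∑ i, (if a i < x then (1 : ℝ) else 0) ≤ 1 := by
    rw [Finset.sum_boole]
    exact_mod_cast hcount1
  have hsum2 : ∑ i, ∑ j ∈ Finset.Ico 1 J, (if a i < x * ((j : ℝ) + 1) then θ ^ j else 0) ≤
      ∑ j ∈ Finset.Ico 1 J, (1 / 8 : ℝ) ^ j := by
    rw [Finset.sum_comm]
    refine Finset.sum_le_sum fun j hj => ?_
    have h1 : ∑ i, (if a i < x * ((j : ℝ) + 1) then θ ^ j else 0) =
        ((univ.filter (fun i => a i < x * ((j : ℝ) + 1))).card : ℝ) * θ ^ j := by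
      rw [← Finset.sum_filter, Finset.sum_const, nsmul_eq_mul]
    rw [h1]
    refine le_trans ?_ (hpow j)
    apply mul_le_mul_of_nonneg_right _ (by positivity)
    rw [hndef]
    exact_mod_cast hcountj j hj
  have hsum3 : ∑ _i : Fin (Module.finrank ℝ (RegV X)), θ ^ J ≤ (1 / 8 : ℝ) ^ J := by
    rw [Finset.sum_const, Finset.card_univ, nsmul_eq_mul, hDcard]
    refine le_trans ?_ (hpow J)
    exact mul_le_mul_of_nonneg_right hDle (by positivity)
  have hgeom : ∀ K : ℕ, 1 ≤ K →
      ∑ j ∈ Finset.Ico 1 K, (1 / 8 : ℝ) ^ j + (8 / 7) * (1 / 8 : ℝ) ^ K = 1 / 7 := by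
    intro K hK
    induction K, hK using Nat.le_induction with
    | base => simp; norm_num
    | succ K hK ih =>
      rw [Finset.sum_Ico_succ_top hK, pow_succ]
      linarith
  have hJpos : (0 : ℝ) < (1 / 8 : ℝ) ^ J := by positivity
  have hgeomJ := hgeom J hJ1
  calc ∑ i, Real.exp (-(s / n) * a i)
      ≤ ∑ i, ((if a i < x then (1 : ℝ) else 0) +
          ∑ j ∈ Finset.Ico 1 J, (if a i < x * ((j : ℝ) + 1) then θ ^ j else 0) + θ ^ J) :=
        Finset.sum_le_sum fun i _ => hpt i
    _ = ∑ i, (if a i < x then (1 : ℝ) else 0) +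
          ∑ i, ∑ j ∈ Finset.Ico 1 J, (if a i < x * ((j : ℝ) + 1) then θ ^ j else 0) +
          ∑ _i : Fin (Module.finrank ℝ (RegV X)), θ ^ J := by
        rw [Finset.sum_add_distrib, Finset.sum_add_distrib]
    _ ≤ 1 + 1 / 7 := by
        linarith

/-- From the domination of `B` to total variation. -/
theorem tv_of_domination (hn : Even (Fintype.card X)) (hn2 : 2 ≤ Fintype.card X)
    {B : RegV X →L[ℝ] RegV X} {c : ℝ} (hc : 0 ≤ c)
    (hcomm : ∀ s, Commute B (heat (regRep X) s))
    (hB : ∀ f, ‖B f‖ ^ 2 ≤ ⟪heat (regRep X) c f, f⟫_ℝ) (hU : B (unifV X) = unifV X) (r : ℕ)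
    (hr : (Fintype.card X : ℝ) ^ 2 * Real.exp (-(3 * (r * c) / 8)) ≤ 1 / 8) :
    tvUnif (fun g => ((B ^ r) (delta1 X)) g) ≤ 1 / 4 := by
  set N : ℝ := (Fintype.card (Equiv.Perm X) : ℝ) with hN
  have hN0 : 0 < N := by
    rw [hN]
    exact_mod_cast Fintype.card_pos
  set u : RegV X := unifV X with hu
  set d : RegV X := delta1 X with hd
  set s : ℝ := r * c with hs
  have hs0 : 0 ≤ s := by positivity
  -- the heat kernel fixes u
  have hlapu : lap (regRep X) u = 0 := by
    simp only [lap, lapOn, ContinuousLinearMap.smul_apply, ContinuousLinearMap.sum_apply,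
      ContinuousLinearMap.sub_apply, ContinuousLinearMap.one_apply]
    simp [hu, regRep_unif]
  have hheatu : heat (regRep X) s u = u := by
    have h1 : (-(s / Fintype.card X) • lap (regRep X)) u = (0 : ℝ) • u := by
      simp [hlapu]
    have h2 := exp_apply_of_eigen _ h1
    simpa [heat] using h2
  have hUpow : ∀ k : ℕ, (B ^ k) u = u := by
    intro k
    induction k with
    | zero => simp
    | succ k ih =>
      rw [pow_succ, ContinuousLinearMap.mul_apply, hU, ih]
  have hw := pow_domination regRep_orth hcomm hB r (d - u)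
  set w : RegV X := (B ^ r) (d - u) with hwdef
  have hwg : ∀ g, w g = ((B ^ r) d) g - 1 / N := by
    intro g
    rw [hwdef, map_sub, hUpow r]
    simp [hu, hN]
  have hsymm : Symm (heat (regRep X) s) := heat_symm regRep_orth s
  have hinner_ud : ⟪u, d⟫_ℝ = 1 / N := by
    rw [real_inner_comm, hd]
    have := inner_deltaAt (X := X) 1 u
    simp only [deltaAt] at this
    show ⟪(EuclideanSpace.single 1 1 : RegV X), u⟫_ℝ = 1 / N
    rw [this, hu]
    simp [hN]
  have hinner_uu : ⟪u, u⟫_ℝ = 1 / N := by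
    rw [real_inner_self_eq_norm_sq, EuclideanSpace.norm_sq_eq]
    simp only [hu, unifV_apply, Real.norm_eq_abs, sq_abs]
    rw [Finset.sum_const, Finset.card_univ, nsmul_eq_mul, ← hN]
    field_simp
  have hexpand : ⟪heat (regRep X) s (d - u), d - u⟫_ℝ =
      ⟪heat (regRep X) s d, d⟫_ℝ - 1 / N := by
    have e1 : ⟪heat (regRep X) s d, u⟫_ℝ = 1 / N := by
      rw [hsymm d u, hheatu, real_inner_comm, hinner_ud]
    rw [map_sub, hheatu, inner_sub_left, inner_sub_right, inner_sub_right, e1, hinner_ud, hinner_uu]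
    ring
  have hret := return_bound (X := X) hn hn2 hs0 hr
  have hret' : ⟪heat (regRep X) s d, d⟫_ℝ ≤ (1 + 1 / 7) / N := by
    rw [le_div_iff₀ hN0, mul_comm]
    exact hret
  have hnorm : ‖w‖ ^ 2 ≤ (1 / 7) / N := by
    calc ‖w‖ ^ 2 ≤ ⟪heat (regRep X) s (d - u), d - u⟫_ℝ := hw
      _ = ⟪heat (regRep X) s d, d⟫_ℝ - 1 / N := hexpand
      _ ≤ (1 + 1 / 7) / N - 1 / N := by linarith
      _ = (1 / 7) / N := by ring
  have hsq : (∑ g : Equiv.Perm X, |w g|) ^ 2 ≤ 1 / 7 := by
    have h1 := sq_sum_le_card_mul_sum_sq (s := (univ : Finset (Equiv.Perm X))) (f := fun g => |w g|)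
    have h2 : ∑ g : Equiv.Perm X, |w g| ^ 2 = ‖w‖ ^ 2 := by
      rw [EuclideanSpace.norm_sq_eq]
      simp
    rw [h2, Finset.card_univ] at h1
    calc (∑ g : Equiv.Perm X, |w g|) ^ 2 ≤ N * ‖w‖ ^ 2 := h1
      _ ≤ N * ((1 / 7) / N) := mul_le_mul_of_nonneg_left hnorm hN0.le
      _ = 1 / 7 := by field_simp
  have hsum_nonneg : 0 ≤ ∑ g : Equiv.Perm X, |w g| := Finset.sum_nonneg fun g _ => abs_nonneg _
  have hsum : ∑ g : Equiv.Perm X, |w g| ≤ 1 / 2 := by
    nlinarith
  unfold tvUnif
  have heq : ∑ g : Equiv.Perm X, |((B ^ r) d) g - 1 / N| = ∑ g : Equiv.Perm X, |w g| := by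
    refine Finset.sum_congr rfl fun g _ => ?_
    rw [hwg]
  rw [heq]
  linarith

/-- The operator of a function on the group. -/
noncomputable def opOf (μ : Equiv.Perm X → ℝ) : RegV X →L[ℝ] RegV X :=
  ∑ h, μ h • regRep X h

theorem opOf_apply (μ : Equiv.Perm X → ℝ) (f : RegV X) (g : Equiv.Perm X) :
    opOf μ f g = ∑ h, μ h * f (h⁻¹ * g) := by
  simp [opOf]

/-- Convolution powers are powers of the operator. -/
theorem convPow_eq_opOf_pow (μ : Equiv.Perm X → ℝ) (t : ℕ) (g : Equiv.Perm X) :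
    convPow μ t g = ((opOf μ ^ t) (delta1 X)) g := by
  induction t generalizing g with
  | zero =>
    simp [convPow, delta1, PiLp.single_apply]
  | succ t ih =>
    rw [pow_succ', ContinuousLinearMap.mul_apply, opOf_apply]
    simp only [convPow, conv, ih]

end Vale.Agent.P162
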