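/-
P162: identification of the Thorp shuffle with the cube network.

posE d : Cube (d+1) ≃ Fin (2 * 2^d), x ↦ ∑_j x_j 2^j (little endian).
  posE (snoc x b) = val x + 2^d b,  posE (cons b x) = b + 2 val x.
thorpPerm c : the permutation with values thorpPos.  Under posE: position snoc x b goes to cons (xor b (c (val x))) x = rot (snoc x (xor b (c ..))).
So with π = regRep ∘ conjHom posE, opOf (thorpLaw (2^d)) = π(rot) * Qk π d.
-/
import Vale.Agent.P162.Regular

open scoped InnerProductSpace BigOperators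
open Finset

namespace Vale.Agent.P162

/-- Little endian value of a bit vector. -/
def bitsVal {d : ℕ} (x : Cube d) : ℕ := ∑ j : Fin d, (if x j then 2 ^ (j : ℕ) else 0)

theorem bitsVal_snoc {d : ℕ} (x : Cube d) (b : Bool) :
    bitsVal (Fin.snoc x b : Cube (d + 1)) = bitsVal x + (if b then 2 ^ d else 0) := by
  simp [bitsVal, Fin.sum_univ_castSucc]

theorem bitsVal_lt {d : ℕ} (x : Cube d) : bitsVal x < 2 ^ d := by
  induction d with
  | zero => simp [bitsVal]
  | succ d ih =>
    have hx : x = (Fin.snoc (Fin.init x) (x (Fin.last d)) : Cube (d + 1)) :=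
      (Fin.snoc_init_self x).symm
    rw [hx, bitsVal_snoc]
    have := ih (Fin.init x)
    have h2 : 2 ^ (d + 1) = 2 * 2 ^ d := by ring
    split_ifs <;> omega

theorem bitsVal_cons {d : ℕ} (x : Cube d) (b : Bool) :
    bitsVal (Fin.cons b x : Cube (d + 1)) = (if b then 1 else 0) + 2 * bitsVal x := by
  simp only [bitsVal, Fin.sum_univ_succ, Fin.cons_zero, Fin.cons_succ, Fin.val_zero, pow_zero,
    Fin.val_succ, Finset.mul_sum]
  congr 1
  refine Finset.sum_congr rfl fun j _ => ?_
  split_ifs <;> ring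

theorem bitsVal_injective {d : ℕ} : Function.Injective (bitsVal (d := d)) := by
  induction d with
  | zero =>
    intro x y _
    exact Subsingleton.elim x y
  | succ d ih =>
    intro x y hxy
    have hx : x = (Fin.snoc (Fin.init x) (x (Fin.last d)) : Cube (d + 1)) :=
      (Fin.snoc_init_self x).symm
    have hy : y = (Fin.snoc (Fin.init y) (y (Fin.last d)) : Cube (d + 1)) :=
      (Fin.snoc_init_self y).symm
    rw [hx, hy, bitsVal_snoc, bitsVal_snoc] at hxy
    have h1 := bitsVal_lt (Fin.init x)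
    have h2 := bitsVal_lt (Fin.init y)
    have hb : x (Fin.last d) = y (Fin.last d) := by
      cases hxb : x (Fin.last d) <;> cases hyb : y (Fin.last d) <;> simp [hxb, hyb] at hxy ⊢ <;> omega
    have hv : bitsVal (Fin.init x) = bitsVal (Fin.init y) := by
      rw [hb] at hxy
      omega
    have hi := ih hv
    rw [hx, hy, hi, hb]

/-- The value equivalence of the cube and the deck. -/
noncomputable def posE (d : ℕ) : Cube (d + 1) ≃ Fin (2 * 2 ^ d) :=
  Equiv.ofBijective (fun x => ⟨bitsVal x, by have := bitsVal_lt x; rw [pow_succ] at this; omega⟩)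
    (by
      rw [Fintype.bijective_iff_injective_and_card]
      constructor
      · intro x y h
        exact bitsVal_injective (Fin.mk.inj_iff.mp h)
      · simp [pow_succ]
        ring)

/-- The lower half of the deck as the cube. -/
noncomputable def coinE (d : ℕ) : Cube d ≃ Fin (2 ^ d) :=
  Equiv.ofBijective (fun x => ⟨bitsVal x, bitsVal_lt x⟩) (by
      rw [Fintype.bijective_iff_injective_and_card]
      constructor
      · intro x y h
        exact bitsVal_injective (Fin.mk.inj_iff.mp h)
      · simp)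

theorem posE_val (d : ℕ) (x : Cube (d + 1)) : ((posE d x : Fin (2 * 2 ^ d)) : ℕ) = bitsVal x := rfl

theorem coinE_val (d : ℕ) (x : Cube d) : ((coinE d x : Fin (2 ^ d)) : ℕ) = bitsVal x := rfl

theorem thorpPos_lt (m : ℕ) (c : Fin m → Bool) (p : Fin (2 * m)) : thorpPos m c p < 2 * m := by
  unfold thorpPos
  have := p.2
  split_ifs <;> omega

theorem thorpPos_inj (m : ℕ) (c : Fin m → Bool) {p q : Fin (2 * m)}
    (h : thorpPos m c p = thorpPos m c q) : p = q := by
  unfold thorpPos at h
  have hp2 := p.2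
  have hq2 := q.2
  apply Fin.ext
  by_cases hp : p.val < m
  · by_cases hq : q.val < m
    · rw [dif_pos hp, dif_pos hq] at h
      split_ifs at h <;> omega
    · rw [dif_pos hp, dif_neg hq] at h
      exfalso
      have key : (⟨p.val, hp⟩ : Fin m) = ⟨q.val - m, by omega⟩ := by
        apply Fin.ext
        show p.val = q.val - m
        split_ifs at h <;> omega
      rw [key] at h
      split_ifs at h <;> omega
  · by_cases hq : q.val < m
    · rw [dif_neg hp, dif_pos hq] at h
      exfalso
      have key : (⟨q.val, hq⟩ : Fin m) = ⟨p.val - m, by omega⟩ := by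
        apply Fin.ext
        show q.val = p.val - m
        split_ifs at h <;> omega
      rw [key] at h
      split_ifs at h <;> omega
    · rw [dif_neg hp, dif_neg hq] at h
      have hpq : p.val - m = q.val - m := by
        split_ifs at h <;> omega
      omega

/-- thorp shuffle as a permutation -/
noncomputable def thorpPerm (m : ℕ) (c : Fin m → Bool) : Equiv.Perm (Fin (2 * m)) :=
  Equiv.ofBijective (fun p => ⟨thorpPos m c p, thorpPos_lt m c p⟩)
    (Finite.injective_iff_bijective.mp fun _ _ h => thorpPos_inj m c (Fin.mk.inj_iff.mp h))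

theorem thorpPerm_val (m : ℕ) (c : Fin m → Bool) (p : Fin (2 * m)) :
    ((thorpPerm m c p : Fin (2 * m)) : ℕ) = thorpPos m c p := rfl

/-- The law is the image of the coins. -/
theorem opOf_thorpLaw (m : ℕ) :
    opOf (thorpLaw m) = ((2 : ℝ) ^ m)⁻¹ • ∑ c : Fin m → Bool, regRep (Fin (2 * m)) (thorpPerm m c) := by
  classical
  unfold opOf thorpLaw
  have h : ∀ g : Equiv.Perm (Fin (2 * m)),
      (univ.filter (fun c : Fin m → Bool => ∀ p, ((g p : Fin (2 * m)) : ℕ) = thorpPos m c p)) =
        univ.filter (fun c => thorpPerm m c = g) := by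
    intro g
    ext c
    simp only [mem_filter, mem_univ, true_and]
    constructor
    · intro hc
      ext p
      rw [thorpPerm_val, hc p]
    · intro hc p
      rw [← hc, thorpPerm_val]
  rw [Finset.smul_sum, ← Finset.sum_fiberwise (s := univ) (g := thorpPerm m)
    (f := fun c => ((2 : ℝ) ^ m)⁻¹ • regRep (Fin (2 * m)) (thorpPerm m c))]
  refine Finset.sum_congr rfl fun g _ => ?_
  rw [h g]
  have : ∀ c ∈ univ.filter (fun c => thorpPerm m c = g),
      ((2 : ℝ) ^ m)⁻¹ • regRep (Fin (2 * m)) (thorpPerm m c) =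
        ((2 : ℝ) ^ m)⁻¹ • regRep (Fin (2 * m)) g := by
    intro c hc
    rw [(mem_filter.mp hc).2]
  rw [Finset.sum_congr rfl this, Finset.sum_const, ← Nat.cast_smul_eq_nsmul ℝ, smul_smul]
  congr 1

/-- `rot` in terms of `snoc` and `cons`. -/
theorem rot_snoc {d : ℕ} (y : Cube d) (b : Bool) :
    rot (d + 1) (Fin.snoc y b : Cube (d + 1)) = (Fin.cons b y : Cube (d + 1)) := by
  have key : ∀ j : Fin (d + 1), rot (d + 1) (Fin.snoc y b : Cube (d + 1)) (finRotate (d + 1) j) =
      (Fin.snoc y b : Cube (d + 1)) j := by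
    intro j
    simp [rot, Equiv.arrowCongr]
  funext j
  refine Fin.cases ?_ (fun i => ?_) j
  · have := key (Fin.last d)
    rw [finRotate_last] at this
    rw [this]
    simp
  · have := key i.castSucc
    have h2 : finRotate (d + 1) i.castSucc = i.succ := by
      apply Fin.ext
      rw [finRotate_of_lt (by simp)]
      simp
    rw [h2] at this
    rw [this]
    simp

theorem thorpPos_of_lt {m : ℕ} (c : Fin m → Bool) (p : Fin (2 * m)) (h : p.val < m) :
    thorpPos m c p = 2 * p.val + (if c ⟨p.val, h⟩ then 1 else 0) := dif_pos h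

theorem thorpPos_of_ge {m : ℕ} (c : Fin m → Bool) (p : Fin (2 * m)) (h : ¬ p.val < m) :
    thorpPos m c p = 2 * (p.val - m) + (if c ⟨p.val - m, by have := p.2; omega⟩ then 0 else 1) :=
  dif_neg h

/-- The bit description of the Thorp shuffle. -/
theorem thorpPerm_posE (d : ℕ) (c : Cube d → Bool) (y : Cube d) (b : Bool) :
    thorpPerm (2 ^ d) (c ∘ (coinE d).symm) (posE d (Fin.snoc y b : Cube (d + 1))) =
      posE d (Fin.cons (xor b (c y)) y : Cube (d + 1)) := by
  apply Fin.ext
  rw [thorpPerm_val, posE_val d (Fin.cons _ _), bitsVal_cons]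
  have hy := bitsVal_lt y
  have hv : ((posE d (Fin.snoc y b : Cube (d + 1)) : Fin (2 * 2 ^ d)) : ℕ) =
      bitsVal y + (if b then 2 ^ d else 0) := by
    rw [posE_val, bitsVal_snoc]
  have hcoin : ∀ (i : Fin (2 ^ d)), (i : ℕ) = bitsVal y → (c ∘ (coinE d).symm) i = c y := by
    intro i hi
    have : i = coinE d y := Fin.ext (by rw [coinE_val, hi])
    rw [this]
    simp
  cases b with
  | false =>
    have hv' : ((posE d (Fin.snoc y false : Cube (d + 1)) : Fin (2 * 2 ^ d)) : ℕ) = bitsVal y := by
      rw [hv]; simp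
    rw [thorpPos_of_lt _ _ (by rw [hv']; exact hy), hcoin _ hv', hv']
    cases c y <;> simp <;> ring
  | true =>
    have hv' : ((posE d (Fin.snoc y true : Cube (d + 1)) : Fin (2 * 2 ^ d)) : ℕ) =
        bitsVal y + 2 ^ d := by
      rw [hv]; simp
    have hs : ((posE d (Fin.snoc y true : Cube (d + 1)) : Fin (2 * 2 ^ d)) : ℕ) - 2 ^ d = bitsVal y := by
      rw [hv']; omega
    rw [thorpPos_of_ge _ _ (by rw [hv']; omega), hcoin _ hs, hs]
    cases c y <;> simp <;> ring

theorem thorpPerm_conj (d : ℕ) (c : Cube d → Bool) :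
    conjHom (posE d).symm (thorpPerm (2 ^ d) (c ∘ (coinE d).symm)) =
      rot (d + 1) * conjHom (lastE d).symm (flipOf c) := by
  ext1 x
  have hx : x = (Fin.snoc (Fin.init x) (x (Fin.last d)) : Cube (d + 1)) :=
    (Fin.snoc_init_self x).symm
  rw [hx]
  set y := Fin.init x
  set b := x (Fin.last d)
  rw [conjHom_apply, Equiv.symm_symm, thorpPerm_posE, Equiv.symm_apply_apply, Equiv.Perm.mul_apply,
    conjHom_apply]
  have h1 : (lastE d).symm.symm (Fin.snoc y b : Cube (d + 1)) = (y, b) := by
    simp [lastE]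
  rw [h1, flipOf_apply]
  have h2 : (lastE d).symm (y, xor b (c y)) = (Fin.snoc y (xor b (c y)) : Cube (d + 1)) := rfl
  simp only [h2]
  rw [rot_snoc]

/-- The representation on the deck, seen from the cube. -/
noncomputable def deckRep (d : ℕ) : Equiv.Perm (Cube (d + 1)) →* (RegV (Fin (2 * 2 ^ d)) →L[ℝ] RegV (Fin (2 * 2 ^ d))) :=
  (regRep (Fin (2 * 2 ^ d))).comp (conjHom (posE d))

/-- One Thorp step as operator. -/
theorem opOf_thorpLaw_eq (d : ℕ) :
    opOf (thorpLaw (2 ^ d)) = deckRep d (rot (d + 1)) * Qk (deckRep d) d := by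
  classical
  rw [opOf_thorpLaw]
  -- reindex the coins
  have h1 : ∑ c' : Fin (2 ^ d) → Bool, regRep (Fin (2 * 2 ^ d)) (thorpPerm (2 ^ d) c') =
      ∑ c : Cube d → Bool, regRep (Fin (2 * 2 ^ d)) (thorpPerm (2 ^ d) (c ∘ (coinE d).symm)) := by
    symm
    exact Fintype.sum_equiv ((coinE d).arrowCongr (Equiv.refl Bool)) _ _ (fun c => rfl)
  -- each term
  have h2 : ∀ c : Cube d → Bool, regRep (Fin (2 * 2 ^ d)) (thorpPerm (2 ^ d) (c ∘ (coinE d).symm)) =
      deckRep d (rot (d + 1)) * deckRep d (conjHom (lastE d).symm (flipOf c)) := by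
    intro c
    rw [← map_mul, ← thorpPerm_conj]
    show _ = regRep (Fin (2 * 2 ^ d)) (conjHom (posE d) (conjHom (posE d).symm _))
    congr 1
    ext1 p
    simp
  -- the subgroup
  let F : (Cube d → Bool) → Equiv.Perm (Cube (d + 1)) := fun c => conjHom (lastE d).symm (flipOf c)
  have hF : Function.Injective F := flip_injective
  have hmems : mems (Hk (d + 1) d) = univ.map ⟨F, hF⟩ := by
    ext g
    simp only [mem_mems, mem_map, mem_univ, true_and, Function.Embedding.coeFn_mk]
    constructor
    · intro hg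
      obtain ⟨c, hc⟩ := Hk_top_eq_flip hg
      exact ⟨c, hc.symm⟩
    · rintro ⟨c, rfl⟩
      exact flip_mem_Hk c
  have hcard : ((mems (Hk (d + 1) d)).card : ℝ) = (2 : ℝ) ^ (2 ^ d) := by
    rw [hmems, card_map, card_univ]
    simp
  have hQ : Qk (deckRep d) d =
      ((2 : ℝ) ^ (2 ^ d))⁻¹ • ∑ c : Cube d → Bool, deckRep d (conjHom (lastE d).symm (flipOf c)) := by
    show avgOn (deckRep d) (Hk (d + 1) d) = _
    unfold avgOn
    rw [hcard, hmems, sum_map]
    rfl
  rw [h1, hQ]
  simp only [h2]
  rw [← Finset.mul_sum]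
  ext1 f
  simp [map_smul]

/-- Consequently `d+1` Thorp steps are the network -/
theorem opOf_pow_eq_net (d : ℕ) :
    opOf (thorpLaw (2 ^ d)) ^ (d + 1) = net (deckRep d) := by
  rw [opOf_thorpLaw_eq]
  exact thorp_pow_eq_net (deckRep d)

end Vale.Agent.P162
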