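/-
P162: final assembly.
-/
import Vale.Agent.P162.ThorpId

open scoped InnerProductSpace BigOperators
open Finset

namespace Vale.Agent.P162

/-- The exponential bound used for the number of rounds. -/
theorem rounds_bound (d r : ℕ) (hr : r = 12800 * (d + 1)) :
    ((Fintype.card (Fin (2 * 2 ^ d)) : ℝ)) ^ 2 *
      Real.exp (-(3 * ((r : ℝ) * (1 / 800)) / 8)) ≤ 1 / 8 := by
  have h1 : ((Fintype.card (Fin (2 * 2 ^ d)) : ℝ)) ^ 2 = 4 ^ (d + 1) := by
    rw [Fintype.card_fin]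
    push_cast
    have h4 : (4 : ℝ) ^ d = (2 ^ d) ^ 2 := by
      rw [← pow_mul, mul_comm, pow_mul]
      norm_num
    rw [pow_succ (4 : ℝ) d, h4]
    ring
  have h2 : -(3 * ((r : ℝ) * (1 / 800)) / 8) = ((d + 1 : ℕ) : ℝ) * (-6) := by
    rw [hr]
    push_cast
    ring
  rw [h1, h2, Real.exp_nat_mul, ← mul_pow]
  have h3 : Real.exp (-6) ≤ 1 / 64 := by
    rw [Real.exp_neg, one_div]
    apply inv_anti₀ (by norm_num)
    have h4 : (2 : ℝ) ≤ Real.exp 1 := by
      have := Real.add_one_le_exp (1 : ℝ)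
      linarith
    have h5 : Real.exp 6 = Real.exp 1 ^ 6 := by
      rw [← Real.exp_nat_mul]
      norm_num
    rw [h5]
    calc (64 : ℝ) = 2 ^ 6 := by norm_num
      _ ≤ Real.exp 1 ^ 6 := pow_le_pow_left₀ (by norm_num) h4 6
  have h4 : 4 * Real.exp (-6) ≤ 1 / 16 := by linarith
  have h5 : 0 ≤ 4 * Real.exp (-6) := by positivity
  have h6 : (4 * Real.exp (-6)) ^ (d + 1) ≤ 4 * Real.exp (-6) := by
    rw [pow_succ]
    have : (4 * Real.exp (-6)) ^ d ≤ 1 := pow_le_one₀ h5 (by linarith)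
    nlinarith
  linarith

/-- The main bound: `12800 (d+1)²` shuffles suffice. -/
theorem thorp_tv (d : ℕ) :
    tvUnif (convPow (thorpLaw (2 ^ d)) (12800 * (d + 1) ^ 2)) ≤ 1 / 4 := by
  set X := Fin (2 * 2 ^ d) with hX
  set B := net (deckRep d) with hB
  obtain ⟨r, hr⟩ : ∃ r : ℕ, r = 12800 * (d + 1) := ⟨_, rfl⟩
  have ht : 12800 * (d + 1) ^ 2 = (d + 1) * r := by
    rw [hr]
    ring
  have hopB : opOf (thorpLaw (2 ^ d)) ^ (d + 1) = B := opOf_pow_eq_net d
  have hpow : opOf (thorpLaw (2 ^ d)) ^ ((d + 1) * r) = B ^ r := by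
    rw [← hopB, ← pow_mul]
  rw [ht]
  have hfun : (convPow (thorpLaw (2 ^ d)) ((d + 1) * r)) =
      fun g => ((B ^ r) (delta1 X)) g := by
    funext g
    rw [convPow_eq_opOf_pow, hpow]
  rw [hfun]
  have horth : IsOrth (deckRep d) := (regRep_orth (X := X)).comp _
  have hheat : ∀ s, heat (deckRep d) s = heat (regRep X) s :=
    fun s => heat_conj (posE d) (regRep X) s
  refine tv_of_domination (X := X) ?_ ?_ (c := 1 / 800) (by norm_num) ?_ ?_ ?_ r ?_
  · show Even (Fintype.card (Fin (2 * 2 ^ d)))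
    rw [Fintype.card_fin]
    exact even_two_mul _
  · show 2 ≤ Fintype.card (Fin (2 * 2 ^ d))
    rw [Fintype.card_fin]
    have : 1 ≤ 2 ^ d := Nat.one_le_two_pow
    omega
  · intro s
    apply Commute.symm
    apply net_commute
    intro g
    exact (heat_commute_map (regRep X) (conjHom (posE d) g) s).symm
  · intro f
    have := net_domination' (d + 1) (deckRep d) horth f
    rwa [hheat] at this
  · apply net_apply_of_fixed
    intro g
    exact regRep_unif _
  · exact rounds_bound d r hr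

/-- `t_mix(2^(d+1)) ≤ 12800 (d+1)²`. -/
theorem tmix_le (d : ℕ) : tmix (2 ^ d) ≤ 12800 * (d + 1) ^ 2 :=
  Nat.sInf_le (thorp_tv d)

end Vale.Agent.P162
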